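import Crest.Statements.S0003
import Crest.Agent.R3.Glob

set_option autoImplicit false
open Crest.NumberTheoryR.CharVarRel
open Crest Crest.NumberTheoryR

namespace Crest.Agent.S0003

/-- Let r ≥ 1, c_j ∈ SL_r(ℂ) (j < s) have all eigenvalues roots of unity, K ⊂ ℂ a number field containing them, p ≠ q primes greater than r, L = K(√2, pq-th roots of unity) with all r-th roots of all units of its integer ring adjoined. Among semisimple representations ρ of the genus-g, s-puncture surface group in SL_r(ℂ) with j-th boundary matrix conjugate to c_j, those with all integer invariants in L and integral over ℤ are Zariski dense: invariant polynomials vanishing there vanish at each ρ. -/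
theorem result (g s r : ℕ) (hr : 1 ≤ r)
    (c : Fin s → Matrix.SpecialLinearGroup (Fin r) ℂ) (hc : ∀ j, IsQuasiUnipotent (c j))
    (K : Subfield ℂ) (hK : FiniteDimensional ℚ K)
    (hcK : ∀ j, ∀ μ : ℂ, (c j).1.charpoly.IsRoot μ → μ ∈ K)
    (p q : ℕ) (hp : p.Prime) (hq : q.Prime) (hpq : p ≠ q) (hrp : r < p) (hrq : r < q)
    (f : MvPolynomial (RelVar g s r) ℂ) (hf : IsConjInvariantRel f)
    (hvan : ∀ T : RelGen g s → Matrix.SpecialLinearGroup (Fin r) ℂ, IsRelSurfaceRep g s r T →
      IsSemisimpleRep T → HasBoundaryClasses c T →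
      IsIntegrallyValuedIn (unitRootField (rootField K (p * q)) r) T → evalRep f T = 0)
    (T : RelGen g s → Matrix.SpecialLinearGroup (Fin r) ℂ) (hT : IsRelSurfaceRep g s r T)
    (hss : IsSemisimpleRep T) (hcl : HasBoundaryClasses c T) :
    evalRep f T = 0 := by
  classical
  obtain ⟨B, J, _, _, π, ev, hU⟩ := R3.exists_univ (R3.intRing (rootField K (p * q)))
  have hG := hU.good (R3.inf_unit K _)
  choose ξ hξ using fun j => R3.killed_of_quasiUnipotent K (p * q) (c j) (hc j) (hcK j)
  obtain ⟨A, u, hA, hu, κ, τ, Θ, hΘ, hgen⟩ :=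
    R3.global_lift hU hG hr (R3.hasD K hp hq hpq hrp hrq) c ξ hξ T hT hss hcl
  let τ' : (RelVar g s r ⊕ (Fin g × Bool)) ⊕ κ → B :=
    Sum.elim (Sum.elim (fun v => A v.1 v.2.1 v.2.2) (fun k => (u k : B))) τ
  have h1 := hU.cl _ τ'
  have h2 := R3.zcl_open h1 (Θ := MvPolynomial.rename Sum.inr Θ)
    (by rw [MvPolynomial.eval_rename]; exact hΘ)
  have h3 := R3.zcl_root h2 (r := r) hr (fun k : Fin g × Bool => Sum.inl (Sum.inr k))
    (by
      rintro _ ⟨⟨j, rfl⟩, -⟩ k h0
      have h0' : ev j (u k : B) = 0 := Subtype.ext h0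
      exact (((u k).isUnit.map (ev j)).ne_zero) h0')
    (t0 := fun _ => 1) (fun k => by simp [τ', hu])
  let w : RelVar g s r → MvPolynomial (((RelVar g s r ⊕ (Fin g × Bool)) ⊕ κ) ⊕ (Fin g × Bool)) ℂ :=
    fun v => Sum.elim (fun k => MvPolynomial.X (Sum.inr k)) (fun _ => 1) v.1 *
      MvPolynomial.X (Sum.inl (Sum.inl (Sum.inl v)))
  have key : ∀ (y : ((RelVar g s r ⊕ (Fin g × Bool)) ⊕ κ) ⊕ (Fin g × Bool) → ℂ)
      (T' : RelGen g s → Matrix.SpecialLinearGroup (Fin r) ℂ),
      (∀ v : RelVar g s r, MvPolynomial.eval y (w v) = (T' v.1).1 v.2.1 v.2.2) →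
      MvPolynomial.eval y (MvPolynomial.aeval w f) = evalRep f T' := by
    intro y T' h
    rw [← MvPolynomial.coe_aeval_eq_eval, evalRep]
    change ((MvPolynomial.aeval y).comp (MvPolynomial.aeval w)) f = _
    rw [MvPolynomial.comp_aeval]
    congr 2
    funext v
    rw [← h v]
    rfl
  have h4 := h3 (MvPolynomial.aeval w f) (by
    rintro _ ⟨_, ⟨⟨j, rfl⟩, hj⟩, t, ht, rfl⟩
    let φ : B →ₐ[R3.intRing (rootField K (p * q))] ℂ := (Algebra.ofId _ ℂ).comp (ev j)
    have hj' : MvPolynomial.eval (fun k => φ (τ k)) Θ ≠ 0 := by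
      have := hj
      simp only [Set.mem_setOf_eq, MvPolynomial.eval_rename] at this
      exact this
    obtain ⟨T', e1, e2, r1, r2, r3⟩ := hgen φ hj' t ht
    rw [key _ T']
    · refine hvan T' r1 r2 r3 (R3.integrallyValued _ T' ?_)
      rintro (k | l) a b
      · rw [e1]
        refine Subring.mul_mem _ (R3.root_mem_L (rootField K (p * q)) hr
          (Units.map (ev j).toRingHom.toMonoidHom (u k)) (ht k)) ?_
        exact R3.int_mem_L _ r (ev j (A (Sum.inl k) a b))
      · rw [e2]
        exact R3.int_mem_L _ r (ev j (A (Sum.inr l) a b))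
    · rintro ⟨k | l, a, b⟩
      · simp only [w, e1, Sum.elim_inl, map_mul, MvPolynomial.eval_X, Sum.elim_inr]
        rfl
      · simp only [w, e2, Sum.elim_inl, map_mul, MvPolynomial.eval_X, Sum.elim_inr, map_one, one_mul]
        rfl)
  rw [← key _ T]
  · exact h4
  · rintro ⟨k | l, a, b⟩ <;> simp [w, τ', ← hA]

end Crest.Agent.S0003
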