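import Crest.Statements.S0006
import Crest.Agent.R6.Real
import Crest.Agent.R6.Arith

set_option autoImplicit false
open Crest Crest.NumberTheoryR

namespace Crest.Agent.S0006

/-- Catalan's constant, the sum of the series whose j-th term (j = 0, 1, 2, …) is (-1)^j/(2j+1)^2, is an irrational real number. -/
theorem result :
    Irrational (∑' j : ℕ, (-1 : ℝ) ^ j / ((2 * j + 1 : ℝ) ^ 2)) := by
  rintro ⟨γ, hγ⟩
  have hG : R6.catalan = (γ : ℝ) := hγ.symm
  obtain ⟨N0, hN0⟩ := Filter.eventually_atTop.1 ((R6.arith_lower γ).and R6.real_upper)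
  obtain ⟨N, hN, hp⟩ := Nat.exists_infinite_primes N0
  obtain ⟨h1, h2⟩ := hN0 N hN
  have e : R6.matR N = (R6.matQ N γ).map (Rat.castHom ℝ) := by
    ext r k
    simp [R6.matR, R6.matQ, hG]
  have e2 : (R6.matR N).det = (((R6.matQ N γ).det : ℚ) : ℝ) := by
    rw [e]
    exact ((Rat.castHom ℝ).map_det _).symm
  rw [e2] at h2
  have h3 := Real.exp_le_exp.1 ((h1 hp).trans h2)
  have h4 : (0 : ℝ) < N := by exact_mod_cast hp.pos
  have h5 : (0 : ℝ) < (36 * N) ^ 2 := by positivity
  nlinarith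

end Crest.Agent.S0006
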