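import Crest.Statements.S0010
import Crest.Agent.R9.Proj
import Crest.Agent.R9.Fld

set_option autoImplicit false
open Crest.NumberTheoryR.MilnorK
open Crest Crest.NumberTheoryR

namespace Crest.Agent.S0010

open Crest.Agent.R9

lemma map_mem {p : ℕ} [Fact p.Prime] {K L : Type*} [Field K] [Field L] [CharP K p] [CharP L p]
    (k : Subfield K) (l : Subfield L) [IsAlgClosed k] [IsAlgClosed l]
    (hL : ∃ s : Finset L, Subfield.closure ((l : Set L) ∪ (s : Set L)) = ⊤) (α : K ≃+* L)
    {z : K} (hz : z ∈ k) : α z ∈ l := by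
  apply mem_of_roots (p := p) l hL
  intro n
  obtain ⟨w, hw⟩ := exists_root (p := p) k hz n
  exact ⟨α w, by rw [← map_pow, hw]⟩

lemma cl_of_cls {p : ℕ} [Fact p.Prime] {K L : Type*} [Field K] [Field L] [CharP K p] [CharP L p]
    (Θ : KOne K p ≃ₗ[ZMod p] KOne L p) (α : K ≃+* L) {c : ZMod p} (hc : c ≠ 0)
    (h : ∀ u : Kˣ, Θ (cls K p u) = c • cls L p (Units.map α.toRingHom.toMonoidHom u))
    {x : K} (hx : x ≠ 0) : cl p (α x) = c⁻¹ • Θ (cl p x) := by
  rw [cl_of_ne hx, h, cls_eq_cl, smul_smul, inv_mul_cancel₀ hc, one_smul]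
  rfl

/-- Let K and L be fields of characteristic p that are finitely generated and of transcendence degree at least 2 over algebraically closed subfields k and l. Let Θ be a linear isomorphism, over the integers mod p, from Kˣ/(Kˣ)^p to Lˣ/(Lˣ)^p that maps the span of the Steinberg elements [f] ⊗ [1 - f] (f ≠ 0, 1) of K exactly onto that of L. Then there is exactly one field isomorphism α from K to L with α(k) = l such that, for some non-zero scalar c, Θ[u] = c · [α(u)] for every unit u of K. -/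
theorem result {p : ℕ} [Fact p.Prime]
    {K L : Type*} [Field K] [Field L] [CharP K p] [CharP L p] (k : Subfield K) (l : Subfield L)
    [IsAlgClosed k] [IsAlgClosed l]
    (hK : ∃ s : Finset K, Subfield.closure ((k : Set K) ∪ (s : Set K)) = ⊤)
    (hL : ∃ s : Finset L, Subfield.closure ((l : Set L) ∪ (s : Set L)) = ⊤)
    (hK2 : 2 ≤ Algebra.trdeg k K) (hL2 : 2 ≤ Algebra.trdeg l L)
    (Θ : KOne K p ≃ₗ[ZMod p] KOne L p) (hΘ : IsCompatible Θ) :
    ∃! α : K ≃+* L, k.map α.toRingHom = l ∧
      ∃ c : ZMod p, c ≠ 0 ∧ ∀ u : Kˣ, Θ (cls K p u) = c • cls L p (Units.map α.toRingHom.toMonoidHom u) := by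
  have hpar := par_iff_of_isCompatible Θ hΘ
  have hpar' : ∀ A B, Par (Θ.symm A) (Θ.symm B) ↔ Par A B := fun A B => by
    rw [← hpar]; simp
  have hK' := exists_not_mem_Cen k hK hK2
  have hL' := exists_not_mem_Cen l hL hL2
  obtain ⟨e, he, h1⟩ := exists_scalar Θ hpar hK'
  obtain ⟨e', he', h2⟩ := exists_scalar Θ.symm hpar' hL'
  obtain ⟨x0, hx0⟩ : ∃ x0 : K, x0 ∉ PP K p := by
    obtain ⟨y, hy⟩ := hK' 0
    exact ⟨y, fun h => hy (PP_le_Cen 0 h)⟩
  have hee : e' * e = 1 := by
    obtain ⟨u, u0, u1, u2, u3⟩ := h1 x0 hx0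
    have huP : u ∉ PP L p := by
      rw [← cl_eq_zero_iff u0, u2, smul_eq_zero_iff_right he, LinearEquiv.map_eq_zero_iff]
      exact cl_ne_zero hx0
    obtain ⟨v, v0, v1, v2, v3⟩ := h2 u huP
    rw [u2, map_smul, LinearEquiv.symm_apply_apply, smul_smul] at v2
    rw [u3, map_smul, LinearEquiv.symm_apply_apply, smul_smul] at v3
    exact Gd.unique (mul_ne_zero he' he) one_ne_zero (cl_ne_zero hx0) ⟨v, v0, v1, v2, v3⟩
      ⟨x0, ne_zero_of_not_mem hx0, ne_zero_of_not_mem (one_add_not_mem hx0), (one_smul _ _).symm,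
        (one_smul _ _).symm⟩
  let Ψ : KOne K p ≃+ KOne L p :=
    { toFun := fun A => e • Θ A
      invFun := fun B => e' • Θ.symm B
      left_inv := fun A => by
        simp only [map_smul, LinearEquiv.symm_apply_apply, smul_smul, hee, one_smul]
      right_inv := fun B => by
        simp only [map_smul, LinearEquiv.apply_symm_apply, smul_smul, mul_comm e e', hee, one_smul]
      map_add' := fun A B => by rw [map_add, smul_add] }
  have hΨ : Lin Ψ := h1
  have hΨ' : Lin Ψ.symm := h2
  obtain ⟨α, hα⟩ := exists_ringEquiv hΨ hΨ' hK'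
  have hα' : ∀ u : Kˣ, Θ (cls K p u) = e' • cls L p (Units.map α.toRingHom.toMonoidHom u) := by
    intro u
    rw [cls_eq_cl, cls_eq_cl]
    have : cl p (α u) = e • Θ (cl p (u : K)) := hα u
    change _ = e' • cl p (α u)
    rw [this, smul_smul, hee, one_smul]
  refine ⟨α, ⟨?_, e', he', hα'⟩, ?_⟩
  · ext z
    rw [Subfield.mem_map]
    constructor
    · rintro ⟨w, hw, rfl⟩
      exact map_mem (p := p) k l hL α hw
    · intro hz
      exact ⟨α.symm z, map_mem (p := p) l k hK α.symm hz, by simp⟩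
  · rintro β ⟨-, c, hc, hβ⟩
    have key : ∀ x : K, x ∉ PP K p → β x = α x := by
      intro x hx
      have x0 := ne_zero_of_not_mem hx
      have x1 := ne_zero_of_not_mem (one_add_not_mem hx)
      refine (rep_unique (inv_ne_zero hc) (inv_ne_zero he') (A := Θ (cl p x))
        (B := Θ (cl p (1 + x))) ?_ ((map_ne_zero β).2 x0) ?_ ((map_ne_zero α).2 x0) ?_
        (cl_of_cls Θ β hc hβ x0) ?_ (cl_of_cls Θ α he' hα' x0) ?_).1
      · rw [Ne, LinearEquiv.map_eq_zero_iff]; exact cl_ne_zero hx
      · simpa using (map_ne_zero β).2 x1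
      · simpa using (map_ne_zero α).2 x1
      · simpa using cl_of_cls Θ β hc hβ x1
      · simpa using cl_of_cls Θ α he' hα' x1
    ext x
    by_cases hx : x ∈ PP K p
    · have := key (x0 + x) (fun hc => hx0 (by simpa using sub_mem hc hx))
      rw [map_add, map_add, key x0 hx0] at this
      exact add_left_cancel this
    · exact key x hx

end Crest.Agent.S0010
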