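import Crest.Statements.S0011
import Crest.Agent.R10.Final

set_option autoImplicit false
open Crest.NumberTheoryR.GT
open Crest Crest.NumberTheoryR

namespace Crest.Agent.S0011

/-- Let W be the space of elements of the free ℚ-Lie algebra on x, y satisfying antisymmetry, the three-term equation and the pentagon equation (in the four-strand infinitesimal braid Lie algebra). Then W with the Ihara bracket is a free Lie algebra on one homogeneous generator in each odd weight 3, 5, 7, …: there is an injective ℚ-linear map from the free Lie algebra on generators e₀, e₁, e₂, … onto W, carrying the free bracket to the Ihara bracket, with the image of e_k of weight 2k + 3. -/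
theorem result :
    ∃ Φ : FreeLieAlgebra ℚ ℕ →ₗ[ℚ] GTLie,
      Function.Injective Φ ∧ LinearMap.range Φ = grtSpace ∧
      (∀ a b : FreeLieAlgebra ℚ ℕ, Φ ⁅a, b⁆ = iharaBracket (Φ a) (Φ b)) ∧
      (∀ k : ℕ, Φ (FreeLieAlgebra.of ℚ k) ∈ weightSubspace (fun _ : Fin 2 => 1) (2 * k + 3)) :=
  Crest.Agent.R10.final

end Crest.Agent.S0011
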