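import Crest.Statements.S0029
import Crest.Agent.R22.Final

set_option autoImplicit false
open Crest.NumberTheoryR Filter Topology
open Crest Crest.NumberTheoryR

namespace Crest.Agent.S0029

/-- Let f be an integer polynomial, irreducible over ℚ, of degree d with 4 ≤ d ≤ 8, and let k = d − 2. Suppose that for every prime p some residue class modulo p^k contains no root of f modulo p^k. Then the Euler product over primes p of (1 − ρ(p^k)/p^k), ρ(q) being the number of roots of f modulo q, converges to a positive real c, and the number of integers 1 ≤ n ≤ X with f(n) k-power-free, divided by X, tends to c. -/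
theorem result (f : Polynomial ℤ) (k : ℕ)
    (hirr : Irreducible (f.map (Int.castRingHom ℚ))) (hdeg : 4 ≤ f.natDegree ∧ f.natDegree ≤ 8)
    (hk : k + 2 = f.natDegree) (hloc : ∀ p : ℕ, p.Prime → polyRootCountMod f (p ^ k) < p ^ k) :
    ∃ c : ℝ, 0 < c ∧
      HasProd (fun p : Nat.Primes => 1 - (polyRootCountMod f ((p : ℕ) ^ k) : ℝ) / ((p : ℕ) : ℝ) ^ k) c ∧
      Tendsto (fun N : ℕ => (powerFreeValueCount f k N : ℝ) / (N : ℝ)) atTop (𝓝 c) := by
  exact Crest.Agent.R22.final f k hirr hdeg hk hloc

end Crest.Agent.S0029
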