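import Crest.Statements.S0051
import Crest.Agent.R37.Exist

set_option autoImplicit false
open Crest.CombinatoricsR.Multigraph
open Crest Crest.CombinatoricsR

namespace Crest.Agent.S0051

/-- There are C > 0 and a polynomial-time map f on bit strings such that for n, k ≥ 1 and every loopless multigraph on n vertices (a symmetric multiplicity table with zero diagonal) in which at least k edges, with multiplicity, leave each nonempty proper vertex set S, the value of f at the binary code of (n, k, table) decodes to a spanning tree — n − 1 pairs (i, j), i < j, of positive multiplicity, the adjacency graph connected — with at most (C / k) · (edges leaving S) pairs in each such cut. -/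
theorem result :
    ∃ C : ℝ, 0 < C ∧ ∃ f : List Bool → List Bool, Crest.Complexity.PolyTime f ∧
      ∀ (n k : ℕ) (mult : Fin n → Fin n → ℕ), 1 ≤ n → 1 ≤ k →
        (∀ i j, mult i j = mult j i) → (∀ i, mult i i = 0) →
        (∀ S : Finset (Fin n), S.Nonempty → S ≠ Finset.univ → k ≤ ∑ i ∈ S, ∑ j ∈ Sᶜ, mult i j) →
        ∀ T : Finset (Fin n × Fin n), T = decodePairs n (f (multigraphCode n k mult)) →
          (∀ p ∈ T, p.1 < p.2 ∧ 1 ≤ mult p.1 p.2) ∧ T.card + 1 = n ∧
          (adjGraph Prod.fst Prod.snd T).Connected ∧
          ∀ S : Finset (Fin n), S.Nonempty → S ≠ Finset.univ →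
            ((cutEdges Prod.fst Prod.snd T S).card : ℝ) ≤
              C / k * ((∑ i ∈ S, ∑ j ∈ Sᶜ, mult i j : ℕ) : ℝ) := by
  exact Crest.Agent.R37.algorithm

end Crest.Agent.S0051
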