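import Crest.Statements.S0054
import Crest.Agent.R40.Main

set_option autoImplicit false
open Crest Crest.CombinatoricsR

namespace Crest.Agent.S0054

/-- For every colouring of the Euclidean plane with five colours there are two points at distance one that receive the same colour. No measurability or other restriction is placed on the colour classes. -/
theorem result
    (c : EuclideanSpace ℝ (Fin 2) → Fin 5) :
    ∃ x y : EuclideanSpace ℝ (Fin 2), dist x y = 1 ∧ c x = c y := by
  obtain ⟨x, u, hu, h⟩ :=
    Crest.Agent.R40.no_colouring (fun z => c (Complex.orthonormalBasisOneI.repr z))
  refine ⟨Complex.orthonormalBasisOneI.repr x, Complex.orthonormalBasisOneI.repr (x + u), ?_, h⟩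
  rw [LinearIsometryEquiv.dist_map, dist_eq_norm]
  simpa using hu

end Crest.Agent.S0054
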