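import Crest.Statements.S0066
import Crest.Agent.R47.Main

set_option autoImplicit false
open Crest Crest.CombinatoricsR

namespace Crest.Agent.S0066

/-- There is a fixed 66 × 66 binary pattern H such that for every h ≥ 1, with n = (386h + 2) · 2^h and ε = (386h + 2)⁻², some n × n binary matrix A is ε-far from free of ordered copies of H (every n × n binary matrix without an ordered copy of H differs from A in at least ε · n² cells) while the number of ordered copies of H in A is at most ε · 2^(-h) · n^132. An ordered copy picks 66 rows and 66 columns in increasing order on which A coincides with H, zeros included. -/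
theorem result :
    ∃ H : Fin 66 → Fin 66 → Bool, ∀ h : ℕ, 1 ≤ h →
      ∃ A : Fin ((386 * h + 2) * 2 ^ h) → Fin ((386 * h + 2) * 2 ^ h) → Bool,
        (∀ B : Fin ((386 * h + 2) * 2 ^ h) → Fin ((386 * h + 2) * 2 ^ h) → Bool,
          Crest.CombinatoricsR.OrderedMatrix.orderedCopyCount H B = 0 →
            ((386 * (h : ℝ) + 2) ^ 2)⁻¹ * (((386 * h + 2) * 2 ^ h : ℕ) : ℝ) ^ 2 ≤
              ((Finset.univ.filter (fun rc : Fin ((386 * h + 2) * 2 ^ h) × Fin ((386 * h + 2) * 2 ^ h) =>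
                A rc.1 rc.2 ≠ B rc.1 rc.2)).card : ℝ)) ∧
        (Crest.CombinatoricsR.OrderedMatrix.orderedCopyCount H A : ℝ) /
            (((386 * h + 2) * 2 ^ h : ℕ) : ℝ) ^ 132 ≤
          ((386 * (h : ℝ) + 2) ^ 2)⁻¹ * (2 : ℝ)⁻¹ ^ h := by
  refine ⟨R47.H, ?_⟩
  intro h hh
  obtain ⟨g, rfl⟩ : ∃ g, h = g + 1 := ⟨h - 1, by omega⟩
  obtain ⟨pR, hR, hR'⟩ := R47.exists_pos (R47.keyR g) (R47.keyR_inj g) (R47.card_idx_le g)
  obtain ⟨pC, hC, hC'⟩ := R47.exists_pos (R47.keyC g) (R47.keyC_inj g) (R47.card_idx_le g)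
  refine ⟨R47.host pR pC, ?_, ?_⟩
  · intro B hB
    have h1 := R47.far hR hC hR' hC' B hB
    refine le_trans (le_of_eq ?_) (Nat.cast_le.2 h1)
    push_cast
    field_simp
  · have h1 := R47.count_le hR hC hR' hC'
    have h2 : ((Crest.CombinatoricsR.OrderedMatrix.orderedCopyCount R47.H (R47.host pR pC) : ℕ) : ℝ)
        ≤ (((386 * (g + 1) + 2) * 2 ^ (g + 1) : ℕ) : ℝ) ^ 64 *
          (((386 * (g + 1) + 2) * 2 ^ (g + 1) : ℕ) : ℝ) ^ 64 * 2 ^ (g + 1) * 8 := by
      exact_mod_cast h1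
    obtain ⟨m, hm⟩ : ∃ m : ℝ, m = 386 * ((g + 1 : ℕ) : ℝ) + 2 := ⟨_, rfl⟩
    obtain ⟨N, hN⟩ : ∃ N : ℝ, N = 2 ^ (g + 1) := ⟨_, rfl⟩
    have hn : (((386 * (g + 1) + 2) * 2 ^ (g + 1) : ℕ) : ℝ) = m * N := by
      rw [hm, hN]; push_cast; ring
    have hm3 : 3 ≤ m := by
      rw [hm]; have : (0 : ℝ) ≤ g := Nat.cast_nonneg g
      push_cast; linarith
    have hN1 : 1 ≤ N := by rw [hN]; exact one_le_pow₀ (by norm_num)
    rw [hn, ← hN] at h2
    rw [hn, ← hm, inv_pow, ← hN]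
    have hm0 : 0 < m := by linarith
    have hN0 : 0 < N := by linarith
    rw [div_le_iff₀ (by positivity)]
    refine h2.trans ?_
    have h3 : (m ^ 2)⁻¹ * N⁻¹ * (m * N) ^ 132 = (m * N) ^ 64 * (m * N) ^ 64 * N * (m ^ 2 * N ^ 2) := by
      field_simp
    rw [h3]
    refine mul_le_mul_of_nonneg_left ?_ (by positivity)
    have h4 : 9 ≤ m ^ 2 := by nlinarith
    have h5 : 1 ≤ N ^ 2 := by nlinarith
    nlinarith

end Crest.Agent.S0066
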