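import Crest.Statements.S0070
import Crest.Agent.R51.Submul
import Crest.Agent.R51.KSets

set_option autoImplicit false
open Classical
open Crest Crest.CombinatoricsR

namespace Crest.Agent.S0070

/-- There are real constants ε₀ > 0 and C₀ such that for every natural number n ≥ 2, every natural number k with 1 ≤ k and 2k ≤ n, and every set Q of n points in the plane no three of which are collinear, the number of k-element subsets S of Q that are strictly separated from the rest of Q by a line (some a, b, c with (a, b) ≠ (0, 0), a·x + b·y + c < 0 on S and > 0 on Q outside S) is at most C₀ · n · (k + 1) ^ (1/3 - ε₀). -/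
theorem result :
    ∃ ε₀ : ℝ, 0 < ε₀ ∧ ∃ C₀ : ℝ, ∀ n : ℕ, 2 ≤ n → ∀ k : ℕ, 1 ≤ k → 2 * k ≤ n →
      ∀ Q : Finset (ℝ × ℝ), Q.card = n →
        (∀ p ∈ Q, ∀ q ∈ Q, ∀ r ∈ Q, p ≠ q → p ≠ r → q ≠ r →
          (q.1 - p.1) * (r.2 - p.2) - (q.2 - p.2) * (r.1 - p.1) ≠ 0) →
        (((Q.powersetCard k).filter (fun S => ∃ a b c : ℝ, (a ≠ 0 ∨ b ≠ 0) ∧
            (∀ p ∈ S, a * p.1 + b * p.2 + c < 0) ∧
            (∀ p ∈ Q, p ∉ S → 0 < a * p.1 + b * p.2 + c))).card : ℝ)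
          ≤ C₀ * (n : ℝ) * ((k : ℝ) + 1) ^ ((1 : ℝ) / 3 - ε₀) := by
  obtain ⟨ε₀, C, h0, h1, hC, h⟩ := Crest.Agent.R51.kband
  refine ⟨ε₀, h0, 2 * C + 2, fun n hn k hk _ Q hQ _ => ?_⟩
  obtain ⟨k, rfl⟩ : ∃ k', k = k' + 1 := ⟨k - 1, by omega⟩
  obtain ⟨P, hP, hPQ, hle⟩ := Crest.Agent.R51.exists_gp Q (k + 1)
  obtain ⟨P', hP', hPP, hle'⟩ := hP.card_sepa k
  have e1 := h P k hP
  have e2 := h P' k hP'
  rw [hPP] at e2
  rw [hPQ, hQ] at e1 e2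
  have hn' : (1 : ℝ) ≤ n := by exact_mod_cast (show 1 ≤ n by omega)
  have hk0 : (0 : ℝ) ≤ k := Nat.cast_nonneg k
  have hx : (0 : ℝ) ≤ (1 : ℝ) / 3 - ε₀ := by linarith
  have hr : ((k : ℝ) + 1) ^ ((1 : ℝ) / 3 - ε₀) ≤ (((k + 1 : ℕ) : ℝ) + 1) ^ ((1 : ℝ) / 3 - ε₀) := by
    apply Real.rpow_le_rpow (by linarith) _ hx
    push_cast
    linarith
  have hr1 : (1 : ℝ) ≤ (((k + 1 : ℕ) : ℝ) + 1) ^ ((1 : ℝ) / 3 - ε₀) := by
    apply Real.one_le_rpow _ hx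
    push_cast
    linarith
  set X := (((k + 1 : ℕ) : ℝ) + 1) ^ ((1 : ℝ) / 3 - ε₀)
  have e3 : C * n * ((k : ℝ) + 1) ^ ((1 : ℝ) / 3 - ε₀) ≤ C * n * X := by gcongr
  have e4 : (1 : ℝ) ≤ n * X := by nlinarith
  have e5 : ((((Q.powersetCard (k + 1)).filter (Crest.Agent.R51.Sepa Q)).card : ℕ) : ℝ) ≤
      ((Crest.Agent.R51.band P k 1).card : ℝ) + (Crest.Agent.R51.band P' k 1).card + 2 := by
    exact_mod_cast hle.trans hle'
  refine le_trans (le_of_eq ?_) (e5.trans ?_)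
  · congr
  · nlinarith

end Crest.Agent.S0070
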