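import Crest.Statements.S0072
import Crest.Agent.R52.Convex

set_option autoImplicit false
open Crest Crest.CombinatoricsR

namespace Crest.Agent.S0072

/-- Let N ≥ 1, 0 < p < 1, k = 2^75, and let D be any family of subsets of an N-element set whose probability under the product measure with density p (each element present independently with probability p) is at least 1 - 1/k. Then the family of all sets S that are contained in no union of k members of D (members may repeat) is p-small: there is a family G of sets such that every such S contains a member of G and Σ_{I ∈ G} p^(card I) ≤ 1/2. -/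
theorem result (N : ℕ) (hN : 1 ≤ N) (p : ℝ)
    (hp0 : 0 < p) (hp1 : p < 1) (D : Finset (Finset (Fin N)))
    (hD : 1 - 1 / 2 ^ 75 ≤ ∑ S ∈ D, p ^ S.card * (1 - p) ^ (N - S.card)) :
    ∃ G : Finset (Finset (Fin N)),
      (∀ S : Finset (Fin N),
        (∀ f : Fin (2 ^ 75) → Finset (Fin N), (∀ i, f i ∈ D) → ¬ S ⊆ Finset.univ.biUnion f) →
          ∃ I ∈ G, I ⊆ S) ∧
      ∑ I ∈ G, p ^ I.card ≤ 1 / 2 := by
  refine Crest.Agent.R52.discrete_convexity (k := 2 ^ 75) (by norm_num) p hp0 hp1 D ?_
  rw [Fintype.card_fin, Nat.cast_pow, Nat.cast_ofNat]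
  exact hD

end Crest.Agent.S0072
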