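import Crest.Statements.S0073
import Crest.Agent.R52G.Decomp

set_option autoImplicit false
open Crest Crest.CombinatoricsR

namespace Crest.Agent.S0073

open Finset Crest.CombinatoricsR.RandomGraph Crest.Agent.R52 Crest.Agent.R52G

theorem gnp_eq (n : ℕ) (ρ : ℝ) (E : Set (SimpleGraph (Fin n))) :
    gnpProb n ρ E = Pr (bw ρ) (fun ω : EdgeSlot n → Bool => graphOf ω ∈ E) := by
  classical
  unfold gnpProb FinProb.bernoulliProb Pr Ex
  rw [Finset.sum_filter]
  refine Finset.sum_congr rfl fun ω _ => ?_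
  simp only [Set.mem_ofPred_eq, ind, pw, bw, FinProb.bernoulliWeight]
  split_ifs <;> simp

/-- Choice of the signs. -/
theorem exists_signs {n : ℕ} (ρ : ℝ) (h0 : 0 ≤ ρ) (h1 : ρ ≤ 1) (N : Fin n → Finset (Fin n))
    (h : failAvg ρ N ≤ 1 / 4) : ∃ s : Fin n × Fin n → Bool, ∀ β : Bool,
      1 / 2 ≤ Pr (bw ρ) (fun ω : EdgeSlot n → Bool =>
        Contains ω (fun a => (N a).filter (fun b => s (a, b) = β))) := by
  let f : (Fin n × Fin n → Bool) → ℝ := fun s =>
    Pr (bw ρ) (fun ω : EdgeSlot n → Bool => ¬ Contains ω (thin N s))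
  obtain ⟨s, hs⟩ := exists_le_Ex (isProb_bw (p := 1 / 2) (by norm_num) (by norm_num))
    (fun s : Fin n × Fin n → Bool => f s + f (fun i => ! s i))
  rw [Ex_add, Ex_half_not f] at hs
  have e : Ex (bw (1 / 2)) f = failAvg ρ N := rfl
  have n1 : 0 ≤ f s := Pr_nonneg (isProb_bw h0 h1).nonneg _
  have n2 : 0 ≤ f (fun i => ! s i) := Pr_nonneg (isProb_bw h0 h1).nonneg _
  refine ⟨s, fun β => ?_⟩
  cases β
  · have e2 : f (fun i => ! s i) = 1 - Pr (bw ρ) (fun ω : EdgeSlot n → Bool =>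
        Contains ω (fun a => (N a).filter (fun b => s (a, b) = false))) := by
      simp only [f]
      rw [Pr_not (sum_bw _)]
      have : thin N (fun i => ! s i) = fun a => (N a).filter (fun b => s (a, b) = false) := by
        funext a
        simp only [thin, Bool.not_eq_true']
      rw [this]
    linarith
  · have e2 : f s = 1 - Pr (bw ρ) (fun ω : EdgeSlot n → Bool =>
        Contains ω (fun a => (N a).filter (fun b => s (a, b) = true))) := by
      simp only [f]
      rw [Pr_not (sum_bw _)]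
      rfl
    linarith

/-- Smallness of the family of copies. -/
def Small {W : Type} (n : ℕ) (H : SimpleGraph W) (p : ℝ) : Prop :=
  ∃ C : Finset (Finset (EdgeSlot n)),
    (∀ A : Finset (EdgeSlot n), H.IsContained (edgeGraph A) → ∃ S ∈ C, S ⊆ A) ∧
      ∑ S ∈ C, p ^ S.card ≤ 1 / 2

theorem edgeGraph_adj {n : ℕ} (A : Finset (EdgeSlot n)) (a b : Fin n) :
    (edgeGraph A).Adj a b ↔ ∃ h : a ≠ b, slot a b h ∈ A := by
  simp only [edgeGraph, SimpleGraph.fromEdgeSet_adj, Set.mem_ofPred_eq, slot]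
  constructor
  · rintro ⟨⟨_, h2⟩, h3⟩
    exact ⟨h3, h2⟩
  · rintro ⟨h1, h2⟩
    exact ⟨⟨by simpa using h1, h2⟩, h1⟩

theorem exists_small {W : Type} (n : ℕ) (H : SimpleGraph W) (hH : H ≠ ⊥) :
    ∃ j : ℕ, Small n H ((1 / 2) ^ j) := by
  classical
  obtain ⟨j, hj⟩ := exists_pow_lt_of_lt_one
    (x := 1 / (2 * ((Fintype.card (EdgeSlot n) : ℝ) + 1))) (y := 1 / 2) (by positivity)
    (by norm_num)
  refine ⟨j, Finset.univ.image (fun e => {e}), ?_, ?_⟩
  · rintro A ⟨f⟩
    obtain ⟨a, b, hab⟩ := SimpleGraph.ne_bot_iff_exists_adj.1 hH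
    obtain ⟨h1, h2⟩ := (edgeGraph_adj _ _ _).1 (f.toHom.map_adj hab)
    exact ⟨_, Finset.mem_image_of_mem _ (Finset.mem_univ _), Finset.singleton_subset_iff.2 h2⟩
  · rw [Finset.sum_image (fun a _ b _ h => Finset.singleton_injective h)]
    simp only [Finset.card_singleton, pow_one, Finset.sum_const, Finset.card_univ, nsmul_eq_mul]
    rw [lt_div_iff₀ (by positivity)] at hj
    have : (0 : ℝ) ≤ (1 / 2) ^ j := by positivity
    nlinarith

theorem main {W : Type} [Fintype W] [DecidableEq W] {n : ℕ} (H : SimpleGraph W)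
    (hW : Fintype.card W ≤ n) (p ρ : ℝ) (hp : 0 < p) (hns : ¬ Small n H p)
    (hρ : ρ = 20480 * (65536 * p)) (hρ1 : ρ ≤ 1) {k : ℕ} (κ : box × Bool → Fin k)
    (hκ : Function.Injective κ) :
    ∃ c : H.edgeSet → Fin k, ∀ i : Fin k,
      1 / 2 ≤ gnpProb n ρ {G | (pieceGraph H c i).IsContained G} := by
  classical
  obtain ⟨e⟩ : Nonempty (W ↪ Fin n) :=
    Function.Embedding.nonempty_of_card_le (by simpa using hW)
  have hsp : Spread (slots (H.map e)) (65536 * p) := by
    refine spread_of_notSmall _ (Finset.univ.filter fun A => H.IsContained (edgeGraph A)) ?_ p hp.le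
      ?_
    · intro A hA
      obtain ⟨f⟩ := (Finset.mem_filter.1 hA).2
      obtain ⟨σ, hσ⟩ := Equiv.Perm.exists_extending_pair (f := e) (g := f) e.injective f.injective
      refine ⟨σ, ?_⟩
      rintro ⟨z, hz⟩ hzE
      induction z using Sym2.ind with
      | _ a b =>
        have hab : a ≠ b := by simpa using hz
        obtain ⟨u, v, huv, rfl, rfl⟩ :=
          (SimpleGraph.map_adj _ _ _ _).1 ((slot_mem_slots hab).1 hzE)
        obtain ⟨h1, h2⟩ := (edgeGraph_adj _ _ _).1 (f.toHom.map_adj huv)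
        have : act σ ⟨s(e u, e v), hz⟩ = slot _ _ h1 := by
          apply Subtype.ext
          simp [act, slot, hσ]
        rw [this]
        exact h2
    · intro G hG
      by_contra hc
      exact hns ⟨G, fun A hA => hG A (Finset.mem_filter.2 ⟨Finset.mem_univ _, hA⟩), not_lt.1 hc⟩
  obtain ⟨N, lab, h1, h2, h3⟩ := decomp hsp (by positivity) (hρ ▸ hρ1)
  rw [← hρ] at h3
  have hρ0 : 0 ≤ ρ := by rw [hρ]; positivity
  choose s hs using fun i => exists_signs ρ hρ0 hρ1 _ (h3 i)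
  have hex : ∀ z : H.edgeSet, ∃ x : box × Bool, ∃ u v, z.1 = s(u, v) ∧
      e v ∈ (piece N lab x.1 (e u)).filter (fun b => s x.1 (e u, b) = x.2) := by
    rintro ⟨z, hz⟩
    induction z using Sym2.ind with
    | _ u v =>
      have huv : H.Adj u v := hz
      rcases h1 (e u) (e v) ((SimpleGraph.map_adj _ _ _ _).2 ⟨u, v, huv, rfl, rfl⟩) with h | h
      · exact ⟨(⟨lab (e u) (e v), h2 _ _ h⟩, s (lab (e u) (e v)) (e u, e v)), u, v, rfl,
          by simp [piece, h]⟩
      · exact ⟨(⟨lab (e v) (e u), h2 _ _ h⟩, s (lab (e v) (e u)) (e v, e u)), v, u, Sym2.eq_swap,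
          by simp [piece, h]⟩
  choose x hx using hex
  refine ⟨fun z => κ (x z), fun i => ?_⟩
  rw [gnp_eq]
  have hcont : ∀ (ω : EdgeSlot n → Bool) (M : Fin n → Finset (Fin n)), Contains ω M →
      (∀ z, κ (x z) = i → ∀ u, (piece N lab (x z).1 u).filter (fun b => s (x z).1 (u, b) = (x z).2)
        ⊆ M u) →
      graphOf ω ∈ {G : SimpleGraph (Fin n) | (pieceGraph H (fun z => κ (x z)) i).IsContained G} := by
    rintro ω M ⟨π, hπ⟩ hM
    refine ⟨⟨⟨fun w => π (e w), ?_⟩, π.injective.comp e.injective⟩⟩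
    intro a b hab
    simp only [pieceGraph, SimpleGraph.fromEdgeSet_adj, Set.mem_ofPred_eq] at hab
    obtain ⟨⟨hz, hi⟩, -⟩ := hab
    obtain ⟨u, v, huv, hmem⟩ := hx ⟨_, hz⟩
    have hadj := hπ _ _ (hM _ hi _ hmem)
    rcases Sym2.eq_iff.1 huv with ⟨rfl, rfl⟩ | ⟨rfl, rfl⟩
    · exact hadj
    · exact hadj.symm
  by_cases hi : ∃ y, κ y = i
  · obtain ⟨y, hy⟩ := hi
    refine (hs y.1 y.2).trans (Pr_mono (isProb_bw hρ0 hρ1).nonneg fun ω hω => hcont ω _ hω ?_)
    intro z hz u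
    rw [hκ (hz.trans hy.symm)]
  · rw [Pr_true (sum_bw _)]
    · norm_num
    · intro ω
      exact hcont ω (fun _ => ∅) ⟨1, by simp⟩ (fun z hz => absurd ⟨_, hz⟩ hi)

theorem gnp_one {W : Type} [Fintype W] {n : ℕ} (J : SimpleGraph W) (hW : Fintype.card W ≤ n) :
    1 / 2 ≤ gnpProb n 1 {G | J.IsContained G} := by
  classical
  obtain ⟨e⟩ : Nonempty (W ↪ Fin n) :=
    Function.Embedding.nonempty_of_card_le (by simpa using hW)
  rw [gnp_eq]
  have h1 : Pr (bw 1) (fun ω : EdgeSlot n → Bool => ∀ i ∈ Finset.univ, ω i = true) = 1 := by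
    unfold Pr
    simp only [ind_forall]
    rw [Ex_prod (bw 1) (fun _ γ => ind (γ = true))]
    simp [bw, ind]
  have h2 := Pr_mono (isProb_bw zero_le_one le_rfl).nonneg
    (E := fun ω : EdgeSlot n → Bool => ∀ i ∈ Finset.univ, ω i = true)
    (E' := fun ω => graphOf ω ∈ {G : SimpleGraph (Fin n) | J.IsContained G}) (fun ω hω =>
      ⟨⟨⟨e, fun hab => (graphOf_adj _ _ _).2
        ⟨e.injective.ne hab.ne, hω _ (Finset.mem_univ _)⟩⟩, e.injective⟩⟩)
  linarith

theorem exists_enum {α : Type} (B : Finset α) :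
    ∃ k : ℕ, 2 ≤ k ∧ ∃ κ : B × Bool → Fin k, Function.Injective κ := by
  obtain ⟨κ⟩ : Nonempty (B × Bool ↪ Fin (Fintype.card (B × Bool) + 2)) :=
    Function.Embedding.nonempty_of_card_le (by simp)
  exact ⟨_, by omega, κ, κ.injective⟩

/-- There are k ≥ 2 and L ≥ 1 such that for all n ≥ 2 and every simple graph H with an edge, on at most n vertices, the edges of H can be labelled by k labels so that each label class H_i (same vertex set) has p_c(H_i; n) ≤ L · q(H; n), unfolded: for some p ∈ [0, 1] at which the family of edge sets of K_n containing a copy of H has a cover of cost Σ p^(card S) ≤ 1/2, the binomial random graph on n vertices at edge probability min(1, L·p) contains a copy of H_i with probability ≥ 1/2. -/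
theorem result :
    ∃ k : ℕ, 2 ≤ k ∧ ∃ L : ℝ, 1 ≤ L ∧ ∀ n : ℕ, 2 ≤ n →
      ∀ (W : Type) [Fintype W] [DecidableEq W] (H : SimpleGraph W),
        Fintype.card W ≤ n → H ≠ ⊥ →
        ∃ c : H.edgeSet → Fin k, ∀ i : Fin k, ∃ p : ℝ, 0 ≤ p ∧ p ≤ 1 ∧
          (∃ C : Finset (Finset (Crest.CombinatoricsR.RandomGraph.EdgeSlot n)),
            (∀ A : Finset (Crest.CombinatoricsR.RandomGraph.EdgeSlot n),
              H.IsContained (Crest.CombinatoricsR.RandomGraph.edgeGraph A) → ∃ S ∈ C, S ⊆ A) ∧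
            ∑ S ∈ C, p ^ S.card ≤ 1 / 2) ∧
          1 / 2 ≤ Crest.CombinatoricsR.RandomGraph.gnpProb n (min 1 (L * p))
            {G | (Crest.CombinatoricsR.RandomGraph.pieceGraph H c i).IsContained G} := by
  classical
  obtain ⟨k, hk, κ, hκ⟩ := exists_enum box
  refine ⟨k, hk, 20480 * 65536 * 2, by norm_num, ?_⟩
  intro n _ W _ _ H hW hH
  have hex := exists_small n H hH
  have hsm := Nat.find_spec hex
  have hp0 : (0 : ℝ) < (1 / 2) ^ Nat.find hex := by positivity
  have hp1 : (1 / 2 : ℝ) ^ Nat.find hex ≤ 1 := pow_le_one₀ (by norm_num) (by norm_num)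
  suffices h : ∃ c : H.edgeSet → Fin k, ∀ i,
      1 / 2 ≤ gnpProb n (min 1 (20480 * 65536 * 2 * (1 / 2) ^ Nat.find hex))
        {G | (pieceGraph H c i).IsContained G} by
    obtain ⟨c, hc⟩ := h
    exact ⟨c, fun i => ⟨_, hp0.le, hp1, hsm, hc i⟩⟩
  rcases le_or_gt 1 (20480 * 65536 * 2 * (1 / 2 : ℝ) ^ Nat.find hex) with h | h
  · rw [min_eq_left h]
    exact ⟨fun _ => ⟨0, by omega⟩, fun i => gnp_one _ hW⟩
  · rw [min_eq_right h.le]
    have hj : 0 < Nat.find hex := by
      by_contra h0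
      rw [show Nat.find hex = 0 by omega] at h
      norm_num at h
    refine main H hW ((1 / 2) ^ (Nat.find hex - 1)) _ (by positivity)
      (Nat.find_min hex (by omega)) ?_ h.le κ hκ
    obtain ⟨j, hj'⟩ : ∃ j, Nat.find hex = j + 1 := ⟨Nat.find hex - 1, by omega⟩
    rw [hj', Nat.add_sub_cancel, pow_succ]
    ring

end Crest.Agent.S0073
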