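import Crest.Statements.S0074
import Crest.Agent.R53.Main

set_option autoImplicit false
open Crest Crest.CombinatoricsR

namespace Crest.Agent.S0074

/-- There are two matroids M₀, M₁ on the whole of ℕ (a countably infinite ground set), each equal to its own dual on the same labelled ground set, such that no independent set of M₀ together with an independent set of M₁ covers ℕ, and the pair has no packing/covering partition: no splitting ℕ = P ⊔ C allows disjoint S₀, S₁ ⊆ P with Sᵢ spanning the restriction of Mᵢ to P, and sets I₀, I₁ with union C, Iᵢ independent in the contraction of Mᵢ onto C (the complement of C contracted). -/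
theorem result :
    ∃ M₀ M₁ : Matroid ℕ, M₀.E = Set.univ ∧ M₁.E = Set.univ ∧ M₀.dual = M₀ ∧ M₁.dual = M₁ ∧
      (∀ I₀ I₁ : Set ℕ, M₀.Indep I₀ → M₁.Indep I₁ → I₀ ∪ I₁ ≠ Set.univ) ∧
      ¬ ∃ P C S₀ S₁ I₀ I₁ : Set ℕ, P ∪ C = Set.univ ∧ Disjoint P C ∧
          S₀ ⊆ P ∧ S₁ ⊆ P ∧ Disjoint S₀ S₁ ∧
          (M₀.restrict P).closure S₀ = P ∧ (M₁.restrict P).closure S₁ = P ∧
          I₀ ⊆ C ∧ I₁ ⊆ C ∧ (M₀.contract Cᶜ).Indep I₀ ∧ (M₁.contract Cᶜ).Indep I₁ ∧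
          I₀ ∪ I₁ = C := by
  obtain ⟨M₀, M₁, h0, h1, d0, d1, hc⟩ := Crest.Agent.R53.exists_pair
  refine ⟨M₀, M₁, h0, h1, d0, d1, hc, ?_⟩
  rintro ⟨P, C, S₀, S₁, I₀, I₁, e1, e2, e3, e4, e5, e6, e7, e8, e9, e10, e11, e12⟩
  refine hc _ _ (Crest.Agent.R53.indep_of_pc M₀ h0 d0 P C S₀ I₀ e1 e2 e3 e6 e8 e10)
    (Crest.Agent.R53.indep_of_pc M₁ h1 d1 P C S₁ I₁ e1 e2 e4 e7 e9 e11) ?_
  rw [Set.eq_univ_iff_forall]
  intro x
  have a1 : x ∈ P ∪ C := e1 ▸ Set.mem_univ x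
  have a2 : x ∈ S₀ → x ∉ S₁ := fun h => Set.disjoint_left.1 e5 h
  rw [← e12] at a1
  simp only [Set.mem_union, Set.mem_sdiff] at *
  tauto

end Crest.Agent.S0074
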