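-- Statement S0075 (row 54): the cycle versus clique Ramsey bound. The proof is in Crest/Agent/R54.
import Crest.Statements.S0075
import Crest.Agent.R54.Core

set_option autoImplicit false
open Crest Crest.CombinatoricsR

namespace Crest.Agent.S0075

/-- Let m ≥ n ≥ 3 be natural numbers with (m, n) ≠ (3, 3), and let G be a simple graph on a finite vertex type with exactly (m - 1)(n - 1) + 1 vertices. Then G contains a cycle of length exactly m (a closed walk of length m repeating no vertex or edge) or n vertices that are pairwise non-adjacent in G. -/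
theorem result (m n : ℕ) (hn : 3 ≤ n) (hnm : n ≤ m)
    (h33 : ¬ (m = 3 ∧ n = 3)) (V : Type) [Fintype V] [DecidableEq V]
    (hV : Fintype.card V = (m - 1) * (n - 1) + 1) (G : SimpleGraph V) :
    (∃ v : V, ∃ p : G.Walk v v, p.IsCycle ∧ p.length = m) ∨ (∃ s : Finset V, Gᶜ.IsNClique n s) := by
  by_contra hcon
  rw [not_or] at hcon
  obtain ⟨h1, h2⟩ := hcon
  refine Crest.Agent.R54.no_counterexample (G := G) (k := m - 1) (a := n - 1) (by omega) (by omega)
    hV.ge ?_ ?_
  · intro hc
    rw [show m - 1 + 1 = m by omega] at hc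
    exact h1 (hc.exists_isCycle (by omega))
  · intro I hI
    by_contra hlt
    obtain ⟨J, hJ, hc⟩ := Finset.exists_subset_card_eq (s := I) (n := n) (by omega)
    refine h2 ⟨J, ?_⟩
    rw [SimpleGraph.isNClique_compl]
    exact ⟨fun u hu w hw _ => hI u (hJ hu) w (hJ hw), hc⟩

end Crest.Agent.S0075
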