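import Crest.Statements.S0078
import Crest.Agent.R56.Main

set_option autoImplicit false
open Crest Crest.CombinatoricsR

namespace Crest.Agent.S0078

/-- For every r ≥ 3 there is a real constant C such that for all n ≥ r, all 0 < p < 1 and every Boolean function f of the simple r-uniform hypergraph on n labelled vertices that is invariant under renaming the vertices (no monotonicity assumed), the variance of f under independent edge-coins of bias p, namely P(f = true) · (1 - P(f = true)), is at most C · (log n)^(-r/(r-1)) times the total pivotal influence of f at bias p (natural logarithm). -/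
theorem result (r : ℕ) (hr : 3 ≤ r) :
    ∃ C : ℝ, ∀ n : ℕ, r ≤ n → ∀ p : ℝ, 0 < p → p < 1 →
      ∀ f : (Crest.CombinatoricsR.HypergraphCube.HyperedgeSlot n r → Bool) → Bool,
        Crest.CombinatoricsR.HypergraphCube.IsSymmetric f →
          Crest.CombinatoricsR.HypergraphCube.probTrue p f *
              (1 - Crest.CombinatoricsR.HypergraphCube.probTrue p f) ≤
            C / Real.log n ^ ((r : ℝ) / ((r : ℝ) - 1)) *
              Crest.CombinatoricsR.HypergraphCube.totalInfluence p f := by
  classical
  refine ⟨4096 * r, ?_⟩
  intro n hn p h0 h1 f hf
  set F : (HypergraphCube.HyperedgeSlot n r → Bool) → ℝ :=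
    fun x => if f x = true then 1 else 0 with hF
  have hmain := Crest.Agent.R56.main_bound (V := Fin n) h0 h1 F
    (fun x => by rw [hF]; simp only []; split_ifs <;> norm_num)
    (fun x => by rw [hF]; simp only []; split_ifs <;> norm_num)
    (fun e => e.1) Subtype.val_injective r (by omega) (fun e => e.2)
    (fun σ => by
      refine ⟨⟨HypergraphCube.relabelSlot σ, HypergraphCube.relabelSlot σ.symm, ?_, ?_⟩,
        fun e => rfl, fun x => ?_⟩
      · intro e
        apply Subtype.ext
        simp [HypergraphCube.relabelSlot, Finset.map_map]
      · intro e
        apply Subtype.ext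
        simp [HypergraphCube.relabelSlot, Finset.map_map]
      · rw [hF]
        simp only []
        have := hf σ x
        unfold HypergraphCube.relabel at this
        have h2 : (x ∘ (⟨HypergraphCube.relabelSlot σ, HypergraphCube.relabelSlot σ.symm, by
            intro e
            apply Subtype.ext
            simp [HypergraphCube.relabelSlot, Finset.map_map], by
            intro e
            apply Subtype.ext
            simp [HypergraphCube.relabelSlot, Finset.map_map]⟩ :
              Equiv.Perm (HypergraphCube.HyperedgeSlot n r))) =
            fun e => x (HypergraphCube.relabelSlot σ e) := rfl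
        rw [h2, this])
    n (Fintype.card_fin n) (by omega)
  have e1 : HypergraphCube.probTrue p f = Lib.CubeFourier.Ex p F := by
    unfold HypergraphCube.probTrue
    rw [Lib.CubeFourier.bernoulliProb_eq_Ex]
    rfl
  have e2 : Lib.CubeFourier.Ex p (fun x => F x ^ 2) = Lib.CubeFourier.Ex p F := by
    apply Lib.CubeFourier.Ex_congr
    intro x
    rw [hF]
    simp only []
    split_ifs <;> norm_num
  have e3 : HypergraphCube.totalInfluence p f =
      ∑ e, Lib.CubeFourier.Ex p (fun x => |Lib.CubeFourier.Dv e F x|) := by
    unfold HypergraphCube.totalInfluence HypergraphCube.pivotalInfluence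
    apply Finset.sum_congr rfl
    intro e _
    rw [Lib.CubeFourier.bernoulliProb_eq_Ex]
    apply Lib.CubeFourier.Ex_congr
    intro x
    unfold Lib.CubeFourier.Dv
    rw [hF]
    simp only [Set.mem_ofPred_eq]
    by_cases ha : f (Function.update x e true) = true <;>
      by_cases hb : f (Function.update x e false) = true <;> simp [ha, hb]
  rw [e1, e3]
  rw [e2] at hmain
  linarith

end Crest.Agent.S0078
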