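import Crest.Statements.S0079
import Crest.Agent.R57.Concave

set_option autoImplicit false
open Crest Crest.CombinatoricsR

namespace Crest.Agent.S0079

/-- Every finite oriented graph (an irreflexive adjacency relation with no pair of opposite arcs) on a nonempty vertex set has a vertex v whose first out-neighbourhood is no larger than its second out-neighbourhood, the set of vertices other than v that are not out-neighbours of v but are reached from v by a directed path of length two. -/
theorem result
    (V : Type*) [Fintype V] [Nonempty V] (G : Digraph V)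
    (hloop : ∀ v, ¬ G.Adj v v) (hopp : ∀ u v, G.Adj u v → ¬ G.Adj v u) :
    ∃ v : V, Set.ncard {u | G.Adj v u} ≤
      Set.ncard {w | w ≠ v ∧ ¬ G.Adj v w ∧ ∃ u, G.Adj v u ∧ G.Adj u w} := by
  classical
  obtain ⟨v, hv⟩ := Crest.Agent.R57.seymour _ G.Adj rfl hopp
  refine ⟨v, ?_⟩
  have e1 : {u | G.Adj v u} = ↑(Crest.Agent.R57.out G.Adj v) := by
    ext u
    simp [Crest.Agent.R57.mem_out]
  have e2 : {w | w ≠ v ∧ ¬ G.Adj v w ∧ ∃ u, G.Adj v u ∧ G.Adj u w} =
      ↑(Crest.Agent.R57.sec G.Adj v) := by
    ext w
    simp only [Set.mem_ofPred_eq, Finset.mem_coe, Crest.Agent.R57.mem_sec]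
  rw [e1, e2, Set.ncard_coe_finset, Set.ncard_coe_finset]
  exact hv

end Crest.Agent.S0079
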