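import Crest.Statements.S0092
import Crest.Agent.R69.Step

set_option autoImplicit false
open MeasureTheory Filter
open Crest Crest.AnalysisR

namespace Crest.Agent.S0092

/-- Let T be an invertible measurable transformation with measurable inverse of a probability space, preserving the measure μ and mixing: μ (A ∩ T⁻ⁿ B) → μ A * μ B as n → ∞ for all measurable A, B. Then T is mixing of every finite order: for measurable sets A₀, …, A_k placed at times 0, n₀, n₀ + n₁, …, n₀ + ⋯ + n_{k-1}, the measure of ⋂ᵢ T^{-(time of i)} Aᵢ tends to ∏ᵢ μ Aᵢ as the gaps n₀, …, n_{k-1} tend to infinity together (filter atTop on gap vectors: the minimum gap tends to infinity). -/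
theorem result
    {Ω : Type*} [MeasurableSpace Ω] (μ : Measure Ω) [IsProbabilityMeasure μ]
    (T : Ω ≃ᵐ Ω) (hT : MeasurePreserving T μ μ)
    (hmix : ∀ A B : Set Ω, MeasurableSet A → MeasurableSet B →
      Tendsto (fun n : ℕ => μ (A ∩ (T^[n]) ⁻¹' B)) atTop (nhds (μ A * μ B)))
    (k : ℕ) (A : Fin (k + 1) → Set Ω) (hA : ∀ i, MeasurableSet (A i)) :
    Tendsto (fun n : Fin k → ℕ =>
        μ (⋂ i : Fin (k + 1), (T^[∑ j : Fin k, if (j : ℕ) < (i : ℕ) then n j else 0]) ⁻¹' A i))
      atTop (nhds (∏ i, μ (A i))) := by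
  exact ((Crest.Agent.R69.mix_all T hT hmix k).of_card_le (κ := Fin (k + 1)) (by simp)).tendsto_gaps A hA

end Crest.Agent.S0092
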