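import Crest.Statements.S0098
import Crest.Agent.R73.Approx
import Crest.Agent.Lib.UnivCStar.Examples

set_option autoImplicit false
open Filter Crest.AnalysisR.CStarEmbedding
open Crest Crest.AnalysisR

namespace Crest.Agent.S0098

open Crest.Agent.R73 Crest.Agent.Lib.UnivCStar Crest.Agent.Lib.HilbUltra Topology in
theorem norm_base {A : Type} [CStarAlgebra A] (u : GG →* unitary A) (hu : IsFullGroupCStar A u)
    (m : ℕ) : 1 ≤ ‖(1 - (u gBase : A)) * Ces u m‖ := by
  classical
  obtain ⟨φ, hφ⟩ := hu.2 _ (permRep (GG ⧸ iota.range) GG)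
  let o : GG ⧸ iota.range := ((1 : GG) : GG ⧸ iota.range)
  have h1 : ∀ g, φ (u (iota g)) (dl o) = dl o := by
    intro g
    rw [hφ, permRep_dl]
    congr 1
    change ((iota g * 1 : GG) : GG ⧸ iota.range) = _
    rw [eq_comm, QuotientGroup.eq]
    exact ⟨g, by simp⟩
  have h2 : φ (MM u) (dl o) = dl o := by
    rw [MM, map_smul, map_sum, _root_.smul_apply, _root_.sum_apply]
    simp only [h1, Finset.sum_const, Finset.card_univ, Fintype.card_prod, card_Z3,
      Fintype.card_fin]
    rw [← Nat.cast_smul_eq_nsmul ℂ, smul_smul]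
    norm_num
  have h3 : ∀ j : ℕ, φ (MM u ^ j) (dl o) = dl o := by
    intro j
    induction j with
    | zero => simp
    | succ j ih => rw [pow_succ, map_mul, mul_apply_eq_comp, h2, ih]
  have h4 : φ (Ces u m) (dl o) = dl o := by
    rw [Ces, map_smul, map_sum, _root_.smul_apply, _root_.sum_apply]
    simp only [h3, Finset.sum_const, Finset.card_range]
    rw [← Nat.cast_smul_eq_nsmul ℂ, smul_smul, Nat.cast_succ,
      inv_mul_cancel₀ (Nat.cast_add_one_ne_zero m), one_smul]
  have h5 : gBase • o ≠ o := by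
    intro e
    apply not_mem_range
    change ((gBase * 1 : GG) : GG ⧸ iota.range) = _ at e
    rw [eq_comm, QuotientGroup.eq] at e
    simpa [gBase] using e
  have h6 : inner ℂ (dl o) (φ ((1 - (u gBase : A)) * Ces u m) (dl o)) = 1 := by
    rw [map_mul, mul_apply_eq_comp, h4, map_sub, map_one, _root_.sub_apply, hφ, permRep_dl,
      inner_dl]
    simp [dl_apply, h5.symm]
  have h7 := norm_inner_le_norm (𝕜 := ℂ) (dl o) (φ ((1 - (u gBase : A)) * Ces u m) (dl o))
  have h8 := (φ ((1 - (u gBase : A)) * Ces u m)).le_opNorm (dl o)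
  rw [h6, norm_dl, norm_one, one_mul] at h7
  rw [norm_dl, mul_one] at h8
  exact h7.trans (h8.trans (NonUnitalStarAlgHom.norm_apply_le φ _))

open Crest.Agent.R73 Crest.Agent.Lib.UnivCStar Crest.Agent.Lib.HilbUltra Topology in
/-- There are a countable group `Γ`, a full group C⋆-algebra `(A, u)` of `Γ` and a universal C⋆-algebra `O` on two isometries with `s₁s₁⋆ + s₂s₂⋆ = 1`, each algebra given by generation and its universal property, such that for every free ultrafilter `ω` on `ℕ` no sequence of maps `A → O` induces a unital injective ⋆-homomorphism of `A` into the norm ultrapower `O^ω`. Thus some countable group's full group C⋆-algebra has no unital embedding into `O^ω`; the prover supplies the group. -/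
theorem result :
    ∃ (Γ : Type) (_ : Group Γ) (_ : Countable Γ) (A : Type) (_ : CStarAlgebra A) (u : Γ →* unitary A),
      IsFullGroupCStar A u ∧
      ∃ (O : Type) (_ : CStarAlgebra O) (s₁ s₂ : O), IsCuntzTwo O s₁ s₂ ∧
        ∀ ω : Ultrafilter ℕ, (∀ n : ℕ, (ω : Filter ℕ) ≠ pure n) →
          ¬ ∃ φ : ℕ → A → O, IsUltrapowerEmbedding ω A O φ := by
  obtain ⟨A, iA, u, hu⟩ := exists_fullGroupCStar GG
  obtain ⟨O, iO, s₁, s₂, hO⟩ := exists_cuntzTwo
  refine ⟨GG, inferInstance, inferInstance, A, iA, u, hu, O, iO, s₁, s₂, hO, ?_⟩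
  rintro ω hω ⟨φ, b1, b2, b3, b4, b5, b6, b7⟩
  obtain ⟨e1, e2, e3, e4, e5⟩ := hO
  obtain ⟨π, p1, p2⟩ := e5 _ (cS false) (cS true) (star_cS_mul _) (star_cS_mul _) cS_sum
  have h : CuntzData (fun b => cond b s₂ s₁) π :=
    ⟨fun b => by cases b <;> assumption, e3, fun b => by cases b <;> assumption, e4⟩
  have hΨ : Asymp ω fun n a => π (φ n a) :=
    { bdd := fun a => by simpa only [Bdd, h.norm_rep] using b1 a
      add := fun a b => by simpa only [← map_add, ← map_sub, h.norm_rep] using b2 a b
      smul := fun c a => by simpa only [← map_smul, ← map_sub, h.norm_rep] using b3 c a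
      mul := fun a b => by simpa only [← map_mul, ← map_sub, h.norm_rep] using b4 a b
      star := fun a => by simpa only [← map_star, ← map_sub, h.norm_rep] using b5 a
      one := by
        refine b6.congr fun n => ?_
        rw [← h.norm_rep, map_sub, map_one]
      norm := fun a => by simpa only [h.norm_rep] using b7 a }
  refine main_contradiction hΨ u (le_atTop_of_free hω) (norm_base u hu) ?_
  have h1 : ∀ᶠ n in (ω : Filter ℕ), ∀ i c, ‖φ n (u (iota (gen i c)))‖ ≤ 1001 / 1000 := by
    refine eventually_all.2 fun i => eventually_all.2 fun c => ?_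
    exact (b7 _).eventually (ge_mem_nhds ((norm_unitary_le _).trans_lt (by norm_num)))
  filter_upwards [h1] with n hn
  obtain ⟨K, hK⟩ := h.finite_levels (fun i c => φ n (u (iota (gen i c)))) hn
  exact ⟨K, fun k hk ⟨η, hη⟩ => absurd (hK k hk η) (not_le.2 hη)⟩

end Crest.Agent.S0098
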