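import Crest.Statements.S0102
import Crest.Agent.R77.Core
import Crest.Agent.R77.Dim2
import Crest.Agent.R77.Repr
import Crest.Agent.R77.Reduce

set_option autoImplicit false
open Laplacian InnerProductSpace
open Crest Crest.AnalysisR Crest.AnalysisR.PDE

namespace Crest.Agent.S0102

/-- Let n ≥ 2, p, q > 0 and A, B be real with (n + A)/(p + 1) + (n + B)/(q + 1) > n - 2. Then there is no pair of everywhere-positive continuous functions u, v on ℝⁿ, twice continuously differentiable away from the origin, with -Δu(x) = ‖x‖^A v(x)^p and -Δv(x) = ‖x‖^B u(x)^q at every x ≠ 0. -/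
theorem result
    (n : ℕ) (hn : 2 ≤ n) (p q A B : ℝ) (hp : 0 < p) (hq : 0 < q)
    (hsub : (n : ℝ) - 2 < ((n : ℝ) + A) / (p + 1) + ((n : ℝ) + B) / (q + 1)) :
    ¬ ∃ u v : EuclideanSpace ℝ (Fin n) → ℝ,
        Continuous u ∧ Continuous v ∧
        ContDiffOn ℝ 2 u {0}ᶜ ∧ ContDiffOn ℝ 2 v {0}ᶜ ∧
        (∀ x, 0 < u x) ∧ (∀ x, 0 < v x) ∧
        ∀ x, x ≠ 0 →
          -(Δ u) x = ‖x‖ ^ A * v x ^ p ∧ -(Δ v) x = ‖x‖ ^ B * u x ^ q := by
  rintro ⟨u, v, hu, hv, hu2, hv2, hu0, hv0, heq⟩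
  rcases Nat.lt_or_ge n 3 with h | h
  · obtain rfl : n = 2 := by omega
    refine R77.dim2 u (fun x => ‖x‖ ^ A * v x ^ p) hu hu2 (fun x => (hu0 x).le) ?_ ?_
      (fun x hx => (heq x hx).1)
    · refine ContinuousOn.mul (ContinuousOn.rpow_const continuous_norm.continuousOn ?_)
        (ContinuousOn.rpow_const hv.continuousOn (fun x _ => Or.inl (hv0 x).ne'))
      intro x hx
      exact Or.inl (norm_ne_zero_iff.2 hx)
    · intro x hx
      exact mul_pos (Real.rpow_pos_of_pos (norm_pos_iff.2 hx) _) (Real.rpow_pos_of_pos (hv0 x) _)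
  · exact R77.dim_ge3_of n h (R77.riesz_repr n h)
      (fun μ _ hμ _ hν K p q γ₁ γ₂ U V hV hU hδ => R77.core μ hμ hν K p q γ₁ γ₂ U V hV hU hδ)
      p q A B hp hq hsub u v hu hv hu2 hv2 hu0 hv0 heq

end Crest.Agent.S0102
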