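import Crest.Statements.S0107
import Crest.Agent.R80.Main

set_option autoImplicit false
open MeasureTheory
open scoped ContDiff
open Crest.AnalysisR.VecCalc3 Crest.AnalysisR.PDE.Elasticity
open Crest Crest.AnalysisR Crest.AnalysisR.PDE Crest.AnalysisR.PDE.Elasticity

namespace Crest.Agent.S0107

/-- Let Ω ⊆ ℝ³ be a bounded connected open set with smooth boundary and (λ₁, μ₁), (λ₂, μ₂) pairs of real functions, smooth on the closure of Ω, with μⱼ > 0 and 3λⱼ + 2μⱼ > 0 there. If the pairs have the same boundary data — for each continuously differentiable boundary displacement, the infimum of the elastic energy ∫_Ω λ(div u)² + 2μ‖e(u)‖² over continuously differentiable u with that boundary value agrees for the two pairs (so, equal displacement-to-traction maps) — then λ₁ = λ₂ and μ₁ = μ₂ on Ω. -/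
theorem result
    (Ω : Set R3) (hopen : IsOpen Ω) (hbdd : Bornology.IsBounded Ω) (hconn : IsConnected Ω)
    (hbdry : Crest.AnalysisR.PDE.HasSmoothBoundary Ω)
    (lam₁ mu₁ lam₂ mu₂ : R3 → ℝ)
    (hl₁ : ContDiffOn ℝ ∞ lam₁ (closure Ω)) (hm₁ : ContDiffOn ℝ ∞ mu₁ (closure Ω))
    (hl₂ : ContDiffOn ℝ ∞ lam₂ (closure Ω)) (hm₂ : ContDiffOn ℝ ∞ mu₂ (closure Ω))
    (hpos : ∀ x ∈ closure Ω, 0 < mu₁ x ∧ 0 < 3 * lam₁ x + 2 * mu₁ x ∧ 0 < mu₂ x ∧ 0 < 3 * lam₂ x + 2 * mu₂ x)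
    (hdata : SameBoundaryData Ω lam₁ mu₁ lam₂ mu₂) :
    ∀ x ∈ Ω, lam₁ x = lam₂ x ∧ mu₁ x = mu₂ x := by
  obtain ⟨ρ, hρ, hΩ, h⟩ := hbdry
  exact Crest.Agent.R80.main hopen hbdd hρ hΩ h lam₁ mu₁ lam₂ mu₂ hl₁ hm₁ hl₂ hm₂ hpos hdata

end Crest.Agent.S0107
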