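import Crest.Statements.S0109
import Crest.Agent.R82.Main

set_option autoImplicit false
open MeasureTheory
open scoped ENNReal NNReal
open Crest.AnalysisR.OT
open Crest Crest.AnalysisR Crest.AnalysisR.OT

namespace Crest.Agent.S0109

/-- Fix d ≥ 2, a compact convex K ⊆ ℝᵈ with nonempty interior, ρ the uniform probability measure on K, and a nonempty compact Y ⊆ ℝᵈ. There is a constant C such that for all probability measures μ, ν carried by Y, all quadratic optimal transport maps Tμ from ρ to μ and Tν from ρ to ν, and every coupling π of μ and ν, ∫ ‖Tμ - Tν‖² dρ ≤ C · (∫ ‖y - z‖² dπ)^(1/3). With the best coupling: the L²(ρ) distance of the maps is at most √C times the cube root of the Wasserstein-2 distance of the targets. -/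
theorem result
    (d : ℕ) (hd : 2 ≤ d) (K : Set (EuclideanSpace ℝ (Fin d))) (hKc : IsCompact K) (hKv : Convex ℝ K)
    (hKi : (interior K).Nonempty) (Y : Set (EuclideanSpace ℝ (Fin d))) (hYc : IsCompact Y) (hYn : Y.Nonempty) :
    ∃ C : ℝ≥0, ∀ μ ν : Measure (EuclideanSpace ℝ (Fin d)), IsProbabilityOn Y μ → IsProbabilityOn Y ν →
      ∀ Tμ Tν : EuclideanSpace ℝ (Fin d) → EuclideanSpace ℝ (Fin d),
        IsOptimalMap (uniformProbOn K) μ Tμ → IsOptimalMap (uniformProbOn K) ν Tν →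
        ∀ π : Measure (EuclideanSpace ℝ (Fin d) × EuclideanSpace ℝ (Fin d)), IsPairCoupling μ ν π →
          ∫⁻ x, ‖Tμ x - Tν x‖ₑ ^ 2 ∂(uniformProbOn K) ≤ C * quadCost π ^ (1 / 3 : ℝ) := by
  obtain ⟨R, hR⟩ := hKc.isBounded.exists_norm_le
  obtain ⟨L, hL⟩ := hYc.isBounded.exists_norm_le
  have hL0 : 0 ≤ L := by
    obtain ⟨y, hy⟩ := hYn
    exact (norm_nonneg y).trans (hL y hy)
  have hK : Crest.Agent.R82.Body K R := ⟨hKc, hKv, hKi, hR⟩
  obtain ⟨C, hC0, hC⟩ := Crest.Agent.R82.main_h (by omega : 1 ≤ d) hK hL0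
  refine ⟨⟨C, hC0⟩, ?_⟩
  intro μ ν hμ hν Tμ Tν hTμ hTν π hπ
  have hμb : ∀ᵐ y ∂μ, ‖y‖ ≤ L := by
    have : ∀ᵐ y ∂μ, y ∈ Y := hμ.2
    exact this.mono hL
  have hνb : ∀ᵐ y ∂ν, ‖y‖ ≤ L := by
    have : ∀ᵐ y ∂ν, y ∈ Y := hν.2
    exact this.mono hL
  have key := hC μ ν hμ.1 hμb hνb Tμ Tν hTμ hTν π hπ
  rcases eq_or_ne (quadCost π) ⊤ with htop | htop
  · rcases eq_or_lt_of_le hC0 with h0 | h0
    · exfalso
      have hp := hμ.1
      have hπp : IsProbabilityMeasure π := by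
        constructor
        have h1 : (π.map Prod.fst) Set.univ = 1 := by rw [hπ.1]; exact measure_univ
        rwa [Measure.map_apply measurable_fst MeasurableSet.univ, Set.preimage_univ] at h1
      have h1 : ∀ᵐ p ∂π, ‖p.1‖ ≤ L :=
        ae_of_ae_map (p := fun y => ‖y‖ ≤ L) measurable_fst.aemeasurable (by rw [hπ.1]; exact hμb)
      have h2 : ∀ᵐ p ∂π, ‖p.2‖ ≤ L :=
        ae_of_ae_map (p := fun y => ‖y‖ ≤ L) measurable_snd.aemeasurable (by rw [hπ.2]; exact hνb)
      have h3 : quadCost π ≤ ∫⁻ _, ENNReal.ofReal (2 * L) ^ 2 ∂π := by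
        refine lintegral_mono_ae ?_
        filter_upwards [h1, h2] with p h1 h2
        have h4 : ‖p.1 - p.2‖ ≤ 2 * L := (norm_sub_le _ _).trans (by linarith)
        rw [← ofReal_norm]
        gcongr
      rw [htop, lintegral_const, measure_univ, mul_one, top_le_iff] at h3
      exact absurd h3 (by finiteness)
    · rw [htop, ENNReal.top_rpow_of_pos (by norm_num), ENNReal.mul_top]
      · exact le_top
      · exact ENNReal.coe_ne_zero.2 fun h => h0.ne' (congrArg Subtype.val h)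
  · set c := (quadCost π).toReal with hc
    have hc0 : 0 ≤ c := ENNReal.toReal_nonneg
    have hq : quadCost π = ENNReal.ofReal c := (ENNReal.ofReal_toReal htop).symm
    have hlim : Filter.Tendsto (fun ε : ℝ => ENNReal.ofReal (C * (c ^ (1 / 3 : ℝ) + ε)))
        (nhdsWithin 0 (Set.Ioi 0)) (nhds (ENNReal.ofReal (C * (c ^ (1 / 3 : ℝ) + 0)))) := by
      refine Filter.Tendsto.mono_left ?_ nhdsWithin_le_nhds
      exact (ENNReal.continuous_ofReal.comp (by fun_prop)).tendsto 0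
    have hle : ∫⁻ x, ‖Tμ x - Tν x‖ₑ ^ 2 ∂(uniformProbOn K) ≤
        ENNReal.ofReal (C * (c ^ (1 / 3 : ℝ) + 0)) := by
      refine ge_of_tendsto hlim ?_
      filter_upwards [self_mem_nhdsWithin] with ε hε
      have hε' : 0 < ε := hε
      have hr : 0 ≤ c ^ (1 / 3 : ℝ) := Real.rpow_nonneg hc0 _
      refine key _ (by linarith) ?_
      rw [hq]
      refine ENNReal.ofReal_le_ofReal ?_
      have h3 : (c ^ (1 / 3 : ℝ)) ^ 3 = c := by
        rw [← Real.rpow_natCast, ← Real.rpow_mul hc0]; norm_num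
      calc c = (c ^ (1 / 3 : ℝ)) ^ 3 := h3.symm
        _ ≤ (c ^ (1 / 3 : ℝ) + ε) ^ 3 := by gcongr; linarith
    refine hle.trans (le_of_eq ?_)
    rw [add_zero, ENNReal.ofReal_mul hC0, hq, ENNReal.ofReal_rpow_of_nonneg hc0 (by norm_num)]
    congr 1
    exact (ENNReal.ofReal_eq_coe_nnreal hC0)

end Crest.Agent.S0109
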