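import Crest.Statements.S0111
import Crest.Agent.R83.Main

set_option autoImplicit false
open MeasureTheory
open Crest.AnalysisR.PDE.Calderon
open Crest Crest.AnalysisR Crest.AnalysisR.PDE Crest.AnalysisR.PDE.Calderon

namespace Crest.Agent.S0111

/-- There are two measurable real conductivities on ℝ³, bounded between two positive constants, equal to 1 outside some ball of radius less than 3 (hence near the sphere of radius 3) and differing on a set of positive volume, with the same boundary energies on the ball of radius 3: for every continuously differentiable datum, the infimum of ∫ γ ‖∇u‖² over continuously differentiable u equal to the datum on the sphere is the same for both. Equivalently, their voltage-to-current maps coincide. -/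
theorem result :
    ∃ γ₀ γ₁ : EuclideanSpace ℝ (Fin 3) → ℝ, ∃ c C : ℝ, 0 < c ∧ Measurable γ₀ ∧ Measurable γ₁ ∧
      (∀ x, c ≤ γ₀ x ∧ γ₀ x ≤ C ∧ c ≤ γ₁ x ∧ γ₁ x ≤ C) ∧
      (∃ r : ℝ, r < 3 ∧ ∀ x : EuclideanSpace ℝ (Fin 3), r < ‖x‖ → γ₀ x = 1 ∧ γ₁ x = 1) ∧
      0 < volume {x : EuclideanSpace ℝ (Fin 3) | γ₀ x ≠ γ₁ x} ∧
      SameBoundaryEnergies γ₀ γ₁ :=
  Crest.Agent.R83.main

end Crest.Agent.S0111
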