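import Crest.Statements.S0115
import Crest.Agent.R87.Outer
import Crest.Agent.R87.Core
import Crest.Agent.R87.Forest
import Crest.Agent.R87.L2
import Crest.Agent.R87.Tail
import Crest.Agent.R87.S1K
import Crest.Agent.R87.S2
import Crest.Agent.R87.T4
import Crest.Agent.R87.WB
import Crest.Agent.R87.Ker
import Crest.Agent.R87.Doob
import Crest.Agent.R87.Car4
import Crest.Agent.R87.BMax
import Crest.Agent.R87.LT
import Crest.Agent.R87.CoefL
import Crest.Agent.R87.PosL

set_option autoImplicit false
open Crest Crest.AnalysisR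

namespace Crest.Agent.S0115

/-- There are real constants a with 0 < a < 1/2 and C such that for every vector field v on the Euclidean plane with ‖v x‖ = 1 everywhere and Lipschitz constant at most 1, every complex Schwartz function f on the plane, and every ε with 0 < ε < a, the function x ↦ ∫ f (x - t • v x) / t dt over t ∈ (-a, -ε) ∪ (ε, a) has L² norm at most C times the L² norm of f (norms as eLpNorm for Lebesgue measure). -/
theorem result :
    ∃ a : ℝ, 0 < a ∧ a < 1 / 2 ∧ ∃ C : ℝ, ∀ v : EuclideanSpace ℝ (Fin 2) → EuclideanSpace ℝ (Fin 2),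
      (∀ x, ‖v x‖ = 1) → LipschitzWith 1 v → ∀ f : SchwartzMap (EuclideanSpace ℝ (Fin 2)) ℂ, ∀ ε : ℝ, 0 < ε → ε < a →
        MeasureTheory.eLpNorm
            (fun x : EuclideanSpace ℝ (Fin 2) => ∫ t in Set.Ioo (-a) (-ε) ∪ Set.Ioo ε a, f (x - t • v x) / (t : ℂ)) 2
            MeasureTheory.volume ≤
          ENNReal.ofReal C * MeasureTheory.eLpNorm (⇑f) 2 MeasureTheory.volume := by
  have hc := R87.coefL R87.doob R87.lt
  have hp := R87.posL R87.lt
  have hb := R87.bmax R87.car4 R87.doob
  have h2 := R87.l2 R87.car4 hb hc hp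
  exact R87.outer (R87.core R87.forest h2
    (R87.tail h2 R87.kerS (R87.s1 (R87.t4 R87.car4 hb hc hp) R87.wb) R87.s2))

end Crest.Agent.S0115
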