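import Crest.Statements.S0122
import Crest.Agent.R92.Main

set_option autoImplicit false
open Crest.AnalysisR.MassAction
open Crest Crest.AnalysisR Crest.AnalysisR.MassAction

namespace Crest.Agent.S0122

/-- For a finite reaction network on `d ≥ 1` species that is weakly reversible, with positive rate constants and mass-action kinetics, every positive stoichiometric class `P` contains a nonempty compact convex set `K` that is forward invariant and absorbing: from every point of `P` there is a solution defined for all forward time, it is unique, it stays coordinatewise positive, and it lies in `K` from some finite time on. -/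
theorem result
    (d : ℕ) (hd : 1 ≤ d) (R : Network d) (hR : IsWeaklyReversible R)
    (k : (Fin d → ℕ) × (Fin d → ℕ) → ℝ) (hk : ∀ r ∈ R, 0 < k r)
    (c : Fin d → ℝ) (hc : ∀ i, 0 < c i) :
    ∃ K : Set (Fin d → ℝ), K ⊆ positiveClass R c ∧ K.Nonempty ∧ IsCompact K ∧ Convex ℝ K ∧
      (∀ x : ℝ → (Fin d → ℝ), IsForwardSolution (field R k) x → x 0 ∈ K →
        ∀ t : ℝ, 0 ≤ t → x t ∈ K) ∧
      (∀ x₀ ∈ positiveClass R c,
        (∃ x : ℝ → (Fin d → ℝ), IsForwardSolution (field R k) x ∧ x 0 = x₀) ∧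
        (∀ x x' : ℝ → (Fin d → ℝ), IsForwardSolution (field R k) x →
          IsForwardSolution (field R k) x' → x 0 = x₀ → x' 0 = x₀ →
          ∀ t : ℝ, 0 ≤ t → x t = x' t) ∧
        (∀ x : ℝ → (Fin d → ℝ), IsForwardSolution (field R k) x → x 0 = x₀ →
          (∀ t : ℝ, 0 ≤ t → ∀ i, 0 < x t i) ∧
          ∃ T : ℝ, 0 ≤ T ∧ ∀ t : ℝ, T ≤ t → x t ∈ K)) := by
  obtain ⟨ρ₀, hρ₀⟩ := R92.exists_absorbing hR hk hc
  obtain ⟨ρ₁, -, hρ₁⟩ := R92.exists_Box hc
  obtain ⟨ρ', K, -, h1, h2, h3, h4, h5⟩ := R92.exists_invariant hR hk (max ρ₀ ρ₁)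
  have hmono : ∀ a b : ℝ, a ≤ b → R92.Box d a ⊆ R92.Box d b := fun a b hab y hy =>
    R92.mem_Box.2 fun i => ⟨le_trans (Real.exp_le_exp.2 (by linarith)) (R92.mem_Box.1 hy i).1,
      le_trans (R92.mem_Box.1 hy i).2 (Real.exp_le_exp.2 hab)⟩
  have hinv : ∀ x : ℝ → (Fin d → ℝ), IsForwardSolution (field R k) x →
      x 0 ∈ K ∩ {y | y - c ∈ stoichSubspace R} →
      ∀ t : ℝ, 0 ≤ t → x t ∈ K ∩ {y | y - c ∈ stoichSubspace R} := by
    intro x hx h0 t ht
    refine ⟨h5 _ (R92.field_contDiff R k).continuous (fun _ _ => rfl) x hx h0.1 t ht, ?_⟩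
    have := (stoichSubspace R).add_mem (R92.sub_mem_stoich hx ht) h0.2
    rwa [sub_add_sub_cancel] at this
  refine ⟨K ∩ {y | y - c ∈ stoichSubspace R}, fun y hy => ⟨R92.Box_pos (h2 hy.1), hy.2⟩,
    ⟨c, h1 (hmono _ _ (le_max_right _ _) hρ₁), by simp⟩, ?_, ?_, hinv, ?_⟩
  · refine (isCompact_Icc.of_isClosed_subset h3 h2).inter_right ?_
    exact (stoichSubspace R).closed_of_finiteDimensional.preimage
      (continuous_id.sub continuous_const)
  · refine h4.inter ?_
    intro x hx y hy a b _ _ hab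
    have e : a • x + b • y - c = a • (x - c) + b • (y - c) := by
      rw [smul_sub, smul_sub, sub_add_sub_comm, ← add_smul, hab, one_smul]
    change a • x + b • y - c ∈ stoichSubspace R
    rw [e]
    exact (stoichSubspace R).add_mem ((stoichSubspace R).smul_mem _ hx)
      ((stoichSubspace R).smul_mem _ hy)
  · intro x₀ hx₀
    obtain ⟨hex, ρ, hρ⟩ := R92.exists_solution hR hk hx₀.1
    refine ⟨hex, fun x x' hx hx' h0 h0' => R92.unique_in_box (R92.field_contDiff R k) hx hx'
      (hρ x hx h0) (hρ x' hx' h0') (h0.trans h0'.symm), fun x hx h0 => ⟨fun t ht =>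
        R92.Box_pos (hρ x hx h0 t ht), ?_⟩⟩
    obtain ⟨T, hT, hTB⟩ := hρ₀ x hx (h0 ▸ hx₀)
    refine ⟨T, hT, fun t ht => ?_⟩
    have hshift : IsForwardSolution (field R k) (fun s => x (s + T)) := by
      intro s hs
      have a1 := hx (s + T) (by linarith)
      have a2 : HasDerivWithinAt (fun s : ℝ => s + T) 1 (Set.Ici 0) s :=
        ((hasDerivAt_id s).add_const T).hasDerivWithinAt
      have a3 := a1.scomp s a2 (fun u hu => by
        simp only [Set.mem_Ici] at hu ⊢; linarith)
      rw [one_smul] at a3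
      exact a3
    have hstart : x (0 + T) ∈ K ∩ {y | y - c ∈ stoichSubspace R} := by
      rw [zero_add]
      refine ⟨h1 (hmono _ _ (le_max_left _ _) hTB), ?_⟩
      have := (stoichSubspace R).add_mem (R92.sub_mem_stoich hx hT) (h0 ▸ hx₀.2)
      rwa [sub_add_sub_cancel] at this
    have := hinv _ hshift hstart (t - T) (by linarith)
    rwa [sub_add_cancel] at this

end Crest.Agent.S0122
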