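import Crest.Statements.S0124
import Crest.Agent.R94.Main
import Crest.Agent.R94.Final
import Crest.Agent.R94.Bridge

set_option autoImplicit false
open scoped Gradient
open Crest Crest.AnalysisR Crest.AnalysisR.PDE

namespace Crest.Agent.S0124

/-- For every dimension d ≥ 3 there are an exponent α with 0 < α ≤ 1/3 and a constant C, both depending only on d, such that every function u that is infinity-harmonic in the viscosity sense on the open unit ball of ℝᵈ and has oscillation at most M there (u x - u y ≤ M for all x, y in the ball) is differentiable at every point of the concentric open ball of radius 1/2, with ‖∇u(x)‖ ≤ C·M and ‖∇u(x) - ∇u(y)‖ ≤ C·M·‖x - y‖^α for all x, y in that smaller ball. -/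
theorem result
    (d : ℕ) (hd : 3 ≤ d) :
    ∃ α : ℝ, 0 < α ∧ α ≤ 1 / 3 ∧ ∃ C : ℝ,
      ∀ u : EuclideanSpace ℝ (Fin d) → ℝ,
        Crest.AnalysisR.PDE.IsInfinityHarmonicOn u (Metric.ball 0 1) →
        ∀ M : ℝ, (∀ x ∈ Metric.ball (0 : EuclideanSpace ℝ (Fin d)) 1,
            ∀ y ∈ Metric.ball (0 : EuclideanSpace ℝ (Fin d)) 1, u x - u y ≤ M) →
          (∀ x ∈ Metric.ball (0 : EuclideanSpace ℝ (Fin d)) 2⁻¹, DifferentiableAt ℝ u x) ∧
          ∀ x ∈ Metric.ball (0 : EuclideanSpace ℝ (Fin d)) 2⁻¹,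
            ∀ y ∈ Metric.ball (0 : EuclideanSpace ℝ (Fin d)) 2⁻¹,
              ‖∇ u x‖ ≤ C * M ∧ ‖∇ u x - ∇ u y‖ ≤ C * M * ‖x - y‖ ^ α := by
  obtain ⟨α, C, hα, hα3, hC, H⟩ :=
    R94.taylor_of_est (R94.est_all _ (EuclideanSpace ℝ (Fin d)) rfl)
  refine ⟨α, hα, hα3, 32 * C, fun u hu M hM => ?_⟩
  have hM0 : 0 ≤ M := by
    have := hM 0 (Metric.mem_ball_self one_pos) 0 (Metric.mem_ball_self one_pos)
    linarith
  have h := R94.c1a_of_taylor (u := u) (B := C * M) hα (by linarith) (mul_nonneg hC hM0)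
    (H u M (R94.isSol_of_infHarmonic u hu) hM)
  refine ⟨h.1, fun x hx y hy => ?_⟩
  have h2 := h.2 x hx y hy
  constructor
  · calc _ ≤ 32 * (C * M) := h2.1
      _ = 32 * C * M := by ring
  · calc _ ≤ 32 * (C * M) * ‖x - y‖ ^ α := h2.2
      _ = 32 * C * M * ‖x - y‖ ^ α := by ring

end Crest.Agent.S0124
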