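import Crest.Statements.S0143
import Crest.Agent.R109.Main

set_option autoImplicit false
open Crest Crest.AnalysisR Crest.AnalysisR.OperatorAlgebra

namespace Crest.Agent.S0143

/-- Let 0 < ε < 1 and r = ⌈400000000/ε²⌉ + ⌈4/ε⌉ + 1. For every von Neumann algebra M on a complex Hilbert space H, every maximal abelian unital ⋆-subalgebra A of M, every self-adjoint x in M, every finite set F of vectors and every δ > 0, there are r pairwise orthogonal projections p_i in A summing to 1 (some may be 0), a self-adjoint a in A with ‖a‖ ≤ ‖x‖ and a projection q in M with ‖(1 − q)ξ‖ < δ for ξ in F and ‖q(∑ p_i x p_i − a)q‖ ≤ ε‖x‖. -/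
theorem result (ε : ℝ) (hε : 0 < ε) (hε1 : ε < 1)
    (H : Type*) [NormedAddCommGroup H] [InnerProductSpace ℂ H] [CompleteSpace H] (M : VonNeumannAlgebra H) (A : StarSubalgebra ℂ (H →L[ℂ] H))
    (hAM : A ≤ M.toStarSubalgebra) (hA : ∀ a ∈ A, ∀ b ∈ A, a * b = b * a)
    (hAmax : ∀ y ∈ M, (∀ a ∈ A, a * y = y * a) → y ∈ A)
    (x : H →L[ℂ] H) (hxM : x ∈ M) (hx : IsSelfAdjoint x) (F : Finset H) (δ : ℝ) (hδ : 0 < δ) :
    ∃ p : Fin (Nat.ceil (400000000 / ε ^ 2) + Nat.ceil (4 / ε) + 1) → (H →L[ℂ] H),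
      (∀ i, p i ∈ A ∧ IsStarProjection (p i)) ∧ (∀ i j, i ≠ j → p i * p j = 0) ∧
      ∑ i, p i = 1 ∧
      ∃ a ∈ A, IsSelfAdjoint a ∧ ‖a‖ ≤ ‖x‖ ∧
        ∃ q ∈ M, IsStarProjection q ∧ (∀ ξ ∈ F, ‖(1 - q) ξ‖ < δ) ∧
          ‖q * (∑ i, p i * x * p i - a) * q‖ ≤ ε * ‖x‖ := by
  obtain ⟨p, hp, a, haA, ha, ha1, q, hq, hq1, hq2⟩ :=
    R109.so_main (R109.masa_comap hAM hA hAmax) F (x := ⟨x, hxM⟩) (Subtype.ext hx.star_eq) hε hε1
      hδ (Nat.le_ceil _) (Nat.le_ceil _)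
  obtain ⟨h1, h2, h3⟩ := hp.coe
  refine ⟨fun i => p i, h1, h2, h3, a, haA, R109.coe_sa ha, ha1, q, q.2, R109.coe_proj hq, hq1, ?_⟩
  have e := R109.coe_Ep p ⟨x, hxM⟩
  change _ = ∑ i, (p i : H →L[ℂ] H) * x * p i at e
  rw [← e]
  exact hq2

end Crest.Agent.S0143
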