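import Crest.Statements.S0144
import Crest.Agent.R109.Main

set_option autoImplicit false
universe u
open Crest Crest.AnalysisR Crest.AnalysisR.OperatorAlgebra

namespace Crest.Agent.S0144

/-- For some constant C > 0 and every 0 < ε < 1, some natural number R ≤ C/ε⁶ has this property: for every von Neumann algebra M on a complex Hilbert space, every maximal abelian unital ⋆-subalgebra A of M, every self-adjoint x in M, every finite set F of vectors and δ > 0, there are a self-adjoint y in M with ‖y‖ ≤ 3‖x‖ and ‖(y − x)ξ‖ < δ for ξ in F, R pairwise orthogonal projections p_i in A with sum 1 (some may be 0), and a self-adjoint a in A with ‖a‖ ≤ ‖y‖ and ‖∑ p_i y p_i − a‖ ≤ ε‖y‖. -/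
theorem result :
    ∃ C : ℝ, 0 < C ∧ ∀ ε : ℝ, 0 < ε → ε < 1 → ∃ R : ℕ, (R : ℝ) ≤ C / ε ^ 6 ∧
      ∀ (H : Type u) [NormedAddCommGroup H] [InnerProductSpace ℂ H] [CompleteSpace H]
        (M : VonNeumannAlgebra H) (A : StarSubalgebra ℂ (H →L[ℂ] H)),
        A ≤ M.toStarSubalgebra → (∀ a ∈ A, ∀ b ∈ A, a * b = b * a) →
        (∀ y ∈ M, (∀ a ∈ A, a * y = y * a) → y ∈ A) →
        ∀ x ∈ M, IsSelfAdjoint x → ∀ (F : Finset H) (δ : ℝ), 0 < δ →
          ∃ y ∈ M, IsSelfAdjoint y ∧ ‖y‖ ≤ 3 * ‖x‖ ∧ (∀ ξ ∈ F, ‖(y - x) ξ‖ < δ) ∧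
            ∃ p : Fin R → (H →L[ℂ] H),
              (∀ i, p i ∈ A ∧ IsStarProjection (p i)) ∧ (∀ i j, i ≠ j → p i * p j = 0) ∧
              ∑ i, p i = 1 ∧
              ∃ a ∈ A, IsSelfAdjoint a ∧ ‖a‖ ≤ ‖y‖ ∧ ‖∑ i, p i * y * p i - a‖ ≤ ε * ‖y‖ := by
  refine ⟨30000000000, by norm_num, fun ε hε hε1 =>
    ⟨⌈400000000 / (ε / 8) ^ 2⌉₊ + ⌈8 / (2 * (ε / 8)) ^ 2⌉₊ + 1, ?_, ?_⟩⟩
  · have h1 := Nat.ceil_lt_add_one (a := 400000000 / (ε / 8) ^ 2) (by positivity)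
    have h2 := Nat.ceil_lt_add_one (a := 8 / (2 * (ε / 8)) ^ 2) (by positivity)
    have h3 : 400000000 / (ε / 8) ^ 2 = 25600000000 * (1 / ε ^ 2) := by field_simp; norm_num
    have h4 : 8 / (2 * (ε / 8)) ^ 2 = 128 * (1 / ε ^ 2) := by field_simp; norm_num
    have h5 : 1 / ε ^ 2 ≤ 1 / ε ^ 6 :=
      one_div_le_one_div_of_le (by positivity) (pow_le_pow_of_le_one hε.le hε1.le (by norm_num))
    have h6 : 1 ≤ 1 / ε ^ 6 := one_le_one_div (by positivity) (pow_le_one₀ hε.le hε1.le)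
    rw [div_eq_mul_one_div 30000000000]
    push_cast
    linarith
  intro H _ _ _ M A hAM hA hAmax x hxM hx F δ hδ
  obtain ⟨y, hy, hy1, hy2, p, hp, a, haA, ha, ha1, ha2⟩ :=
    R109.ap_main (R109.masa_comap hAM hA hAmax) F (x := ⟨x, hxM⟩) (Subtype.ext hx.star_eq) hε hε1
      hδ (Nat.le_ceil _) (Nat.le_ceil _)
  obtain ⟨h1, h2, h3⟩ := hp.coe
  refine ⟨y, y.2, R109.coe_sa hy, hy1, hy2, fun i => p i, h1, h2, h3, a, haA, R109.coe_sa ha,
    ha1, ?_⟩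
  rw [← R109.coe_Ep p y]
  exact ha2

end Crest.Agent.S0144
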