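import Crest.Statements.S0145
import Crest.Agent.R110.Step

set_option autoImplicit false
open Crest Crest.AnalysisR Crest.AnalysisR.OperatorAlgebra

namespace Crest.Agent.S0145

/-- Let C be a complex C⋆-algebra, possibly without unit, in which every positive element h is properly infinite (for every ε > 0 some r, s satisfy ‖r⋆hr − h‖ < ε, ‖s⋆hs − h‖ < ε, ‖r⋆hs‖ < ε; this is h ⊕ h ≾ h written entrywise). Then for all positive a, b, every c and every ε > 0 there are s, t in C with ‖s⋆as − a‖ < ε, ‖t⋆bt − b‖ < ε and ‖s⋆ct‖ < ε. Positive elements are those of the form x⋆x. -/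
theorem result
    (C : Type*) [NonUnitalCStarAlgebra C]
    (hC : ∀ x : C, Crest.OpAlg.IsProperlyInfinite (star x * x))
    (a b c : C) (ha : ∃ x : C, a = star x * x) (hb : ∃ y : C, b = star y * y) (ε : ℝ) (hε : 0 < ε) :
    ∃ s t : C, ‖star s * a * s - a‖ < ε ∧ ‖star t * b * t - b‖ < ε ∧ ‖star s * c * t‖ < ε := by
  classical
  let := CStarAlgebra.spectralOrder (Unitization ℂ C)
  have := CStarAlgebra.spectralOrderedRing (Unitization ℂ C)
  obtain ⟨B, _, _, _, π, -, hπ⟩ := R110.exists_quotient (RingHom.ker (Unitization.fstHom ℂ C))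
    (isClosed_singleton.preimage Unitization.continuous_fst)
  have lift : ∀ (x : C) (u : Unitization ℂ C), R110.Kills (x : Unitization ℂ C) u →
      ∃ y : C, u = y := by
    intro x u hu
    have h : u.fst = 0 := (hπ u).1 (hu B π ((hπ _).2 (Unitization.fst_inr ℂ x)))
    exact ⟨u.snd, by rw [← Unitization.inl_fst_add_inr_snd_eq u, h]; simp⟩
  have pib : ∀ x : C, R110.PIb (x : Unitization ℂ C) := by
    intro x h h0 hk δ hδ
    obtain ⟨w, hw⟩ := lift x (R110.sq2 h) (hk.trans (by
      have := R110.kills_of_star_mul (R110.sq2 h)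
      rwa [R110.sq2_star, R110.sq2_mul h0] at this))
    have e : h = ((star w * w : C) : Unitization ℂ C) := by
      rw [Unitization.inr_mul, Unitization.inr_star, ← hw, R110.sq2_star, R110.sq2_mul h0]
    obtain ⟨r, s, h1, h2, h3⟩ := hC w δ hδ
    refine ⟨r, s, ?_, ?_, ?_⟩
    · rw [e]; simpa only [← Unitization.inr_star, ← Unitization.inr_mul, ← Unitization.inr_sub,
        Unitization.norm_inr] using h1
    · rw [e]; simpa only [← Unitization.inr_star, ← Unitization.inr_mul, ← Unitization.inr_sub,
        Unitization.norm_inr] using h2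
    · rw [e]; simpa only [← Unitization.inr_star, ← Unitization.inr_mul,
        Unitization.norm_inr] using h3
  have pos : ∀ a : C, (∃ x : C, a = star x * x) → (0 : Unitization ℂ C) ≤ a := by
    rintro _ ⟨x, rfl⟩
    rw [Unitization.inr_mul, Unitization.inr_star]
    exact star_mul_self_nonneg _
  obtain ⟨s, t, ks, kt, h1, h2, h3⟩ :=
    R110.exists_diag (c : Unitization ℂ C) (pos a ha) (pos b hb) (pib a) (pib b) hε
  obtain ⟨s, rfl⟩ := lift a s ks
  obtain ⟨t, rfl⟩ := lift b t kt
  refine ⟨s, t, ?_, ?_, ?_⟩
  · simpa only [← Unitization.inr_star, ← Unitization.inr_mul, ← Unitization.inr_sub,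
      Unitization.norm_inr] using h1
  · simpa only [← Unitization.inr_star, ← Unitization.inr_mul, ← Unitization.inr_sub,
      Unitization.norm_inr] using h2
  · simpa only [← Unitization.inr_star, ← Unitization.inr_mul, Unitization.norm_inr] using h3

end Crest.Agent.S0145
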