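import Crest.Statements.S0147
import Crest.Agent.R112.Final

set_option autoImplicit false
open Crest Crest.AnalysisR

namespace Crest.Agent.S0147

/-- There is a real constant `C` such that for every real function `f` on the Euclidean plane that is integrable and has an integrable weak gradient `g` (so `f` lies in the inhomogeneous Sobolev space `W^{1,1}`), its centred disc maximal function is finite almost everywhere, its real-valued version `x ↦ (centredMaximalFunction f x).toReal` is locally integrable and admits a weak gradient `G` that is integrable with `∫ ‖G x‖ dx ≤ C * ∫ ‖g x‖ dx`. -/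
theorem result :
    ∃ C : ℝ, ∀ (f : EuclideanSpace ℝ (Fin 2) → ℝ) (g : EuclideanSpace ℝ (Fin 2) → EuclideanSpace ℝ (Fin 2)),
      MeasureTheory.Integrable f → Crest.AnalysisR.IsWeakGradient f g → MeasureTheory.Integrable g →
        (∀ᵐ x ∂(MeasureTheory.volume : MeasureTheory.Measure (EuclideanSpace ℝ (Fin 2))),
            Crest.AnalysisR.centredMaximalFunction f x < ⊤) ∧
        MeasureTheory.LocallyIntegrable (fun x => (Crest.AnalysisR.centredMaximalFunction f x).toReal) ∧
        ∃ G : EuclideanSpace ℝ (Fin 2) → EuclideanSpace ℝ (Fin 2),
          Crest.AnalysisR.IsWeakGradient (fun x => (Crest.AnalysisR.centredMaximalFunction f x).toReal) G ∧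
          MeasureTheory.Integrable G ∧ ∫ x, ‖G x‖ ≤ C * ∫ x, ‖g x‖ := by
  exact Crest.Agent.R112.final

end Crest.Agent.S0147
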