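import Crest.Statements.S0149
import Crest.Agent.R113.Rot

set_option autoImplicit false
open Crest.AnalysisR.RotationRep
open Crest Crest.AnalysisR Crest.AnalysisR.RotationRep

namespace Crest.Agent.S0149

/-- For every irrational θ in (0,1) there is a continuous real function f on ℂ, with values in [0,1] on the unit circle and vanishing there exactly at 1, with ∫ log f = −∞ over the circle (the lower integral of −log f(e^{it}) over (0, 2π] is infinite), such that for the generators U, V of the rotation algebra with angle θ in its left regular representation on ℓ²(ℤ × ℤ), each projection p in the von Neumann algebra of U, V with (1 − p) U f(V) p = 0 is 0 or 1 (f(V) by functional calculus). -/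
theorem result
    (θ : ℝ) (hθ₁ : Irrational θ) (hθ₂ : 0 < θ) (hθ₃ : θ < 1) :
    ∃ f : ℂ → ℝ, Continuous f ∧ (∀ z : ℂ, ‖z‖ = 1 → 0 ≤ f z ∧ f z ≤ 1) ∧
      (∀ z : ℂ, ‖z‖ = 1 → (f z = 0 ↔ z = 1)) ∧
      (∫⁻ t in Set.Ioc (0 : ℝ) (2 * Real.pi),
          ENNReal.ofReal (- Real.log (f (Complex.exp ((t : ℂ) * Complex.I)))) = ⊤) ∧
      ∀ U V : lp (fun _ : ℤ × ℤ => ℂ) 2 →L[ℂ] lp (fun _ : ℤ × ℤ => ℂ) 2, IsRotationPair θ U V →
        ∀ p : lp (fun _ : ℤ × ℤ => ℂ) 2 →L[ℂ] lp (fun _ : ℤ × ℤ => ℂ) 2,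
          p ∈ vonNeumannGenerated {U, V} → IsStarProjection p →
          (1 - p) * (U * cfc (fun z : ℂ => (f z : ℂ)) V) * p = 0 → p = 0 ∨ p = 1 := by
  exact Crest.Agent.R113.s0149 θ hθ₁

end Crest.Agent.S0149
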