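import Crest.Statements.S0150
import Crest.Agent.R113.FibMain

set_option autoImplicit false
open Crest.AnalysisR.TwoAdic MeasureTheory
attribute [local instance] Crest.AnalysisR.TwoAdic.borelTwoAdic Crest.AnalysisR.TwoAdic.borelSpace_twoAdic
open Crest Crest.AnalysisR Crest.AnalysisR.TwoAdic

namespace Crest.Agent.S0150

/-- On L²(ℤ₂; ℓ²(ℤ)) (2-adic integers, Haar probability) measurable weights β_j > 0, b_j ∈ [0,1] give fibre shifts S_x δ_j = β_j(x) δ_{j+1} forming a bounded S and a contraction V commuting with S, acting along x ↦ x + 1 by V_x δ_j = b_j(x) δ_{j−1}, with: each S_x has exactly the tails, 0, ℓ²(ℤ) as closed invariant subspaces; ‖S‖ = e^{−10}, ‖Sⁿ‖ ≤ exp(−10⌊(n+1)²/4⌋); off a null set b_j > 0 and V_x maps each tail densely into the next lower one; S, V and bounded multipliers act transitively. -/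
theorem result :
    ∃ (β b : ℤ → ℤ_[2] → ℝ) (Sfib Vfib : ℤ_[2] → (seqHilbert →L[ℂ] seqHilbert))
      (S V : fibreSpace →L[ℂ] fibreSpace),
      (∀ j, Measurable (β j)) ∧ (∀ j x, 0 < β j x) ∧
      (∀ x j, Sfib x (basisVec j) = (β j x : ℂ) • basisVec (j + 1)) ∧
      (∀ f : fibreSpace, ∀ᵐ x ∂haarTwoAdic, (S f : ℤ_[2] → seqHilbert) x = Sfib x ((f : ℤ_[2] → seqHilbert) x)) ∧
      (∀ x, ∀ W : Submodule ℂ seqHilbert, IsClosed (W : Set seqHilbert) →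
        ((∀ v ∈ W, Sfib x v ∈ W) ↔ (W = ⊥ ∨ W = ⊤ ∨ ∃ h : ℤ, W = tailSpace h))) ∧
      S ≠ 0 ∧ ‖S‖ = Real.exp (-10) ∧
      (∀ n : ℕ, 1 ≤ n → ‖S ^ n‖ ≤ Real.exp (-10 * (((n + 1) ^ 2 / 4 : ℕ) : ℝ))) ∧
      ‖V‖ ≤ 1 ∧ V * S = S * V ∧
      (∀ j, Measurable (b j)) ∧ (∀ j x, 0 ≤ b j x ∧ b j x ≤ 1) ∧
      (∀ x j, Vfib x (basisVec j) = (b j x : ℂ) • basisVec (j - 1)) ∧
      (∀ f : fibreSpace, ∀ᵐ x ∂haarTwoAdic,
        (V f : ℤ_[2] → seqHilbert) (x + 1) = Vfib x ((f : ℤ_[2] → seqHilbert) x)) ∧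
      (∃ N : Set ℤ_[2], haarTwoAdic N = 0 ∧ ∀ x, x ∉ N →
        (∀ j, 0 < b j x) ∧
        (∀ h : ℤ, closure (Vfib x '' (tailSpace h : Set seqHilbert)) = (tailSpace (h - 1) : Set seqHilbert)) ∧
        closure (Set.range (Vfib x)) = Set.univ) ∧
      (∀ W : Submodule ℂ fibreSpace, IsClosed (W : Set fibreSpace) →
        (∀ f ∈ W, S f ∈ W) → (∀ f ∈ W, V f ∈ W) →
        (∀ g : ℤ_[2] → ℂ, Measurable g → (∃ C : ℝ, ∀ x, ‖g x‖ ≤ C) →
          ∀ f ∈ W, ∀ f' : fibreSpace,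
            (∀ᵐ x ∂haarTwoAdic, (f' : ℤ_[2] → seqHilbert) x = g x • (f : ℤ_[2] → seqHilbert) x) → f' ∈ W) →
        W = ⊥ ∨ W = ⊤) := by
  exact Crest.Agent.R113.s0150

end Crest.Agent.S0150
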