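import Crest.Statements.S0158
import Crest.Agent.R118.Step
import Crest.Agent.R118.Mult

set_option autoImplicit false
open Crest.AnalysisR
open Crest Crest.AnalysisR

namespace Crest.Agent.S0158

/-- Let X be a nonzero real Banach space with the approximation property. If X has Rademacher cotype q with some constant and its dual space has Rademacher cotype r with some constant, for some q, r ≥ 2 (possibly different), then X is K-convex: its Rademacher projections are bounded on L₂ of the sign cubes uniformly in the dimension. Averages over signs are exact finite averages. -/
theorem result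
    (X : Type*) [NormedAddCommGroup X] [NormedSpace ℝ X] [CompleteSpace X] [Nontrivial X]
    (hAP : HasApproximationProperty X) (q r C D : ℝ) (hq : 2 ≤ q) (hr : 2 ≤ r)
    (hX : HasRademacherCotype X q C)
    (hX' : HasRademacherCotype (StrongDual ℝ X) r D) :
    IsKConvex X := by
  obtain ⟨Φ, k, β, hk, hβ, h⟩ := R118.exists_step hq hr hX hX'
  obtain ⟨n, hn⟩ := R118.wal_id hAP h hβ hk
  exact R118.isKConvex_of_walsh n (R118.l2_of_wal hn)

end Crest.Agent.S0158
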