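import Crest.Statements.S0160
import Crest.Agent.R120.Main

set_option autoImplicit false
open Crest Crest.AnalysisR Crest.AnalysisR.OperatorAlgebra

namespace Crest.Agent.S0160

/-- There is a unital complex C⋆-algebra A that is infinite-dimensional, is simple (its only closed two-sided ideals are the zero ideal and A), carries a faithful tracial state, and whose irreducible representations on complex Hilbert spaces are pairwise unitarily equivalent. A representation is a ⋆-homomorphism into the bounded operators on a Hilbert space, not required to preserve the unit; irreducible ones are nonzero by definition; A and the Hilbert spaces are taken in the lowest universe. -/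
theorem result :
    ∃ (A : Type) (_ : CStarAlgebra A),
      ¬ FiniteDimensional ℂ A ∧
      (∀ I : TwoSidedIdeal A, IsClosed (I : Set A) → I = ⊥ ∨ I = ⊤) ∧
      (∃ τ : A →ₗ[ℂ] ℂ, Crest.OpAlg.IsFaithfulTracialState τ) ∧
      ∀ (H₁ : Type) [NormedAddCommGroup H₁] [InnerProductSpace ℂ H₁] [CompleteSpace H₁]
        (H₂ : Type) [NormedAddCommGroup H₂] [InnerProductSpace ℂ H₂] [CompleteSpace H₂]
        (π₁ : A →⋆ₙₐ[ℂ] (H₁ →L[ℂ] H₁)) (π₂ : A →⋆ₙₐ[ℂ] (H₂ →L[ℂ] H₂)),
        Crest.OpAlg.IsIrreducibleRep π₁ → Crest.OpAlg.IsIrreducibleRep π₂ →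
          Crest.OpAlg.AreUnitarilyEquivalent π₁ π₂ := by
  obtain ⟨D, _, _, _, _, U, B, _, Γ, τ, hτ, hf⟩ := Crest.Agent.R120.exists_gen
  have := hτ.nontrivial
  refine ⟨B, inferInstance, Γ.infinite_dim, fun I _ => Γ.simple hτ hf I,
    ⟨τ, hτ.one, fun a => ?_, hf, hτ.tr⟩, ?_⟩
  · have h := Complex.le_def.1 (hτ.pos a)
    exact ⟨h.2.symm, h.1⟩
  · intro H₁ _ _ _ H₂ _ _ _ π₁ π₂ h₁ h₂
    obtain ⟨_, ρ₁, i₁, e₁⟩ := Crest.Agent.R120.exists_unital π₁ h₁.1 h₁.2
    obtain ⟨_, ρ₂, i₂, e₂⟩ := Crest.Agent.R120.exists_unital π₂ h₂.1 h₂.2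
    obtain ⟨V, hV⟩ := Γ.unique i₁ i₂
    exact ⟨V, fun a v => by rw [← e₁, ← e₂, hV]⟩

end Crest.Agent.S0160
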