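import Crest.Statements.S0167
import Crest.Agent.R125.Daugavet
import Crest.Agent.R125.L1Lower

set_option autoImplicit false
open Crest Crest.AnalysisR

namespace Crest.Agent.S0167

/-- Let E be an infinite-dimensional closed subspace of the real L¹ of a probability space whose closed unit ball is totally bounded for convergence in measure and whose norm has the Daugavet property. Then at every unit x ∈ E and every t > 0 the averaged midpoint quantity sup_F inf_y ((‖x+ty‖+‖x-ty‖)/2 - 1) equals max(t/2, t-1) and the one-sided one sup_F inf_y (‖x+ty‖ - 1) equals max(0, t-2), as matching lower and upper bounds, and E admits no equivalent asymptotically uniformly convex norm. -/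
theorem result (Ω : Type) [MeasurableSpace Ω] (P : MeasureTheory.Measure Ω) [MeasureTheory.IsProbabilityMeasure P]
    (E : Submodule ℝ (MeasureTheory.Lp ℝ 1 P)) (hcl : IsClosed (E : Set (MeasureTheory.Lp ℝ 1 P)))
    (hinf : ¬ FiniteDimensional ℝ E)
    (htb : Crest.AnalysisR.L1Subspace.UnitBallTotallyBoundedInMeasure P E)
    (hD : Crest.AnalysisR.L1Subspace.HasDaugavetProperty E) :
    (∀ t : ℝ, 0 < t →
      (Crest.AnalysisR.L1Subspace.toRealBanach P E hcl).MidpointModulusGE
          (Crest.AnalysisR.L1Subspace.toRealBanach P E hcl).norm t (max (t / 2) (t - 1)) ∧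
        (Crest.AnalysisR.L1Subspace.toRealBanach P E hcl).MidpointModulusLE
          (Crest.AnalysisR.L1Subspace.toRealBanach P E hcl).norm t (max (t / 2) (t - 1)) ∧
        (Crest.AnalysisR.L1Subspace.toRealBanach P E hcl).OneSidedModulusGE
          (Crest.AnalysisR.L1Subspace.toRealBanach P E hcl).norm t (max 0 (t - 2)) ∧
        (Crest.AnalysisR.L1Subspace.toRealBanach P E hcl).OneSidedModulusLE
          (Crest.AnalysisR.L1Subspace.toRealBanach P E hcl).norm t (max 0 (t - 2))) ∧
      ∀ N : E → ℝ, (Crest.AnalysisR.L1Subspace.toRealBanach P E hcl).IsEquivNorm N →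
        ¬ (Crest.AnalysisR.L1Subspace.toRealBanach P E hcl).IsAUC N := by
  have hnt : Nontrivial E := by
    by_contra h
    rw [not_nontrivial_iff_subsingleton] at h
    exact hinf inferInstance
  refine ⟨fun t ht => ⟨R125.midGE_of (X := E) hcl.completeSpace_coe _ _ ?_,
    R125.midLE_of (X := E) hcl.completeSpace_coe _ _ ?_, R125.oneGE_of (X := E) hcl.completeSpace_coe _ _ ?_,
    R125.oneLE_of (X := E) hcl.completeSpace_coe _ _ ?_⟩, fun N hN =>
    (R125.daugavet_hasTrees hD).not_isAUC hcl.completeSpace_coe N hN⟩
  · intro x hx η hη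
    obtain ⟨S, hS, h⟩ := R125.exists_cof_avg E htb x hx ht hη
    refine ⟨S, hS, fun y hy hy1 => ?_⟩
    have h1 := h y hy hy1
    have h2 : 2 * t ≤ ‖x + t • y‖ + ‖x - t • y‖ := by
      have := norm_sub_le (x + t • y) (x - t • y)
      rw [show x + t • y - (x - t • y) = (2 * t) • y by module, norm_smul, hy1,
        Real.norm_eq_abs, abs_of_pos (by positivity), mul_one] at this
      exact this
    rcases le_total (t / 2) (t - 1) with h3 | h3
    · rw [max_eq_right h3]; linarith
    · rw [max_eq_left h3]; linarith
  · intro x hx S hS η hη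
    obtain ⟨y, hy, hy1, h⟩ := R125.daugavet_direction hD hS x hx hη
    refine ⟨y, hy, hy1, ?_⟩
    have h1 := h t ht
    have h2 : ‖x - t • y‖ ≤ 1 + t := by
      have := norm_sub_le x (t • y)
      rwa [norm_smul, hy1, hx, Real.norm_eq_abs, abs_of_pos ht, mul_one] at this
    rcases le_total 1 (t - 1) with h3 | h3
    · rw [max_eq_right h3] at h1; linarith [le_max_right (t / 2) (t - 1)]
    · rw [max_eq_left h3] at h1; linarith [le_max_left (t / 2) (t - 1)]
  · intro x hx η hη
    obtain ⟨φ, hφ, hφx⟩ := exists_dual_vector ℝ x (by rw [hx]; norm_num)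
    refine ⟨_, R125.cof_ker φ, fun y hy hy1 => ?_⟩
    have hy0 : φ y = 0 := hy
    have h1 : 1 ≤ ‖x + t • y‖ := by
      have := φ.le_opNorm (x + t • y)
      rw [map_add, map_smul, hy0, hφx, hφ, hx] at this
      simpa using this
    have h2 : t - 1 ≤ ‖x + t • y‖ := by
      have := norm_sub_le (x + t • y) x
      rw [add_sub_cancel_left, norm_smul, hy1, hx, Real.norm_eq_abs, abs_of_pos ht,
        mul_one] at this
      linarith
    rcases le_total 0 (t - 2) with h3 | h3
    · rw [max_eq_right h3]; linarith
    · rw [max_eq_left h3]; linarith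
  · intro x hx S hS η hη
    obtain ⟨y, hy, hy1, h⟩ := R125.daugavet_direction hD hS x hx hη
    refine ⟨y, hy, hy1, ?_⟩
    have h1 := h t ht
    rcases le_total 1 (t - 1) with h3 | h3
    · rw [max_eq_right h3] at h1; linarith [le_max_right 0 (t - 2)]
    · rw [max_eq_left h3] at h1; linarith [le_max_left 0 (t - 2)]

end Crest.Agent.S0167
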