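import Crest.Statements.S0173
import Crest.Agent.R129.Main73

set_option autoImplicit false
open Crest Crest.AnalysisR

namespace Crest.Agent.S0173

/-- There is a finitely generated group whose reduced group C*-algebra (the operator-norm closure of the span of the left translations on `ℓ²` of the group) contains a projection `b` (`b * b = b = b†`) whose canonical trace `⟨δ₁, b δ₁⟩` is an irrational real number. -/
theorem result :
    ∃ (G : Type) (_ : Group G), Group.FG G ∧
      ∃ b ∈ Crest.OperatorAlgebra.reducedGroupCStar G,
        b * b = b ∧ star b = b ∧ Irrational (Crest.OperatorAlgebra.canonicalTrace G b).re :=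
  Crest.Agent.R129.main73

end Crest.Agent.S0173
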