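import Crest.Statements.S0174
import Crest.Agent.R129.Main74

set_option autoImplicit false
open Crest Crest.AnalysisR

namespace Crest.Agent.S0174

/-- There is a finitely generated group in which only the identity has finite order and whose reduced group C*-algebra (the operator-norm closure, inside the bounded operators on `ℓ²` of the group, of the linear span of the left translations) contains a projection `e` (`e * e = e = e†`) whose canonical trace `⟨δ₁, e δ₁⟩` lies strictly between `0` and `1/2`; in particular `e` is neither `0` nor the identity. -/
theorem result :
    ∃ (G : Type) (_ : Group G), Group.FG G ∧ (∀ g : G, IsOfFinOrder g → g = 1) ∧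
      ∃ e ∈ Crest.OperatorAlgebra.reducedGroupCStar G,
        e * e = e ∧ star e = e ∧
        0 < (Crest.OperatorAlgebra.canonicalTrace G e).re ∧
        (Crest.OperatorAlgebra.canonicalTrace G e).re < 1 / 2 :=
  Crest.Agent.R129.main74

end Crest.Agent.S0174
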