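import Crest.Statements.S0182
import Crest.Agent.R133.Main

set_option autoImplicit false
open MeasureTheory Crest.AnalysisR
open Crest Crest.AnalysisR

namespace Crest.Agent.S0182

/-- There is an ergodic, invertible, measure-preserving transformation of a standard probability space (isomorphic modulo null sets to the unit interval with Lebesgue measure) whose Kolmogorov–Sinai entropy is zero and which is not measurably conjugate, on invariant conull sets, to any C^∞ diffeomorphism preserving a probability measure with smooth strictly positive density on a compact finite-dimensional manifold, with or without boundary, orientable or not. -/
theorem result :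
    ∃ (X : Type) (_ : MeasurableSpace X) (μ : Measure X) (T : X ≃ᵐ X),
      IsProbabilityMeasure μ ∧ IsStandardProbability μ ∧ MeasurePreserving T μ μ ∧
      Ergodic T μ ∧ HasZeroEntropy μ T ∧ NoSmoothPositiveVolumeModel μ T := by
  exact Crest.Agent.R133.main

end Crest.Agent.S0182
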