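import Crest.Statements.S0183
import Crest.Agent.R134.Main

set_option autoImplicit false
open Crest Crest.AnalysisR Crest.AnalysisR.OperatorAlgebra

namespace Crest.Agent.S0183

/-- There is a ⋆-algebra isomorphism over ℂ from the group von Neumann algebra of the free group on two generators onto the group von Neumann algebra of the free group on three generators that carries the canonical trace x ↦ ⟪δ_e, x δ_e⟫ of the first to that of the second. Here the group von Neumann algebra of G is the double commutant of the left regular unitaries inside the bounded operators on ℓ²(G); continuity in any operator topology is not part of the statement. -/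
theorem result :
    ∃ Φ : (Crest.OpAlg.groupVNA (FreeGroup (Fin 2))).toStarSubalgebra ≃⋆ₐ[ℂ] (Crest.OpAlg.groupVNA (FreeGroup (Fin 3))).toStarSubalgebra,
      ∀ x : (Crest.OpAlg.groupVNA (FreeGroup (Fin 2))).toStarSubalgebra,
        Crest.OpAlg.groupTrace (FreeGroup (Fin 3)) ((Φ x : (Crest.OpAlg.groupVNA (FreeGroup (Fin 3))).toStarSubalgebra) : Crest.OpAlg.ltwo (FreeGroup (Fin 3)) →L[ℂ] Crest.OpAlg.ltwo (FreeGroup (Fin 3))) =
          Crest.OpAlg.groupTrace (FreeGroup (Fin 2)) (x : Crest.OpAlg.ltwo (FreeGroup (Fin 2)) →L[ℂ] Crest.OpAlg.ltwo (FreeGroup (Fin 2))) := by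
  exact Crest.Agent.R134.main 2 le_rfl

end Crest.Agent.S0183
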