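import Crest.Statements.S0184
import Crest.Agent.R134.Main

set_option autoImplicit false
open Crest Crest.AnalysisR Crest.AnalysisR.OperatorAlgebra

namespace Crest.Agent.S0184

/-- For every natural number n ≥ 3 there is a ⋆-algebra isomorphism over ℂ from the group von Neumann algebra of the free group on n generators onto that of the free group on n + 1 generators carrying the canonical trace x ↦ ⟪δ_e, x δ_e⟫ of the first to that of the second. The group von Neumann algebra of G is the double commutant of the left regular unitaries inside the bounded operators on ℓ²(G); continuity in any operator topology is not part of the statement. -/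
theorem result (n : ℕ)
    (hn : 3 ≤ n) :
    ∃ Φ : (Crest.OpAlg.groupVNA (FreeGroup (Fin n))).toStarSubalgebra ≃⋆ₐ[ℂ] (Crest.OpAlg.groupVNA (FreeGroup (Fin (n + 1)))).toStarSubalgebra,
      ∀ x : (Crest.OpAlg.groupVNA (FreeGroup (Fin n))).toStarSubalgebra,
        Crest.OpAlg.groupTrace (FreeGroup (Fin (n + 1))) ((Φ x : (Crest.OpAlg.groupVNA (FreeGroup (Fin (n + 1)))).toStarSubalgebra) : Crest.OpAlg.ltwo (FreeGroup (Fin (n + 1))) →L[ℂ] Crest.OpAlg.ltwo (FreeGroup (Fin (n + 1)))) =
          Crest.OpAlg.groupTrace (FreeGroup (Fin n)) (x : Crest.OpAlg.ltwo (FreeGroup (Fin n)) →L[ℂ] Crest.OpAlg.ltwo (FreeGroup (Fin n))) := by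
  exact Crest.Agent.R134.main n (by omega)

end Crest.Agent.S0184
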