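import Crest.Statements.S0209
import Crest.Agent.R149.Main
import Crest.Agent.R149.CoreEx

set_option autoImplicit false
open Crest Crest.ProbabilityR

namespace Crest.Agent.S0209

/-- There is a bounded continuous stable radial pair potential in three-space (energy of `N` particles `≥ -B N`) with `φ(r)` at most `C r^(-3-1/32)` in size for `r ≥ 1`, an open density interval centred at `5p/3`, `p > 0` the unit-separation packing density (`packingNumber L / L^3 → p`), and one `β_c ∈ [7/8, 9/8]` such that at each `ρ` in it the free energy per volume `-lim_L log Z_{[0,L]^3, ⌊ρL^3⌋}(β)/(β L^3)` exists for `β > 0`, with one-sided `β`-derivatives at `β_c`, left above right. -/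
theorem result :
    ∃ φ : ℝ → ℝ, Continuous φ ∧ (∃ M : ℝ, ∀ r : ℝ, |φ r| ≤ M) ∧
      (∃ B : ℝ, ∀ (N : ℕ) (x : Fin N → Crest.ProbabilityR.Continuum.Pt), -B * N ≤ Crest.ProbabilityR.Continuum.energy φ x) ∧
      (∃ C : ℝ, ∀ r : ℝ, 1 ≤ r → |φ r| ≤ C * r ^ (-(3 + 1 / 32 : ℝ))) ∧
      ∃ p η βc : ℝ, 0 < p ∧
        Filter.Tendsto (fun L : ℝ => (Crest.ProbabilityR.Continuum.packingNumber L : ℝ) / L ^ 3)
          Filter.atTop (nhds p) ∧
        0 < η ∧ η ≤ 5 * p / 3 ∧ 7 / 8 ≤ βc ∧ βc ≤ 9 / 8 ∧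
        ∃ f : ℝ → ℝ → ℝ,
          (∀ ρ : ℝ, 5 * p / 3 - η < ρ → ρ < 5 * p / 3 + η → ∀ β : ℝ, 0 < β →
            Filter.Tendsto (fun L : ℝ => -(1 / (β * L ^ 3)) *
                Real.log (Crest.ProbabilityR.Continuum.partitionFn φ L ⌊ρ * L ^ 3⌋₊ β))
              Filter.atTop (nhds (f β ρ))) ∧
          (∀ ρ : ℝ, 5 * p / 3 - η < ρ → ρ < 5 * p / 3 + η → ∃ Dl Dr : ℝ,
            HasDerivWithinAt (fun β => f β ρ) Dl (Set.Iio βc) βc ∧
            HasDerivWithinAt (fun β => f β ρ) Dr (Set.Ioi βc) βc ∧ Dr < Dl) := by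
  obtain ⟨φ₀, χ, ⟨hc, K, hK⟩, -, h0, hfar, hχc, hχ0, ⟨M, hM⟩, ⟨C, hC⟩, -, hgood, p, g, βc, hp, hg,
      hβ1, hβ2, hk⟩ := R149.main (fun φ₀ => Continuous φ₀ ∧ ∃ K, ∀ r, φ₀ r ≤ K)
    fun C ρ₀ ε τ K a1 a2 a3 a4 a5 a6 a7 => by
      obtain ⟨φ₀, b1, b2, b3⟩ := R149.exists_core_bdd a1 a2 a3 a4 a5 a6 a7
      exact ⟨φ₀, b1, b2, K, b3⟩
  have hp0 := hp.pos
  refine ⟨fun r => φ₀ r - χ r, hc.sub hχc, ⟨K + M, fun r => ?_⟩, hgood.stable, ⟨C, fun r hr => ?_⟩,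
    p, p / 6, βc, hp0, hp.lim, by linarith, by linarith, hβ1, hβ2, fun β ρ => g β ρ / β,
    fun ρ h1 h2 β hβ => ?_, fun ρ h1 h2 => hk ρ (by linarith) (by linarith)⟩
  · rw [abs_le]
    constructor <;> linarith [h0 r, hK r, hχ0 r, hM r]
  · simp only [hfar r hr, zero_sub, abs_neg, abs_of_nonneg (hχ0 r)]
    exact hC r hr
  · refine ((hg.lim β hβ ρ (by linarith)).div_const β).congr fun L => ?_
    simp only [R149.F]
    ring

end Crest.Agent.S0209
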