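import Crest.Statements.S0210
import Crest.Agent.R149.Main
import Crest.Agent.R149.CoreEx

set_option autoImplicit false
open Crest Crest.ProbabilityR

namespace Crest.Agent.S0210

/-- There is a measurable radial pair potential in three-space, finite and locally bounded at positive distances, tending to `+∞` at `0`, below `-a < 0` on an interval, with `r² φ(r)` integrable at large `r`, `r³ φ(r) → 0`, and stable on configurations of distinct points, whose canonical free energy per volume `-lim_L log Z_{[0,L]^3, ⌊ρL^3⌋}(β)/(β L^3)` exists for all `β, ρ > 0` and has, on some open density interval, at one `β_c ∈ (1/2, 3/2)` a left `β`-derivative strictly above the right. -/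
theorem result :
    ∃ φ : ℝ → ℝ, Measurable φ ∧
      (∀ a b : ℝ, 0 < a → a ≤ b → ∃ M : ℝ, ∀ r : ℝ, a ≤ r → r ≤ b → |φ r| ≤ M) ∧
      Filter.Tendsto φ (nhdsWithin 0 (Set.Ioi 0)) Filter.atTop ∧
      (∃ r₁ r₂ a : ℝ, 0 < r₁ ∧ r₁ < r₂ ∧ 0 < a ∧ ∀ r : ℝ, r₁ ≤ r → r ≤ r₂ → φ r ≤ -a) ∧
      (∃ R : ℝ, 0 < R ∧ MeasureTheory.IntegrableOn (fun r : ℝ => r ^ 2 * |φ r|) (Set.Ioi R)) ∧
      Filter.Tendsto (fun r : ℝ => r ^ 3 * φ r) Filter.atTop (nhds 0) ∧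
      (∃ B : ℝ, ∀ (N : ℕ) (x : Fin N → Crest.ProbabilityR.Continuum.Pt), Function.Injective x →
        -B * N ≤ Crest.ProbabilityR.Continuum.energy φ x) ∧
      ∃ f : ℝ → ℝ → ℝ,
        (∀ ρ : ℝ, 0 < ρ → ∀ β : ℝ, 0 < β →
          Filter.Tendsto (fun L : ℝ => -(1 / (β * L ^ 3)) *
              Real.log (Crest.ProbabilityR.Continuum.partitionFn φ L ⌊ρ * L ^ 3⌋₊ β))
            Filter.atTop (nhds (f β ρ))) ∧
        ∃ ρ₁ ρ₂ βc : ℝ, 0 ≤ ρ₁ ∧ ρ₁ < ρ₂ ∧ 1 / 2 < βc ∧ βc < 3 / 2 ∧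
          ∀ ρ : ℝ, ρ₁ < ρ → ρ < ρ₂ → ∃ Dl Dr : ℝ,
            HasDerivWithinAt (fun β => f β ρ) Dl (Set.Iio βc) βc ∧
            HasDerivWithinAt (fun β => f β ρ) Dr (Set.Ioi βc) βc ∧ Dr < Dl := by
  obtain ⟨φ₀, χ, ⟨hb, ht⟩, -, h0, hfar, hχc, hχ0, ⟨M, hM⟩, ⟨C, hC⟩, ⟨a, ha, ha'⟩, hgood, p, g, βc,
      hp, hg, hβ1, hβ2, hk⟩ := R149.main (fun φ₀ => (∀ a, 0 < a → ∃ M, ∀ r, a ≤ r → φ₀ r ≤ M) ∧
        Filter.Tendsto φ₀ (nhdsWithin 0 (Set.Ioi 0)) Filter.atTop)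
    fun C ρ₀ ε τ K a1 a2 a3 a4 a5 a6 a7 => R149.exists_core_div a1 a2 a3 a4 a5 a6 a7
  have hp0 := hp.pos
  have hdec : ∀ r, 1 ≤ r → |φ₀ r - χ r| ≤ C * r ^ (-(3 + 1 / 32 : ℝ)) := fun r hr => by
    simp only [hfar r hr, zero_sub, abs_neg, abs_of_nonneg (hχ0 r)]
    exact hC r hr
  obtain ⟨B, hB⟩ := hgood.stable
  refine ⟨fun r => φ₀ r - χ r, hgood.meas, fun a b ha _ => ?_, ?_,
    ⟨1, 3 / 2, a, one_pos, by norm_num, ha, fun r h1 h2 => ?_⟩,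
    ⟨1, one_pos, R149.integrableOn_of_decay hgood.meas hdec⟩, R149.tendsto_of_decay hdec,
    ⟨B, fun N x _ => hB N x⟩, fun β ρ => g β ρ / β, fun ρ hρ β hβ => ?_, 3 / 2 * p, 11 / 6 * p, βc,
    by linarith, by linarith, by linarith, by linarith, hk⟩
  · obtain ⟨K, hK⟩ := hb a ha
    refine ⟨K + M, fun r h1 _ => ?_⟩
    rw [abs_le]
    constructor <;> linarith [h0 r, hK r h1, hχ0 r, hM r]
  · refine Filter.tendsto_atTop_mono (f := fun r => φ₀ r + -M) (fun r => by linarith [hM r]) ?_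
    exact Filter.tendsto_atTop_add_const_right _ _ ht
  · simp only [hfar r h1, zero_sub, neg_le_neg_iff]
    exact ha' r h1 h2
  · refine ((hg.lim β hβ ρ hρ.le).div_const β).congr fun L => ?_
    simp only [R149.F]
    ring

end Crest.Agent.S0210
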