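import Crest.Statements.S0223
import Crest.Agent.R155.Link_Basic

set_option autoImplicit false
open Crest Crest.ProbabilityR

namespace Crest.Agent.S0223

/-- For a deck of `2 * 2 ^ d` cards and every number `t` of shuffles, the total variation distance between the law of the arrangement of the deck and the uniform law on all arrangements is at least `1 - 2 ^ (2 ^ d * t) / (2 * 2 ^ d)!`. -/
theorem result (d t : ℕ) :
    1 - (2 : ℝ) ^ (2 ^ d * t) / ((2 * 2 ^ d).factorial : ℝ)
      ≤ Crest.ProbabilityR.Shuffle.tvFromUniform (2 ^ d) t := by
  exact Crest.Agent.R155.LinkAux.tv_ge (2 ^ d) t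

end Crest.Agent.S0223
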