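import Crest.Statements.S0245
import Crest.Agent.R163.Cert4

set_option autoImplicit false
open Crest Crest.ProbabilityR

namespace Crest.Agent.S0245

/-- Four-valued spins spread from a uniform root down a tree, each child keeping its parent's spin with probability `λ` (0 ≤ λ ≤ 1), else drawing a fresh uniform spin. If `d λ² ≤ 1`, the expected total variation distance between the conditional law of the root given the depth-`ℓ` spins and the uniform law tends to `0` as `ℓ → ∞`: on the `d`-ary tree for integer `d ≥ 2`, and on a Poisson(`d`) Galton–Watson tree seen to depth `ℓ`, averaged without conditioning on survival, for real `d > 0`. -/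
theorem result :
    (∀ b : ℕ, 2 ≤ b → ∀ lam : ℝ, 0 ≤ lam → lam ≤ 1 → (b : ℝ) * lam ^ 2 ≤ 1 →
      Filter.Tendsto (Crest.ProbabilityR.Broadcast.advantage 4 b lam) Filter.atTop (nhds 0)) ∧
    (∀ d : ℝ, 0 < d → ∀ lam : ℝ, 0 ≤ lam → lam ≤ 1 → d * lam ^ 2 ≤ 1 →
      Filter.Tendsto (Crest.ProbabilityR.Broadcast.gwAdvantage 4 lam d) Filter.atTop (nhds 0)) := by
  refine ⟨fun b hb lam h0 h1 hks => ?_, fun d hd lam h0 h1 hks => ?_⟩
  · obtain ⟨C⟩ := Crest.Agent.R163.cert4 h0 h1
    exact C.reg (Crest.Agent.R163.channel_nonneg h0 h1) hb hks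
  · obtain ⟨C⟩ := Crest.Agent.R163.cert4 h0 h1
    exact C.gw (Crest.Agent.R163.channel_nonneg h0 h1) hd hks

end Crest.Agent.S0245
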