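import Crest.Statements.S0246
import Crest.Agent.R163.Cert4
import Crest.Agent.R163.TreeLow
import Crest.Agent.R163.Up
import Crest.Agent.R163.Down

set_option autoImplicit false
open Crest Crest.ProbabilityR

namespace Crest.Agent.S0246

/-- Four-valued spins spread from a uniform root down an infinite rooted tree with finite levels and at most `B` children per vertex, each child keeping its parent's spin with probability `λ ∈ (0,1)`, else drawing a fresh uniform spin. The root-reconstruction advantage from the depth-`n` spins stays bounded away from `0` if and only if some nonnegative flow to infinity of positive mass has, along every ray, sum over its edges of `(flow / λ^(2·depth))²` at most `1` (positive cubic capacity). -/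
theorem result (V : Type*) [DecidableEq V]
    (T : Crest.ProbabilityR.TreeBroadcast.LocFinTree V) [Infinite V] (B : ℕ)
    (hB : ∀ v, (T.children v).card ≤ B) (lam : ℝ) (h0 : 0 < lam) (h1 : lam < 1) :
    (∃ ε : ℝ, 0 < ε ∧ ∀ n, ε ≤ Crest.ProbabilityR.TreeBroadcast.treeAdvantage 4 T lam n) ↔
    (∃ θ : V → ℝ, Crest.ProbabilityR.TreeBroadcast.IsFlow T θ ∧ 0 < Crest.ProbabilityR.TreeBroadcast.flowMass T θ ∧
      ∀ ξ : ℕ → V, T.IsRay ξ → Crest.ProbabilityR.TreeBroadcast.rayPotential lam θ ξ ≤ 1) := by
  obtain ⟨C⟩ := Crest.Agent.R163.cert4 h0.le h1.le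
  have hc : ∀ i j : Fin 4, 0 ≤ Crest.ProbabilityR.Broadcast.channel 4 lam i j :=
    Crest.Agent.R163.channel_nonneg h0.le h1.le
  have hE := fun n => Crest.Agent.R163.Ex.subL T lam hc n T.root
  constructor
  · rintro ⟨ε, hε, h⟩
    obtain ⟨Φ, c, M, hc0, hM, hb, hX, hrec⟩ := C.tree_rec T hc (by nlinarith)
    refine Crest.Agent.R163.flow_of_rec T lam h0 Φ c M (4 * ε ^ 2) hc0 hM hb hrec (by positivity)
      fun n => le_trans ?_ (hX n T.root)
    have h2 := Crest.Agent.R163.adv_sq_le (hE n)
    have h3 := h n
    rw [Crest.Agent.R163.treeAdvantage_eq T lam hc n] at h3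
    nlinarith
  · rintro ⟨θ, hθ, hm, hray⟩
    obtain ⟨U, K, hK, hU, hrec, hmono⟩ := Crest.Agent.R163.tree_low T C h0 h1 B hB
    obtain ⟨δ, hδ, h⟩ := Crest.Agent.R163.low_of_flow T lam h0
      (fun k v => Crest.Agent.R163.E (Crest.Agent.R163.subL T 4 lam k v) Crest.Agent.R163.chi)
      U K hK (fun v => by
        obtain ⟨e, he⟩ := Crest.Agent.R163.subL_zero T (q := 4) lam v
        rw [he, Crest.Agent.R163.E_equiv, Crest.Agent.R163.chi_leaf]; norm_num)
      (fun k v => Crest.Agent.R163.E_chi_nonneg (Crest.Agent.R163.Ex.subL T lam hc k v))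
      hU hrec hmono θ hθ hm hray
    refine ⟨δ / 8, by positivity, fun n => ?_⟩
    have h2 := Crest.Agent.R163.chi_le_adv (hE n)
    have h3 := h n
    rw [Crest.Agent.R163.treeAdvantage_eq T lam hc n]
    push_cast at h2
    linarith

end Crest.Agent.S0246
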