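import Crest.Statements.S0254
import Crest.Agent.R168.Rule

set_option autoImplicit false
open Crest Crest.ProbabilityR

namespace Crest.Agent.S0254

/-- One rule from (graph on `ℕ`, labels in `[0,1]^ℕ`) to edge sets, jointly measurable in (adjacency table, labels) and commuting on every input with every permutation of `ℕ` acting on graph, labels and pairs, gives i.i.d. uniform labels the free uniform spanning forest's law on every connected locally finite graph: along every exhaustion by finite connected induced pieces, for finite edge sets `F` the chance that the piece's uniform spanning tree contains `F` tends to that for the output. -/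
theorem result :
    ∃ Φ : SimpleGraph ℕ → (ℕ → unitInterval) → (Sym2 ℕ → Bool),
      Measurable (fun p : (ℕ → ℕ → Bool) × (ℕ → unitInterval) =>
          Φ (Crest.ProbabilityR.GraphTables.graphOfTable p.1) p.2) ∧
      (∀ (σ : Equiv.Perm ℕ) (G : SimpleGraph ℕ) (x : ℕ → unitInterval),
          Φ (G.comap ⇑σ) (x ∘ ⇑σ) = Φ G x ∘ Sym2.map ⇑σ) ∧
      ∀ G : SimpleGraph ℕ, G.Connected → (∀ v : ℕ, (G.neighborSet v).Finite) →
        ∀ S : ℕ → Finset ℕ, Monotone S → (∀ v : ℕ, ∃ n, v ∈ S n) →
          (∀ n, (G.induce (S n : Set ℕ)).Connected) →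
          ∀ F : Finset (Sym2 ℕ), (↑F : Set (Sym2 ℕ)) ⊆ G.edgeSet →
            Filter.Tendsto (fun n => Crest.ProbabilityR.SpanningTrees.ustContains G (S n) F) Filter.atTop
              (nhds (((Crest.ProbabilityR.Labels.labelMeasure ℕ).map (Φ G) {ω | ∀ e ∈ F, ω e = true}).toReal)) := by
  have : MeasureTheory.IsProbabilityMeasure
      (MeasureTheory.Measure.infinitePi (fun _ : ℕ => R168.lap)) := inferInstance
  obtain ⟨ℓ, hℓ, hlaw⟩ := MeasureTheory.Measure.exists_measurable_map_eq
    (MeasureTheory.Measure.infinitePi (fun _ : ℕ => R168.lap))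
  refine ⟨R168.rule ℓ, ?_, R168.rule_comap hℓ, fun G hc hl S hmono hex hS F hF => ?_⟩
  · have := (R168.measurable_rule hℓ).comp
      (R168.measurable_graphOfTable.prodMap (measurable_id (α := ℕ → unitInterval)))
    simpa only [Function.comp_def, Prod.map_fst, Prod.map_snd, id] using this
  · rw [R168.rule_law hℓ hlaw G hc hl (R168.good_pG G S hmono hex hS) F hF]
    exact R168.tendsto_qG G S hmono hex hS F hF

end Crest.Agent.S0254
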