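import Crest.Statements.S0255
import Crest.Agent.R168.Group

set_option autoImplicit false
open Crest Crest.ProbabilityR

namespace Crest.Agent.S0255

/-- For a countable group `Γ` and a strongly Rayleigh probability law `ν` on binary configurations `Γ → Bool` that is invariant under every left shift `a ↦ (h ↦ a (g⁻¹ h))`, there is a measurable map from independent uniform labels indexed by `Γ` to configurations that commutes with every left shift and pushes the label law forward to `ν`. -/
theorem result (Γ : Type*) [Group Γ]
    [Countable Γ] (ν : MeasureTheory.Measure (Γ → Bool)) [MeasureTheory.IsProbabilityMeasure ν]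
    (hsr : Crest.ProbabilityR.StronglyRayleigh.IsStronglyRayleigh ν)
    (hinv : Crest.ProbabilityR.StronglyRayleigh.IsShiftInvariant ν) :
    ∃ Φ : (Γ → unitInterval) → (Γ → Bool), Measurable Φ ∧
      (∀ (g : Γ) (u : Γ → unitInterval),
        Φ (Crest.ProbabilityR.StronglyRayleigh.leftShift g u) =
          Crest.ProbabilityR.StronglyRayleigh.leftShift g (Φ u)) ∧
      (Crest.ProbabilityR.Labels.labelMeasure Γ).map Φ = ν := by
  exact R168.group_factor Γ ν hsr hinv

end Crest.Agent.S0255
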