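import Crest.Statements.S0256
import Crest.Agent.R169.NoMCM
import Crest.Agent.R169.HatC

set_option autoImplicit false
open Crest Crest.AlgebraR

namespace Crest.Agent.S0256

/-- There is a complete Noetherian local normal domain of Krull dimension three that is an algebra over the complex numbers whose structure map induces a bijection onto the residue field, and over which no nonzero finitely generated module has a regular sequence of length three contained in the maximal ideal (no maximal Cohen–Macaulay module: every such module has depth at most two). -/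
theorem result :
    ∃ (R : Type) (_ : CommRing R) (_ : IsLocalRing R) (_ : Algebra ℂ R),
      IsDomain R ∧ IsNoetherianRing R ∧ IsIntegrallyClosed R ∧
      IsAdicComplete (IsLocalRing.maximalIdeal R) R ∧ ringKrullDim R = 3 ∧
      Function.Bijective (algebraMap ℂ (IsLocalRing.ResidueField R)) ∧
      ∀ (M : Type) [AddCommGroup M] [Module R M], Module.Finite R M → Nontrivial M →
        ∀ rs : List R, rs.length = 3 → (∀ r ∈ rs, r ∈ IsLocalRing.maximalIdeal R) →
          ¬ RingTheory.Sequence.IsRegular M rs := by
  obtain ⟨n, _, c, ν, T, _, _, _, 𝒜, _, σ, hn, hc, -, -, hinj, hfin⟩ := R169.exists_cone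
  obtain ⟨R, i1, i2, i3, φ, h1, h2, h3, h4, h5, h6, h7, h8⟩ := R169.exists_hat T (σ.X ν) hinj hfin
  exact ⟨R, i1, i2, i3, h1, h2, h3, h4, h5, h6, fun M _ _ hM hM' rs hlen hm =>
    R169.no_mcm hn hc (σ.map φ) ν h7 h8 M hM hM' rs hlen hm⟩

end Crest.Agent.S0256
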