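import Crest.Statements.S0257
import Crest.Agent.R169.NoMCM
import Crest.Agent.R169.DimInt

set_option autoImplicit false
open Crest Crest.AlgebraR

namespace Crest.Agent.S0257

/-- There is a finitely generated commutative algebra over the complex numbers that is a domain of Krull dimension three, graded by the natural numbers so that the ideal of elements with zero degree-zero component is maximal with the complex numbers as quotient, whose localisation at that ideal has Krull dimension three and admits no nonzero finitely generated module with a regular sequence of length three in the maximal ideal (no maximal Cohen–Macaulay module). -/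
theorem result :
    ∃ (T : Type) (_ : CommRing T) (_ : Algebra ℂ T) (𝒜 : ℕ → Submodule ℂ T) (_ : GradedAlgebra 𝒜)
      (_ : (HomogeneousIdeal.irrelevant 𝒜).toIdeal.IsMaximal),
      Algebra.FiniteType ℂ T ∧ IsDomain T ∧ ringKrullDim T = 3 ∧
      Function.Bijective (algebraMap ℂ (T ⧸ (HomogeneousIdeal.irrelevant 𝒜).toIdeal)) ∧
      ringKrullDim (Localization.AtPrime (HomogeneousIdeal.irrelevant 𝒜).toIdeal) = 3 ∧
      ∀ (M : Type) [AddCommGroup M] [Module (Localization.AtPrime (HomogeneousIdeal.irrelevant 𝒜).toIdeal) M],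
        Module.Finite (Localization.AtPrime (HomogeneousIdeal.irrelevant 𝒜).toIdeal) M → Nontrivial M →
        ∀ rs : List (Localization.AtPrime (HomogeneousIdeal.irrelevant 𝒜).toIdeal), rs.length = 3 →
          (∀ r ∈ rs, r ∈ IsLocalRing.maximalIdeal (Localization.AtPrime (HomogeneousIdeal.irrelevant 𝒜).toIdeal)) →
          ¬ RingTheory.Sequence.IsRegular M rs := by
  obtain ⟨n, _, c, ν, T, i1, i2, i3, 𝒜, i4, σ, hn, hc, h0, hX, hinj, hfin⟩ := R169.exists_cone
  obtain ⟨i5, h1, h2, h3, h4, h5, h6⟩ := R169.graded_pack T 𝒜 h0 c hc (σ.X ν) hX hinj hfin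
  exact ⟨T, i1, i3, 𝒜, i4, i5, h1, i2, h2, h3, h4, fun M _ _ hM hM' rs hlen hm =>
    R169.no_mcm hn hc (σ.map (IsScalarTower.toAlgHom ℂ T _)) ν h5 h6 M hM hM' rs hlen hm⟩

end Crest.Agent.S0257
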