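import Crest.Statements.S0263
import Crest.Agent.R175.Main

set_option autoImplicit false
open Crest Crest.AlgebraR

namespace Crest.Agent.S0263

/-- Let `M` be a Coxeter matrix on a finite index type and `A` its Artin group (one generator for each index, one braid relation of length `M s t` for each pair with finite label). Call a subgroup of `A` parabolic when it is a conjugate of the subgroup generated by a subset of the generators. Then the intersection of any two parabolic subgroups of `A` is again parabolic. -/
theorem result
    (S : Type*) [Finite S] (M : CoxeterMatrix S)
    (P Q : Subgroup (Crest.GroupTheory.ArtinGroup M))
    (hP : Crest.GroupTheory.IsParabolic M P) (hQ : Crest.GroupTheory.IsParabolic M Q) :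
    Crest.GroupTheory.IsParabolic M (P ⊓ Q) := by
  exact (Crest.Agent.R175.strongPar M).isParabolic_inf hP hQ

end Crest.Agent.S0263
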