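import Crest.Statements.S0264
import Crest.Agent.R175.CMain
import Crest.Agent.S0263

set_option autoImplicit false
universe u
open Crest Crest.AlgebraR

namespace Crest.Agent.S0264

/-- There is a Coxeter matrix on a finite index type with `116` elements, every off-diagonal label being `2`, `3` or infinity (entry `0` in Mathlib's encoding), whose Artin group admits no geometric action (an action by isometries that is proper and cocompact) on any non-empty proper CAT(0) metric space. -/
theorem result :
    ∃ (S : Type) (_ : Fintype S) (M : CoxeterMatrix S),
      Fintype.card S = 116 ∧ (∀ s t : S, s ≠ t → M.M s t = 0 ∨ M.M s t = 2 ∨ M.M s t = 3) ∧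
      ∀ (X : Type u) [MetricSpace X] [ProperSpace X] [Nonempty X]
        [MulAction (Crest.GroupTheory.ArtinGroup M) X],
        Crest.Geometry.IsCAT0Space X → ¬ Crest.Geometry.IsGeometricAction (Crest.GroupTheory.ArtinGroup M) X :=
  Crest.Agent.R175C.main264 (fun P Q hP hQ => Crest.Agent.S0263.result _ _ P Q hP hQ)

end Crest.Agent.S0264
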