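import Crest.Statements.S0266
import Crest.Agent.R176.Main266

set_option autoImplicit false
open Crest Crest.AlgebraR

namespace Crest.Agent.S0266

/-- There is a unital associative algebra over the field with two elements that is infinite, finitely presented (isomorphic to the quotient of the free algebra on finitely many generators by finitely many relations) and graded by the natural numbers with the identity spanning the degree-zero piece, such that every square matrix whose entries all have zero degree-zero component is nilpotent. -/
theorem result :
    ∃ (R : Type) (_ : Ring R) (_ : Algebra (ZMod 2) R) (𝒜 : ℕ → Submodule (ZMod 2) R)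
      (_ : GradedAlgebra 𝒜),
      Infinite R ∧ 𝒜 0 = 1 ∧
      (∃ (m : ℕ) (rel : Finset (FreeAlgebra (ZMod 2) (Fin m) × FreeAlgebra (ZMod 2) (Fin m))),
        Nonempty (R ≃ₐ[ZMod 2] RingQuot fun x y : FreeAlgebra (ZMod 2) (Fin m) => (x, y) ∈ rel)) ∧
      ∀ (l : ℕ) (A : Matrix (Fin l) (Fin l) R), (∀ i j, GradedRing.proj 𝒜 0 (A i j) = 0) →
        IsNilpotent A := by
  exact Crest.Agent.R176.main266

end Crest.Agent.S0266
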