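import Crest.Statements.S0270
import Crest.Agent.R180.Level
import Crest.Agent.R180.Ultra

set_option autoImplicit false
open Crest Crest.AlgebraR

namespace Crest.Agent.S0270

instance : Nonempty Crest.Agent.R180.Tm := ⟨Crest.Agent.R180.Tm.x⟩

/-- There is a countable division ring of characteristic zero that is algebraic over its centre and is generated by two of its elements as an algebra over the centre, yet is infinite-dimensional as a vector space over the centre. -/
theorem result :
    ∃ (D : Type) (_ : DivisionRing D), Countable D ∧ CharZero D ∧
      Algebra.IsAlgebraic (Subring.center D) D ∧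
      (∃ x y : D, Algebra.adjoin (Subring.center D) ({x, y} : Set D) = ⊤) ∧
      ¬ FiniteDimensional (Subring.center D) D := by
  obtain ⟨a, ha⟩ := exists_surjective_nat Crest.Agent.R180.Tm
  exact Crest.Agent.R180.final_of_levels a ha (fun j => 2 ^ (j + 2))
    (Crest.Agent.R180.exists_level a)

end Crest.Agent.S0270
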