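import Crest.Statements.S0271
import Crest.Agent.R181.GMain

set_option autoImplicit false
open Crest.AlgebraR.LPP
open Crest Crest.AlgebraR

namespace Crest.Agent.S0271

/-- Let S be the complex polynomial ring in n ≥ 1 variables of degree one, a a nondecreasing degree sequence with every a i ≥ 2, and I a homogeneous ideal containing a regular sequence f with f i homogeneous of degree a i. Then there are lex segments U d, one per degree, for which the spaces L_d + P_d (L_d spanned by U d, P the pure-powers ideal of a) have the dimensions of the pieces I_d, are the pieces of one ideal J, and β_{p,j}(S/I) ≤ β_{p,j}(S/J) for all p, j (graded Betti numbers). -/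
theorem result (n : ℕ) (hn : 1 ≤ n) (a : Fin n → ℕ)
    (ha : Monotone a) (ha2 : ∀ i, 2 ≤ a i) (I : Ideal (MvPolynomial (Fin n) ℂ))
    (hI : ∀ g ∈ I, ∀ d : ℕ, MvPolynomial.homogeneousComponent d g ∈ I)
    (f : Fin n → MvPolynomial (Fin n) ℂ) (hf : ∀ i, (f i).IsHomogeneous (a i)) (hfI : ∀ i, f i ∈ I)
    (hreg : RingTheory.Sequence.IsRegular (MvPolynomial (Fin n) ℂ) (List.ofFn f)) :
    ∃ U : ℕ → Set (Fin n →₀ ℕ), (∀ d, IsLexSegment n d (U d)) ∧
      (∀ d, Module.finrank ℂ (lppPiece a (U d) d) = Module.finrank ℂ (degreePiece I d)) ∧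
      ∃ J : Ideal (MvPolynomial (Fin n) ℂ), (∀ g ∈ J, ∀ d : ℕ, MvPolynomial.homogeneousComponent d g ∈ J) ∧
        (∀ d, degreePiece J d = lppPiece a (U d) d) ∧
        ∀ p j : ℕ, gradedBetti I p j ≤ gradedBetti J p j := by
  exact Crest.Agent.R181.main_concl a ha ha2 I hI f hf hfI hreg

end Crest.Agent.S0271
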