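import Crest.Statements.S0277
import Crest.Agent.R185.Main
import Crest.Agent.R185.VMain
import Crest.Agent.R185.W4
import Crest.Agent.R185.AFp1
import Crest.Agent.R185.AFp2

set_option autoImplicit false
open Crest Crest.AlgebraR

namespace Crest.Agent.S0277

/-- Let `G` be a group generated by a finite tuple `s` of elements, and suppose the word problem for `s` is decidable: membership in the set of words (lists of pairs of a generator index and an exponent sign) whose product in `G` is the identity is decided by a computable function. Then there are a finitely presented simple group and an injective homomorphism from `G` into it. -/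
theorem result
    (G : Type*) [Group G] (k : ℕ) (s : Fin k → G) (hgen : Subgroup.closure (Set.range s) = ⊤)
    (hdec : ComputablePred fun w : List (Fin k × Bool) => FreeGroup.lift s (FreeGroup.mk w) = 1) :
    ∃ (S : Type) (_ : Group S) (f : G →* S),
      Group.IsFinitelyPresented S ∧ IsSimpleGroup S ∧ Function.Injective f := by
  obtain ⟨E, S, _, _, χ, f, hO, hf⟩ := Crest.Agent.R185.exists_oligo
    (fun _ _ _ => Crest.Agent.R185.cc_two_of_fp) G k s hgen hdec
  obtain ⟨Γ, _, e, hs, hc, he⟩ := Crest.Agent.R185.exists_simple hO
  exact ⟨Γ, inferInstance, e.comp (χ.ker.subtype.comp f), (hc 2).fp, hs,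
    he.comp (χ.ker.subtype_injective.comp hf)⟩

end Crest.Agent.S0277
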