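import Crest.Statements.S0278
import Crest.Agent.R185.Main
import Crest.Agent.R185.VMain
import Crest.Agent.R185.W4
import Crest.Agent.R185.AFp1
import Crest.Agent.R185.AFp2

set_option autoImplicit false
open Crest Crest.AlgebraR

namespace Crest.Agent.S0278

/-- Let `G` be a group generated by a finite tuple `s` of elements whose word problem is decidable (membership in the set of words in the generators and their inverses whose product is the identity is decided by a computable function). Then there are a simple group of type `F∞` — the fundamental group of an aspherical CW complex with finitely many cells in each dimension — and an injective homomorphism from `G` into it. -/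
theorem result
    (G : Type*) [Group G] (k : ℕ) (s : Fin k → G) (hgen : Subgroup.closure (Set.range s) = ⊤)
    (hdec : ComputablePred fun w : List (Fin k × Bool) => FreeGroup.lift s (FreeGroup.mk w) = 1) :
    ∃ (S : Type) (_ : Group S) (f : G →* S),
      IsSimpleGroup S ∧ Crest.Topology.HasFiniteTypeClassifyingComplex S ∧ Function.Injective f := by
  obtain ⟨E, S, _, _, χ, f, hO, hf⟩ := Crest.Agent.R185.exists_oligo
    (fun _ _ _ => Crest.Agent.R185.cc_two_of_fp) G k s hgen hdec
  obtain ⟨Γ, _, e, hs, hc, he⟩ := Crest.Agent.R185.exists_simple hO
  exact ⟨Γ, inferInstance, e.comp (χ.ker.subtype.comp f), hs, hc.realize,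
    he.comp (χ.ker.subtype_injective.comp hf)⟩

end Crest.Agent.S0278
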