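import Crest.Statements.S0283
import Crest.Agent.R186.Top

set_option autoImplicit false
open CategoryTheory
universe u
open Crest Crest.AlgebraR

namespace Crest.Agent.S0283

/-- Over every field extension K of the rational function field in three variables over the field with two elements there is a finite-dimensional K-algebra Γ having, for every n ≥ 1, a finitely generated left module of projective dimension exactly n. -/
theorem result
    (K : Type u) [Field K] [Algebra (FractionRing (MvPolynomial (Fin 3) (ZMod 2))) K] :
    ∃ (Γ : Type u) (_ : Ring Γ) (_ : Algebra K Γ), FiniteDimensional K Γ ∧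
      ∀ n : ℕ, 1 ≤ n → ∃ C : ModuleCat.{u} Γ, Module.Finite Γ C ∧
        projectiveDimension C = (n : WithBot ℕ∞) := by
  exact Crest.Agent.R186.s0283_of (Crest.Agent.R186.gammaEx K)

end Crest.Agent.S0283
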