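import Crest.Statements.S0284
import Crest.Agent.R186.Top

set_option autoImplicit false
open CategoryTheory
universe u
open Crest Crest.AlgebraR

namespace Crest.Agent.S0284

/-- Over every field extension K of the rational function field in three variables over the field with two elements there is a finite-dimensional K-algebra Γ that, as a left module over itself, has an exact coresolution 0 → Γ → I^0 → I^1 → ⋯ in which every I^j is both projective and injective, while Γ has infinite injective dimension. -/
theorem result
    (K : Type u) [Field K] [Algebra (FractionRing (MvPolynomial (Fin 3) (ZMod 2))) K] :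
    ∃ (Γ : Type u) (_ : Ring Γ) (_ : Algebra K Γ), FiniteDimensional K Γ ∧
      (∃ (I : ℕ → ModuleCat.{u} Γ) (ε : Γ →ₗ[Γ] I 0) (d : ∀ j : ℕ, I j →ₗ[Γ] I (j + 1)),
        Function.Injective ε ∧ Function.Exact ε (d 0) ∧ (∀ j, Function.Exact (d j) (d (j + 1))) ∧
        ∀ j, Module.Projective Γ (I j) ∧ Module.Injective Γ (I j)) ∧
      ∀ n : ℕ, ¬ HasInjectiveDimensionLT (ModuleCat.of Γ Γ) n := by
  exact Crest.Agent.R186.s0284_of (Crest.Agent.R186.gammaEx K)

end Crest.Agent.S0284
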