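import Crest.Statements.S0292
import Crest.Agent.R192.Core

set_option autoImplicit false
open Crest.AlgebraR.L1
open Crest Crest.AlgebraR

namespace Crest.Agent.S0292

/-- Let G be a group and e an idempotent q × q matrix over its ℓ¹ algebra (entries absolutely summable complex functions on G, product by entrywise convolution). Then the trace of e along a conjugacy class (the sum over the class of the diagonal values) is nonzero for only finitely many conjugacy classes, and it vanishes on the class of every element of infinite order. -/
theorem result (G : Type) [Group G]
    (q : ℕ) (hq : 1 ≤ q) (e : Fin q → Fin q → G → ℂ) (he : IsL1IdempotentMatrix e) :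
    Set.Finite {C : ConjClasses G | classTrace e C.carrier ≠ 0} ∧
      ∀ g : G, ¬ IsOfFinOrder g → classTrace e (ConjClasses.mk g).carrier = 0 :=
  Crest.Agent.R192.bass G q hq e he

end Crest.Agent.S0292
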