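import Crest.Statements.S0293
import Crest.Agent.R192.Core
import Crest.Agent.R192.Kap

set_option autoImplicit false
open Crest Crest.AlgebraR

namespace Crest.Agent.S0293

/-- Let G be a group in which only the identity has finite order and let R be a commutative domain of characteristic zero. Then every idempotent of the group algebra R[G] (an element e with e * e = e) is 0 or 1. -/
theorem result (G : Type) [Group G]
    (hG : ∀ g : G, IsOfFinOrder g → g = 1) (R : Type) [CommRing R] [IsDomain R] [CharZero R]
    (e : MonoidAlgebra R G) (he : e * e = e) : e = 0 ∨ e = 1 :=
  Crest.Agent.R192.kaplansky_of_bass Crest.Agent.R192.bass G hG R e he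

end Crest.Agent.S0293
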