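import Crest.Statements.S0298
import Crest.Agent.R195.Main

set_option autoImplicit false
open Crest Crest.AlgebraR

namespace Crest.Agent.S0298

/-- For every positive integer n other than 2, 4 and 9, the symmetric group on n letters has an irreducible finite-dimensional complex representation ρ such that every irreducible finite-dimensional complex representation has a nonzero equivariant linear map into the tensor square of ρ (with the diagonal action); that is, the tensor square of ρ contains every irreducible representation. -/
theorem result (n : ℕ) (hn : 0 < n)
    (h2 : n ≠ 2) (h4 : n ≠ 4) (h9 : n ≠ 9) :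
    ∃ (V : Type) (_ : AddCommGroup V) (_ : Module ℂ V) (_ : FiniteDimensional ℂ V)
      (ρ : Representation ℂ (Equiv.Perm (Fin n)) V), Representation.IsIrreducible ρ ∧
      ∀ (W : Type) [AddCommGroup W] [Module ℂ W] [FiniteDimensional ℂ W]
        (σ : Representation ℂ (Equiv.Perm (Fin n)) W), Representation.IsIrreducible σ →
        Nontrivial (Representation.IntertwiningMap σ (Representation.tprod ρ ρ)) := by
  obtain ⟨α, hα⟩ := R195.all_complete n hn h2 h4 h9
  refine ⟨(R195.Spec n α).toSubmodule, inferInstance, inferInstance, R195.spec_finite n α,
    (R195.Spec n α).toRepresentation, R195.spec_irred hα.isPart, ?_⟩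
  intro W _ _ _ σ hσ
  haveI := R195.nontrivial_of_irred σ hσ
  exact R195.link n W σ α α hα _ _ R195.pt_mem_spec R195.pt_mem_spec

end Crest.Agent.S0298
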