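import Crest.Statements.S0329
import Crest.Agent.R211.Ruled

set_option autoImplicit false
open MeasureTheory
open scoped ENNReal
open Crest Crest.GeometryTopology Crest.GeometryTopology.Convex

namespace Crest.Agent.S0329

/-- Let h, M > 0, D ⊂ ℝ² be compact with Lebesgue-null boundary, and V : ℝ² → ℝ² be C¹ on an open set containing D with tr DV(p) = 0 and −1/M² < det DV(p) < 0 for p ∈ D. For every ε > 0 the set of points (x, p₁ + x V₁(p), h (p₂ + x V₂(p))) ∈ ℝ³ with p ∈ D, −M ≤ x ≤ M is covered by finitely many cylinders Bᵢ + ℝ uᵢ, ‖uᵢ‖ = 1, with bases Bᵢ bounded relatively open subsets of the planes uᵢ^⊥ and ∑ᵢ area(Bᵢ) ≤ h ∫_D (1 + V₁² + h² V₂²)^(−1/2) + ε (areas: normalised 2-dimensional Hausdorff measure). -/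
theorem result
    (h M : ℝ) (hh : 0 < h) (hM : 0 < M) (D : Set (EuclideanSpace ℝ (Fin 2))) (hD : IsCompact D)
    (hbd : volume (frontier D) = 0)
    (V : EuclideanSpace ℝ (Fin 2) → EuclideanSpace ℝ (Fin 2)) (U : Set (EuclideanSpace ℝ (Fin 2)))
    (hU : IsOpen U) (hDU : D ⊆ U) (hV : ContDiffOn ℝ 1 V U)
    (htr : ∀ p ∈ D, LinearMap.trace ℝ _ (fderiv ℝ V p).toLinearMap = 0)
    (hdet : ∀ p ∈ D, -(M ^ 2)⁻¹ < LinearMap.det (fderiv ℝ V p).toLinearMap ∧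
      LinearMap.det (fderiv ℝ V p).toLinearMap < 0)
    (ε : ℝ) (hε : 0 < ε) :
    ∃ (k : ℕ) (u : Fin k → EuclideanSpace ℝ (Fin 3)) (B : Fin k → Set (EuclideanSpace ℝ (Fin 3))),
      (∀ i, ‖u i‖ = 1) ∧
      (∀ i, Bornology.IsBounded (B i) ∧ ∃ O : Set (EuclideanSpace ℝ (Fin 3)), IsOpen O ∧
        B i = O ∩ {x | inner ℝ x (u i) = 0}) ∧
      {z : EuclideanSpace ℝ (Fin 3) | ∃ p ∈ D, ∃ x : ℝ, abs x ≤ M ∧
          z = !₂[x, p 0 + x * V p 0, h * (p 1 + x * V p 1)]} ⊆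
        ⋃ i, {z : EuclideanSpace ℝ (Fin 3) | ∃ y ∈ B i, ∃ τ : ℝ, z = y + τ • u i} ∧
      ∑ i, (μHE[2] (B i)).toReal ≤
        h * (∫ p in D, 1 / Real.sqrt (1 + (V p 0) ^ 2 + h ^ 2 * (V p 1) ^ 2)) + ε := by
  exact Crest.Agent.R211.s0329 h M hh hM D hD V U hU hDU hV htr hdet ε hε

end Crest.Agent.S0329
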