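import Crest.Statements.S0335
import Crest.Agent.R216.Main

set_option autoImplicit false
open scoped Manifold ContDiff
open Crest Crest.GeometryTopology

namespace Crest.Agent.S0335

/-- Let M be a compact Hausdorff smooth manifold without boundary modelled on the Euclidean plane (not assumed connected or orientable), and let g be a smooth Riemannian metric on its tangent bundle. Then some smooth map F from M to Euclidean four-space has differential carrying g to the Euclidean inner product at every point: for all tangent vectors v, w at p, the inner product of dF_p v with dF_p w equals g_p(v, w). Positivity of g makes each dF_p injective, so F is an isometric immersion. -/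
theorem result
    (M : Type*) [TopologicalSpace M] [T2Space M] [CompactSpace M]
    [ChartedSpace (EuclideanSpace ℝ (Fin 2)) M] [IsManifold (𝓡 2) ∞ M]
    (g : Bundle.ContMDiffRiemannianMetric (𝓡 2) ∞ (EuclideanSpace ℝ (Fin 2))
      (TangentSpace (𝓡 2) : M → Type)) :
    ∃ F : M → EuclideanSpace ℝ (Fin 4),
      ContMDiff (𝓡 2) 𝓘(ℝ, EuclideanSpace ℝ (Fin 4)) ∞ F ∧
      ∀ (p : M) (v w : TangentSpace (𝓡 2) p),
        @inner ℝ (EuclideanSpace ℝ (Fin 4)) _ (mfderiv (𝓡 2) 𝓘(ℝ, EuclideanSpace ℝ (Fin 4)) F p v)
          (mfderiv (𝓡 2) 𝓘(ℝ, EuclideanSpace ℝ (Fin 4)) F p w) = g.inner p v w := by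
  obtain ⟨A⟩ := Crest.Agent.R216.exists_atl M
  obtain ⟨G, hG, hp, h⟩ := Crest.Agent.R216.exists_ten A g
  obtain ⟨f, hf, he⟩ := Crest.Agent.R216.exists_isometric A hG hp
  exact h f hf he

end Crest.Agent.S0335
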