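import Crest.Statements.S0349
import Crest.Agent.R226.Asm
import Crest.Agent.R226.QM5

set_option autoImplicit false
open MeasureTheory Bundle
open scoped Manifold ContDiff Bundle ENNReal
open Crest.GeometryTopology.MTW
open Crest Crest.GeometryTopology Crest.GeometryTopology.MTW

namespace Crest.Agent.S0349

/-- Convexity of tangent injectivity domains under weak Ma–Trudinger–Wang: let M be a compact connected C^∞ Riemannian n-manifold without boundary, n ≥ 2 (charts into ℝⁿ, smooth inner products on tangent spaces, geodesic distance), whose cost d²/2 satisfies weak MTW (MTW form nonnegative on orthogonal pairs at each (x, v) with v in the injectivity domain of x). Then each tangent injectivity domain I(x), the velocities v whose geodesic still realises the distance a‖v‖ at some a > 1, is convex. -/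
theorem result
    (n : ℕ) (hn : 2 ≤ n) (M : Type*) [MetricSpace M] [ChartedSpace (EuclideanSpace ℝ (Fin n)) M] [IsManifold (𝓡 n) ∞ M]
    [RiemannianBundle (fun p : M => TangentSpace (𝓡 n) p)]
    [IsContMDiffRiemannianBundle (𝓡 n) ∞ (EuclideanSpace ℝ (Fin n)) (fun p : M => TangentSpace (𝓡 n) p)]
    [IsRiemannianManifold (𝓡 n) M] [CompactSpace M] [ConnectedSpace M]
    (hMTW : SatisfiesWeakMTW M n) (x : M) : Convex ℝ (injDomain n x) := by
  obtain ⟨R, hg⟩ := Crest.Agent.R226.G.exists_riem (n := n) (M := M)
  obtain ⟨K, δ, h1⟩ := R.geo1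
  obtain ⟨C, hC, -, h2⟩ := Crest.Agent.R226.G.geo2 hg hMTW h1 le_rfl
  exact Crest.Agent.R226.G.convex_injDomain hg x (Crest.Agent.R226.L.convex_injS h1 h2 hC x)

end Crest.Agent.S0349
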