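import Crest.Statements.S0350
import Crest.Agent.R226.SGeo
import Crest.Agent.R226.SKP
import Crest.Agent.R226.SSum
import Crest.Agent.R226.SFin

set_option autoImplicit false
open MeasureTheory Bundle
open scoped Manifold ContDiff Bundle ENNReal
open Crest.GeometryTopology.MTW
open Crest Crest.GeometryTopology Crest.GeometryTopology.MTW

namespace Crest.Agent.S0350

/-- Uniform bi-Hölder transport under weak MTW: let M be as in the convexity statement (compact connected boundaryless Riemannian, n ≥ 2, weak MTW), vol = n-dimensional Hausdorff measure, 0 < λ ≤ Λ. There are α ∈ (0, 1] and C such that for all measurable densities ρ₀, ρ₁ of mass 1 with λ ≤ ρᵢ ≤ Λ almost everywhere, every optimal map for the cost d²/2 from ρ₀·vol to ρ₁·vol agrees almost everywhere with a homeomorphism T̃ of M with d(T̃x, T̃x') ≤ C d(x, x')^α and d(T̃⁻¹y, T̃⁻¹y') ≤ C d(y, y')^α. -/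
theorem result
    (n : ℕ) (hn : 2 ≤ n) (M : Type*) [MetricSpace M] [ChartedSpace (EuclideanSpace ℝ (Fin n)) M] [IsManifold (𝓡 n) ∞ M]
    [RiemannianBundle (fun p : M => TangentSpace (𝓡 n) p)]
    [IsContMDiffRiemannianBundle (𝓡 n) ∞ (EuclideanSpace ℝ (Fin n)) (fun p : M => TangentSpace (𝓡 n) p)]
    [IsRiemannianManifold (𝓡 n) M] [CompactSpace M] [ConnectedSpace M]
    [MeasurableSpace M] [BorelSpace M]
    (hMTW : SatisfiesWeakMTW M n) (lam Lam : ℝ) (hlam : 0 < lam) (hle : lam ≤ Lam) :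
    ∃ α : ℝ, 0 < α ∧ α ≤ 1 ∧ ∃ C : ℝ, ∀ ρ₀ ρ₁ : M → ℝ, Measurable ρ₀ → Measurable ρ₁ →
      (∀ᵐ x ∂(Measure.hausdorffMeasure (n : ℝ) : Measure M), lam ≤ ρ₀ x ∧ ρ₀ x ≤ Lam ∧ lam ≤ ρ₁ x ∧ ρ₁ x ≤ Lam) →
      (∫⁻ x, ENNReal.ofReal (ρ₀ x) ∂(Measure.hausdorffMeasure (n : ℝ) : Measure M)) = 1 →
      (∫⁻ x, ENNReal.ofReal (ρ₁ x) ∂(Measure.hausdorffMeasure (n : ℝ) : Measure M)) = 1 →
      ∀ T : M → M,
        IsMongeOptimal ((Measure.hausdorffMeasure (n : ℝ)).withDensity fun x => ENNReal.ofReal (ρ₀ x))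
          ((Measure.hausdorffMeasure (n : ℝ)).withDensity fun x => ENNReal.ofReal (ρ₁ x)) T →
        ∃ Th : M ≃ₜ M,
          (∀ᵐ x ∂((Measure.hausdorffMeasure (n : ℝ)).withDensity fun x => ENNReal.ofReal (ρ₀ x)), T x = Th x) ∧
          (∀ x x' : M, dist (Th x) (Th x') ≤ C * dist x x' ^ α) ∧
          (∀ y y' : M, dist (Th.symm y) (Th.symm y') ≤ C * dist y y' ^ α) := by
  obtain ⟨G, hG⟩ := R226.S.exists_ge n M hMTW
  have hκ : 1 ≤ Lam / lam := (one_le_div hlam).2 hle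
  obtain ⟨α, C, hα, hα1, hC⟩ := G.holder_of_gap (G.gapBd_of_kp (G.kp hκ))
  refine ⟨α, hα, hα1, C, fun ρ₀ ρ₁ _ _ h h0 h1 T hT => ?_⟩
  rw [← hG] at h h0 h1 hT ⊢
  refine R226.OT.holder_reduction G.μ (fun Φ Ψ hc => G.ae_contact_unique hc) hα
    (fun _ _ Φ Ψ hc v1 v2 x y x' y' e1 e2 => ?_) ρ₀ ρ₁ h h0 h1 T hT
  obtain ⟨Q, rfl, rfl⟩ := G.exists_pot hlam hle hc v1 v2
  refine hC Q x y x' y' ?_ ?_
  · have : R226.L.cst x y = halfDistSq x y := rfl
    simp only [R226.S.Pot.df, this]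
    linarith
  · have : R226.L.cst x' y' = halfDistSq x' y' := rfl
    simp only [R226.S.Pot.df, this]
    linarith

end Crest.Agent.S0350
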