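import Crest.Statements.S0355
import Crest.Agent.R230.SimpSh

set_option autoImplicit false
open MeasureTheory
open scoped ENNReal
open Crest Crest.GeometryTopology Crest.GeometryTopology.Convex

namespace Crest.Agent.S0355

/-- There is a convex body K in ℝ^20 (compact, convex, with nonempty interior) whose projection body ΠK — the points x with ⟪x, u⟫ ≤ vol₁₉(P_u K) for every unit u, P_u the orthogonal projection on u^⊥ and vol₁₉ the Lebesgue-normalised 19-dimensional Hausdorff measure — has vol(ΠK)/vol(K)^19 exactly equal to c · 22355476/22020096, where c = 21·20^20/20!; in particular vol(ΠK) > c · vol(K)^19. -/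
theorem result :
    ∃ K : Set (EuclideanSpace ℝ (Fin 20)), IsCompact K ∧ Convex ℝ K ∧ (interior K).Nonempty ∧
      (volume (⋂ u ∈ Metric.sphere (0 : EuclideanSpace ℝ (Fin 20)) 1,
            {x : EuclideanSpace ℝ (Fin 20) | inner ℝ x u ≤
              ((μHE[19] : Measure (EuclideanSpace ℝ (Fin 20))) ((fun y => y - inner ℝ y u • u) '' K)).toReal})).toReal /
          (volume K).toReal ^ 19 =
        (21 * 20 ^ 20 / Nat.factorial 20 : ℝ) * (22355476 / 22020096) ∧
      (21 * 20 ^ 20 / Nat.factorial 20 : ℝ) * (volume K).toReal ^ 19 <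
        (volume (⋂ u ∈ Metric.sphere (0 : EuclideanSpace ℝ (Fin 20)) 1,
            {x : EuclideanSpace ℝ (Fin 20) | inner ℝ x u ≤
              ((μHE[19] : Measure (EuclideanSpace ℝ (Fin 20))) ((fun y => y - inner ℝ y u • u) '' K)).toReal})).toReal := by
  let b : Fin 20 → Fin 2 := fun i => ⟨i / 10, by omega⟩
  have hr := R230.ratio_KB b
  have hc : ∀ j, (R230.blk b j).card = 10 := by decide
  have hV : 0 < R230.vol (R230.KB b) := R230.vol_pos (R230.isCompact_BS _ _ _) (R230.interior_KB b)
  simp only [hc, Finset.prod_const, Finset.card_univ, Fintype.card_fin] at hr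
  have e : R230.cc 10 ^ 2 = (21 * 20 ^ 20 / Nat.factorial 20 : ℝ) * (22355476 / 22020096) := by
    norm_num [R230.cc, Nat.factorial]
  refine ⟨R230.KB b, R230.isCompact_BS _ _ _, R230.convex_BS _ _ _, R230.interior_KB b, ?_, ?_⟩
  · exact hr.trans e
  · change _ * R230.vol (R230.KB b) ^ 19 < R230.vol (R230.PiB (R230.KB b))
    rw [← lt_div_iff₀ (by positivity)]
    refine lt_of_lt_of_eq ?_ (hr.trans e).symm
    norm_num [Nat.factorial]

end Crest.Agent.S0355
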