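import Crest.Statements.S0356
import Crest.Agent.R230.Num56

set_option autoImplicit false
open MeasureTheory
open scoped ENNReal
open Crest Crest.GeometryTopology Crest.GeometryTopology.Convex

namespace Crest.Agent.S0356

/-- There are λ > 1 and N ≥ 20 such that for every n ≥ N some full-dimensional convex polytope K ⊂ ℝ^n (convex hull of finitely many points, with nonempty interior) has normalised projection-body volume vol(ΠK)/vol(K)^(n−1) at least λ^n times that of the standard simplex {x : xᵢ ≥ 0, ∑ xᵢ ≤ 1}; here ΠL is the set of x with ⟪x, u⟫ ≤ vol_{n−1}(P_u L) for all unit u, P_u the orthogonal projection on u^⊥ and vol_{n−1} the Lebesgue-normalised (n−1)-dimensional Hausdorff measure. -/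
theorem result :
    ∃ lam : ℝ, 1 < lam ∧ ∃ N : ℕ, 20 ≤ N ∧ ∀ n : ℕ, N ≤ n →
      ∃ S : Finset (EuclideanSpace ℝ (Fin n)),
        (interior (convexHull ℝ (S : Set (EuclideanSpace ℝ (Fin n))))).Nonempty ∧
        lam ^ n *
            ((volume (⋂ u ∈ Metric.sphere (0 : EuclideanSpace ℝ (Fin n)) 1,
          {x : EuclideanSpace ℝ (Fin n) | inner ℝ x u ≤
            ((μHE[n - 1] : Measure (EuclideanSpace ℝ (Fin n))) ((fun y => y - inner ℝ y u • u) '' {x : EuclideanSpace ℝ (Fin n) | (∀ i, 0 ≤ x i) ∧ ∑ i, x i ≤ 1})).toReal})).toReal /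
              (volume {x : EuclideanSpace ℝ (Fin n) | (∀ i, 0 ≤ x i) ∧ ∑ i, x i ≤ 1}).toReal ^ (n - 1)) ≤
          (volume (⋂ u ∈ Metric.sphere (0 : EuclideanSpace ℝ (Fin n)) 1,
          {x : EuclideanSpace ℝ (Fin n) | inner ℝ x u ≤
            ((μHE[n - 1] : Measure (EuclideanSpace ℝ (Fin n))) ((fun y => y - inner ℝ y u • u) '' (convexHull ℝ (S : Set (EuclideanSpace ℝ (Fin n)))))).toReal})).toReal /
            (volume (convexHull ℝ (S : Set (EuclideanSpace ℝ (Fin n))))).toReal ^ (n - 1) := by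
  obtain ⟨lam, hlam, N, hN, h⟩ := R230.exists_lam
  refine ⟨lam, hlam, N, hN, fun n hn => ?_⟩
  have : NeZero n := ⟨by omega⟩
  obtain ⟨q, b, hb⟩ := h n hn
  obtain ⟨S, hS⟩ := R230.exists_hull_KB b
  refine ⟨S, by rw [hS]; exact R230.interior_KB b, ?_⟩
  have e : {x : EuclideanSpace ℝ (Fin n) | (∀ i, 0 ≤ x i) ∧ ∑ i, x i ≤ 1} =
      R230.KB (fun _ : Fin n => ()) := by
    ext x
    simp [R230.KB, R230.BS, R230.blk]
  have h1 := R230.ratio_KB (fun _ : Fin n => ())
  have h2 := R230.ratio_KB b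
  have e2 : ∏ j, R230.cc (R230.blk (fun _ : Fin n => ()) j).card = R230.cc n := by
    simp [R230.blk]
  rw [e, hS]
  rw [e2] at h1
  rw [← h1, ← h2] at hb
  exact hb

end Crest.Agent.S0356
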