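import Crest.Statements.S0365
import Crest.Agent.R236.NotQ
import Crest.Agent.R236.GeoU
import Crest.Agent.R236.Pin
import Crest.Agent.R236.Liou
import Crest.Agent.R236.Jcp

set_option autoImplicit false
open scoped ContDiff
open Crest.GeometryTopology.CoordMetric Crest.GeometryTopology.AffineMaximal
open Crest Crest.GeometryTopology

namespace Crest.Agent.S0365

/-- Let 3 ≤ n ≤ 9, let Ω be a nonempty open convex subset of ℝⁿ, and let u be a C^∞ real function on Ω whose coordinate Hessian is positive definite at every point of Ω and which satisfies the affine maximal equation at every point of Ω. If Ω is complete for the path distance of the graph metric δᵢⱼ + ∂ᵢu ∂ⱼu (infimum of lengths of C¹ curves inside Ω), then Ω is all of ℝⁿ and u is a quadratic polynomial whose quadratic part is positive definite. -/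
theorem result
    (n : ℕ) (hn : 3 ≤ n) (hn' : n ≤ 9)
    (Ω : Set (EuclideanSpace ℝ (Fin n))) (hΩ : IsOpen Ω) (hΩc : Convex ℝ Ω) (hΩn : Ω.Nonempty)
    (u : EuclideanSpace ℝ (Fin n) → ℝ) (hu : ContDiffOn ℝ ∞ u Ω)
    (hconv : ∀ x ∈ Ω, (hessianMat u x).PosDef)
    (hmax : ∀ x ∈ Ω, affineMaximalOp n u x = 0)
    (hcomp : IsCompleteOn (graphMetric u) Ω) :
    Ω = Set.univ ∧
      ∃ (A : Matrix (Fin n) (Fin n) ℝ) (b : EuclideanSpace ℝ (Fin n)) (c : ℝ), A.PosDef ∧
        ∀ x, u x = (1 / 2) * (∑ i, ∑ j, A i j * x i * x j) + (∑ i, b i * x i) + c := by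
  have hAM : R236.AM Ω u := ⟨hΩ, hΩc, hu, hconv, hmax⟩
  have hcl := R236.Geo.epi_closed hΩ hΩc hΩn hu hconv hcomp
  obtain ⟨ε, hε, hε1, noQ⟩ := R236.notQ hn hn' hAM
  obtain ⟨x₀, hx₀⟩ := hΩn
  obtain ⟨hU, ρ, c, hρ, hc, hW, hD⟩ := R236.Geo.geo_u hΩ hΩc hu hconv hcl hε hε1 noQ hx₀
  refine ⟨hU, ?_⟩
  have hcpt := fun h => R236.Geo.isCompact_sublevel hΩ hΩc hu hconv hcl hx₀ h
  subst hU
  have hu' : ContDiff ℝ ∞ u := contDiffOn_univ.1 hu
  have hpos : ∀ x, (hessianMat u x).PosDef := fun x => hconv x (Set.mem_univ x)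
  have hmax' : ∀ x, affineMaximalOp n u x = 0 := fun x => hmax x (Set.mem_univ x)
  have hder : ∀ x, fderiv ℝ (R236.Geo.hgt u x₀) x (x - x₀) =
      fderiv ℝ u x (x - x₀) - fderiv ℝ u x₀ (x - x₀) := fun x => by
    have h1 : HasFDerivAt u (fderiv ℝ u x) x :=
      (hu'.differentiable (by simp) x).hasFDerivAt
    have h2 : HasFDerivAt (fun y => fderiv ℝ u x₀ (y - x₀)) (fderiv ℝ u x₀) x := by
      have := (fderiv ℝ u x₀).hasFDerivAt (x := x - x₀) |>.comp x
        ((hasFDerivAt_id x).sub_const x₀)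
      simpa [Function.comp_def] using this
    have h3 : HasFDerivAt (R236.Geo.hgt u x₀) (fderiv ℝ u x - fderiv ℝ u x₀) x :=
      (h1.sub_const (u x₀)).sub h2
    rw [h3.fderiv]
    rfl
  obtain ⟨M, hM⟩ := R236.pinch u hu' hpos hmax' x₀ (R236.Geo.hgt u x₀) (fun _ => rfl)
    (fun h => ((hcpt h).isBounded).subset fun x hx => ⟨Set.mem_univ x, hx⟩) ρ 2 c 1 hρ hc
    (fun h h1 x y z hx hy hz => by
      have := hW h (by linarith) x y z (by linarith) (by linarith) (by linarith)
      linarith)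
    (fun x _ => by
      have := hD x
      rw [hder]
      unfold R236.Geo.hgt at this ⊢
      linarith)
  obtain ⟨k, hk⟩ := R236.liouville hu' hpos hmax' hρ hc hW hD hM
  exact R236.jcp u hu' hpos k hk

end Crest.Agent.S0365
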