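import Crest.Statements.S0366
import Crest.Agent.R236.EF

set_option autoImplicit false
open scoped ContDiff
open Crest.GeometryTopology.CoordMetric Crest.GeometryTopology.AffineMaximal
open Crest Crest.GeometryTopology

namespace Crest.Agent.S0366

/-- There is a C^∞ real function u on ℝ¹⁰ whose coordinate Hessian is positive definite at every point, which satisfies the affine maximal equation at every point of ℝ¹⁰, and which is not a polynomial of degree at most two. -/
theorem result
    : ∃ u : EuclideanSpace ℝ (Fin 10) → ℝ, ContDiff ℝ ∞ u ∧ (∀ x, (hessianMat u x).PosDef) ∧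
      (∀ x, affineMaximalOp 10 u x = 0) ∧
      ¬ ∃ (A : Matrix (Fin 10) (Fin 10) ℝ) (b : EuclideanSpace ℝ (Fin 10)) (c : ℝ),
        ∀ x, u x = (1 / 2) * (∑ i, ∑ j, A i j * x i * x j) + (∑ i, b i * x i) + c := by
  obtain ⟨p, y, h⟩ := Crest.Agent.R236.Ex.exists_ode
  exact ⟨_, h.uu_sm, h.posDef, h.maximal, Crest.Agent.R236.Ex.not_quad p⟩

end Crest.Agent.S0366
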