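import Crest.Statements.S0367
import Crest.Agent.R237.HMain
import Crest.Agent.R237.ExGap7
import Crest.Agent.R237.ExKer

set_option autoImplicit false
open Crest.GeometryTopology
open Crest Crest.GeometryTopology

namespace Crest.Agent.S0367

/-- There exist a number of variables `m`, a direction `e` and a real polynomial `p` in `m` variables, hyperbolic with respect to `e` (homogeneous, positive at `e`, and with only real roots along every line in direction `e`), whose closed hyperbolicity cone is not a spectrahedral shadow: the cone is not the exact projection of the solution set of any finite real symmetric linear matrix inequality, whatever the matrix size and the number of auxiliary variables. -/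
theorem result :
    ∃ (m : ℕ) (p : MvPolynomial (Fin m) ℝ) (e : Fin m → ℝ),
      Hyperbolic.IsHyperbolic p e ∧
        ¬ Hyperbolic.IsSpectrahedralShadow (Hyperbolic.closedCone p e) := by
  obtain ⟨ex⟩ := R237.Ex.example_of_gap
    (R237.Ex.gap_of_rank7 (by norm_num) _ R237.Ex.W0_pd _ R237.Ex.rankFact_W0)
  exact R237.H.result_of_example ex

end Crest.Agent.S0367
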