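import Crest.Statements.S0368
import Crest.Agent.R237.BRoot
import Crest.Agent.R237.BCore
import Crest.Agent.R237.BLift
import Crest.Agent.R237.BNon

set_option autoImplicit false
open Crest.GeometryTopology
open Crest Crest.GeometryTopology

namespace Crest.Agent.S0368

/-- There are real homogeneous polynomials p, q in 23 variables, of degrees 20 and 16, hyperbolic with respect to one e, with p e = q e = 1 and a common closed hyperbolicity cone K; K is not a spectrahedron (no linear map L into real symmetric N × N matrices, N ≥ 1, has K as the set where L x is positive semidefinite) yet has a lift of explicit size: symmetric 100 × 100 real matrices A ν (ν < 23), B j (j < 307) with x ∈ K exactly when some v makes ∑ x ν • A ν + ∑ v j • B j positive semidefinite. -/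
theorem result :
    ∃ (p q : MvPolynomial (Fin 23) ℝ) (e : Fin 23 → ℝ),
      p.IsHomogeneous 20 ∧ Hyperbolic.IsHyperbolic p e ∧ MvPolynomial.eval e p = 1 ∧
      q.IsHomogeneous 16 ∧ Hyperbolic.IsHyperbolic q e ∧ MvPolynomial.eval e q = 1 ∧
      Hyperbolic.closedCone q e = Hyperbolic.closedCone p e ∧
      (∀ N : ℕ, 1 ≤ N → ∀ L : (Fin 23 → ℝ) →ₗ[ℝ] Matrix (Fin N) (Fin N) ℝ,
        (∀ x, (L x).IsSymm) → Hyperbolic.closedCone p e ≠ {x | (L x).PosSemidef}) ∧
      ∃ (A : Fin 23 → Matrix (Fin 100) (Fin 100) ℝ) (B : Fin 307 → Matrix (Fin 100) (Fin 100) ℝ),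
        (∀ ν, (A ν).IsSymm) ∧ (∀ j, (B j).IsSymm) ∧
        Hyperbolic.closedCone p e =
          {x | ∃ v : Fin 307 → ℝ, (∑ ν, x ν • A ν + ∑ j, v j • B j).PosSemidef} := by
  obtain ⟨δ, h0, hc⟩ := R237.B.exists_core
  have hδ := hc.pos h0
  refine ⟨R237.B.dd * R237.B.qq δ, R237.B.qq δ, R237.B.ee, R237.B.dd_hom.mul (R237.B.qq_hom δ), R237.B.hyp_p hδ,
    by rw [map_mul, R237.B.eval_dd, R237.B.eval_qq, mul_one], R237.B.qq_hom δ, R237.B.hyp_q hδ, R237.B.eval_qq δ,
    (R237.B.cone_q hδ).trans (R237.B.cone_p hδ).symm, fun N _ L hL => ?_, ?_⟩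
  · rw [R237.B.cone_p hδ]
    exact R237.B.nonspec hδ L hL
  · rw [R237.B.cone_p hδ]
    exact R237.B.lift hδ (hc.half h0)

end Crest.Agent.S0368
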