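import Crest.Statements.S0369
import Crest.Agent.R238.AnMain
import Crest.Agent.R238.Inst
import Crest.Agent.R238.Red

set_option autoImplicit false
open MeasureTheory
open Crest Crest.GeometryTopology Crest.GeometryTopology.Convex

namespace Crest.Agent.S0369

/-- Let `n ≥ 1` and let `K`, `L` be convex bodies in Euclidean `n`-space (compact, convex, with nonempty interior) that are closed under `x ↦ -x`. For `0 ≤ t ≤ 1`, the set of points `x` satisfying `⟪x, u⟫ ≤ h_K(u)^(1-t) · h_L(u)^t` for every unit vector `u`, where `h_K(u)` is the supremum of `⟪y, u⟫` over `y ∈ K`, has volume at least `vol(K)^(1-t) · vol(L)^t`. -/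
theorem result (n : ℕ) (hn : 1 ≤ n)
    (K L : Set (EuclideanSpace ℝ (Fin n)))
    (hKc : IsCompact K) (hKv : Convex ℝ K) (hKi : (interior K).Nonempty) (hKs : ∀ x ∈ K, -x ∈ K)
    (hLc : IsCompact L) (hLv : Convex ℝ L) (hLi : (interior L).Nonempty) (hLs : ∀ x ∈ L, -x ∈ L)
    (t : ℝ) (ht0 : 0 ≤ t) (ht1 : t ≤ 1) :
    volume K ^ (1 - t) * volume L ^ t ≤
      volume (⋂ u ∈ Metric.sphere (0 : EuclideanSpace ℝ (Fin n)) 1,
        {x : EuclideanSpace ℝ (Fin n) | inner ℝ x u ≤
          sSup ((fun y => inner ℝ y u) '' K) ^ (1 - t) * sSup ((fun y => inner ℝ y u) '' L) ^ t}) :=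
  Crest.Agent.R238.red hn (Crest.Agent.R238.var4 (Crest.Agent.R238.An.ai n)) K L hKc hKv hKi hKs hLc hLv hLi hLs
    t ht0 ht1

end Crest.Agent.S0369
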