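import Crest.Statements.S0375
import Crest.Agent.R242.Main

set_option autoImplicit false
open Crest.GeometryTopology.SyntheticRicci
open Crest Crest.GeometryTopology

namespace Crest.Agent.S0375

/-- Let X be a complete separable metric space with a Borel measure m charging every non-empty open set, finite on balls, and satisfying the Riemannian curvature-dimension condition RCD(K,N), 1 < N (τ-coefficients, not the reduced variant; quadratic Cheeger energy). If F is bounded Lipschitz, G bounded continuous, and the weak Hessian of F is at most G times the metric, then along every constant-speed minimizing geodesic σ on [0,1], (F ∘ σ)'' ≤ dist(σ 0, σ 1)² (G ∘ σ) in distributions on (0,1). -/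
theorem result
    (X : Type*) [MetricSpace X] [CompleteSpace X] [TopologicalSpace.SeparableSpace X]
    [MeasurableSpace X] [BorelSpace X] (m : MeasureTheory.Measure X)
    [MeasureTheory.Measure.IsOpenPosMeasure m] (hfin : IsFiniteOnBalls m)
    (K N : ℝ) (hN : 1 < N) (hRCD : IsRCD m K N)
    (F G : X → ℝ) (hFb : ∃ B : ℝ, ∀ x, |F x| ≤ B) (hFl : ∃ L : NNReal, LipschitzWith L F)
    (hGb : ∃ B : ℝ, ∀ x, |G x| ≤ B) (hGc : Continuous G)
    (hH : HasWeakHessLe m F G) (γ : UCurve X) (hγ : IsCSGeodesic γ) :
    SecondDerivAlongLe F G γ := by
  exact Crest.Agent.R242.main242 hfin hN hRCD hFb hFl hGb hGc hH γ hγ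

end Crest.Agent.S0375
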