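import Crest.Statements.S0378
import Crest.Agent.R245.Main

set_option autoImplicit false
open Crest Crest.GeometryTopology

namespace Crest.Agent.S0378

/-- There are an open connected contractible U ⊆ ℂ³ (as Fin 3 → ℂ), a smooth positive definite Hermitian metric on U (HermitianMetricOn) that is Kähler and complete for its induced distance, and constants 0 < A ≤ B with every sectional curvature of the underlying Riemannian metric, at each point of U and each real two-plane, in [-B, -A]; and every map ℂ³ → ℂ³ that is complex differentiable on U with bounded image of U has a point of U where the determinant of its complex derivative vanishes. -/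
theorem result :
    ∃ U : Set (Fin 3 → ℂ), IsOpen U ∧ IsConnected U ∧ ContractibleSpace U ∧
      ∃ g : Crest.GeometryTopology.HermitianMetricOn 3 U, g.IsKahler ∧ g.IsComplete ∧
        (∃ A B : ℝ, 0 < A ∧ A ≤ B ∧ ∀ p ∈ U, ∀ X Y : (Fin 3 → ℂ),
          g.riem p X X * g.riem p Y Y - g.riem p X Y ^ 2 ≠ 0 →
            -B ≤ g.sectional p X Y ∧ g.sectional p X Y ≤ -A) ∧
        ∀ F : (Fin 3 → ℂ) → (Fin 3 → ℂ), DifferentiableOn ℂ F U → Bornology.IsBounded (F '' U) →
          ∃ p ∈ U, (fderiv ℂ F p).det = 0 := by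
  obtain ⟨e0, he0, H⟩ := Crest.Agent.R245.main
  obtain ⟨U, hU, ⟨Θ, Ψ, d1, d2, d3, d4⟩, g, g1, g2, g3, g4, -, g5, -⟩ := H e0 he0.le le_rfl
  obtain ⟨c1, c2, -⟩ := Crest.Agent.R245.of_diffeo d1 d2 d3 d4
  obtain ⟨B, hB⟩ := g4 he0
  exact ⟨U, hU, c1, c2, g, g1, g2, ⟨1, max 1 B, one_pos, le_max_left _ _, fun p hp X Y h =>
    ⟨(neg_le_neg (le_max_right _ _)).trans (hB p hp X Y h), g3 p hp X Y h⟩⟩, g5⟩

end Crest.Agent.S0378
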