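import Crest.Statements.S0382
import Crest.Agent.R248.Contr
import Crest.Agent.R248.Ops
import Crest.Agent.R248.Main

set_option autoImplicit false
open CategoryTheory CategoryTheory.Limits Crest.GeometryTopology.Coherator
universe u
open Crest Crest.GeometryTopology

namespace Crest.Agent.S0382

/-- For every Grothendieck coherator C (a globular theory with a tower of free filler extensions in which every admissible pair, in the height-at-most-n+1 convention, has a filler), every choice e of unit operations, every cellular C-model X, every n and every map a from the n-disk to X: if a, the source-face map of disks, i : X ⟶ Y and b form a pushout square of models, then i is bijective on path components and on homotopy classes of loops at the iterated e-units of each 0-cell of X. -/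
theorem result
    (C : GlobTheory.{u}) (hC : C.IsCoheratorTheory) (e : C.UnitChoice)
    (X : C.GlobModel) (hX : X.IsCellularModel) (n : ℕ)
    (a : GlobTheory.GlobModel.diskModel C n ⟶ X)
    (Y : C.GlobModel) (i : X ⟶ Y) (b : GlobTheory.GlobModel.diskModel C (n + 1) ⟶ Y)
    (sq : IsPushout a (GlobTheory.GlobModel.sourceIncl C n) i b) :
    GlobTheory.GlobModel.IsWeakEquiv e i := by
  obtain ⟨𝒪, hT⟩ := R248.exists_ops hC
  obtain ⟨P⟩ := R248.exists_pathM hC 𝒪 hT
  exact R248.main_of_pathM P e X hX n a Y i b sq

end Crest.Agent.S0382
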