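import Crest.Statements.S0388
import Crest.Agent.R251.Main

set_option autoImplicit false
open Crest.GeometryTopology.DeckCochains
open Crest Crest.GeometryTopology

namespace Crest.Agent.S0388

/-- Some finite connected Hausdorff CW complex X with no cells above dimension three has a surjective covering map p from a simply connected space E with zero integral homology above degree two, such that for each abelian group M on which the deck group of p acts additively every equivariant M-valued 3-cocycle on E is the coboundary of an equivariant 2-cochain, the deck group is infinite, and X is not homotopy equivalent to a finite Hausdorff CW complex with no cells above dimension two. -/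
theorem result :
    ∃ (X : Type) (_ : TopologicalSpace X) (_ : T2Space X) (_ : ConnectedSpace X)
      (_ : Topology.CWComplex (Set.univ : Set X)),
      Topology.RelCWComplex.Finite (Set.univ : Set X) ∧
      (∀ m : ℕ, 3 < m → IsEmpty (Topology.RelCWComplex.cell (Set.univ : Set X) m)) ∧
      (∃ (E : Type) (_ : TopologicalSpace E) (p : E → X),
        IsCoveringMap p ∧ Function.Surjective p ∧ SimplyConnectedSpace E ∧
        (∀ i : ℕ, 2 < i → CategoryTheory.Limits.IsZero
          (((AlgebraicTopology.singularHomologyFunctor (ModuleCat.{0} ℤ) i).obj
            (ModuleCat.of ℤ ℤ)).obj (TopCat.of E))) ∧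
        (∀ (M : Type) [AddCommGroup M] [DistribMulAction (deckGroup p) M],
          DeckCohomologyVanishes p M 2) ∧
        Infinite (deckGroup p)) ∧
      ∀ (Y : Type) (_ : TopologicalSpace Y) (_ : T2Space Y)
        (_ : Topology.CWComplex (Set.univ : Set Y)),
        Topology.RelCWComplex.Finite (Set.univ : Set Y) →
        (∀ m : ℕ, 2 < m → IsEmpty (Topology.RelCWComplex.cell (Set.univ : Set Y) m)) →
        IsEmpty (ContinuousMap.HomotopyEquiv X Y) := by
  exact Crest.Agent.R251.main

end Crest.Agent.S0388
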