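import Crest.Statements.S0409
import Crest.Agent.R268.GDefs

set_option autoImplicit false
open Crest Crest.AlgGeometry

namespace Crest.Agent.S0409

open MvPolynomial Crest.Agent.R268 Crest.Agent.R268.G

/-- the polynomial -/
noncomputable def FF : MvPolynomial (Fin 4) ℂ := GG (X 0) (X 1) (X 2) (X 3) - 1

noncomputable def iota : MvPolynomial (Fin 4) ℂ →ₐ[ℂ] MvPolynomial (Fin 3) ℂ :=
  aeval ![hI 1 1 (X 0) (X 1), uI 1 1 (X 0) (X 1) (X 2), vI 1 1 (X 0) (X 1) (X 2),
    wI 1 1 (X 0) (X 1) (X 2)]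

theorem hI_ne : hI (1 : MvPolynomial (Fin 3) ℂ) 1 (X 0) (X 1) ≠ 0 := by
  intro h
  have := congrArg (eval (fun _ => (0 : ℂ))) h
  rw [map_hI] at this
  simp [hI, qF, xI, yI, sI] at this

theorem iota_F : iota FF = 0 := by
  rw [FF, map_sub, map_GG, map_one]
  simp only [iota, aeval_X, Matrix.cons_val_zero, Matrix.cons_val_one, Matrix.cons_val]
  rw [back_G (one_mul 1) _ _ _ hI_ne, sub_self]

noncomputable def fwd : (MvPolynomial (Fin 4) ℂ ⧸ Ideal.span {FF}) →ₐ[ℂ] MvPolynomial (Fin 3) ℂ :=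
  Ideal.Quotient.liftₐ _ iota (fun a ha => by
    obtain ⟨b, rfl⟩ := Ideal.mem_span_singleton'.1 ha
    rw [map_mul, iota_F, mul_zero])

noncomputable def bwd : MvPolynomial (Fin 3) ℂ →ₐ[ℂ] (MvPolynomial (Fin 4) ℂ ⧸ Ideal.span {FF}) :=
  aeval ![Ideal.Quotient.mk _ (XX (X 0) (X 1) (X 2) (X 3)),
    Ideal.Quotient.mk _ (YY (X 0) (X 1) (X 2) (X 3)),
    Ideal.Quotient.mk _ (TT (X 0) (X 1) (X 2) (X 3))]

theorem fwd_mk (a : MvPolynomial (Fin 4) ℂ) : fwd (Ideal.Quotient.mk _ a) = iota a := rfl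

theorem fwd_bwd : fwd.comp bwd = AlgHom.id ℂ _ := by
  apply MvPolynomial.algHom_ext
  intro i
  fin_cases i
  · simp only [AlgHom.comp_apply, bwd, aeval_X, AlgHom.id_apply, Fin.zero_eta,
      Matrix.cons_val_zero, fwd_mk, map_XX]
    simp only [iota, aeval_X, Matrix.cons_val_zero, Matrix.cons_val_one, Matrix.cons_val]
    exact back_X (one_mul 1) _ _ _ hI_ne
  · simp only [AlgHom.comp_apply, bwd, aeval_X, AlgHom.id_apply, Fin.mk_one,
      Matrix.cons_val_zero, Matrix.cons_val_one, fwd_mk, map_YY]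
    simp only [iota, aeval_X, Matrix.cons_val_zero, Matrix.cons_val_one, Matrix.cons_val]
    exact back_Y (one_mul 1) _ _ _ hI_ne
  · simp only [AlgHom.comp_apply, bwd, aeval_X, AlgHom.id_apply, Fin.reduceFinMk,
      Matrix.cons_val, fwd_mk, map_TT]
    simp only [iota, aeval_X, Matrix.cons_val_zero, Matrix.cons_val_one, Matrix.cons_val]
    exact back_T (one_mul 1) _ _ _ hI_ne

theorem mk_G : Ideal.Quotient.mk (Ideal.span {FF}) (GG (X 0) (X 1) (X 2) (X 3)) = 1 := by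
  rw [← map_one (Ideal.Quotient.mk (Ideal.span {FF})), Ideal.Quotient.eq]
  exact Ideal.mem_span_singleton_self _

theorem bwd_fwd : bwd.comp fwd = AlgHom.id ℂ _ := by
  apply Ideal.Quotient.algHom_ext
  apply MvPolynomial.algHom_ext
  obtain ⟨h1, h2, h3, h4⟩ := forth_all (Ideal.Quotient.mk (Ideal.span {FF}))
    (X_ne_zero (0 : Fin 4)) (X 1) (X 2) (X 3) (gi := 1) (by rw [mk_G, one_mul])
  rw [mk_G] at h1 h2 h3 h4
  intro i
  fin_cases i
  · simp only [AlgHom.comp_apply, Ideal.Quotient.mkₐ_eq_mk, fwd_mk, AlgHom.id_apply, iota, aeval_X,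
      Fin.zero_eta, Matrix.cons_val_zero, map_hI, map_one]
    simp only [bwd, aeval_X, Matrix.cons_val_zero, Matrix.cons_val_one, Matrix.cons_val]
    exact h1
  · simp only [AlgHom.comp_apply, Ideal.Quotient.mkₐ_eq_mk, fwd_mk, AlgHom.id_apply, iota, aeval_X,
      Fin.mk_one, Matrix.cons_val_zero, Matrix.cons_val_one, map_uI, map_one]
    simp only [bwd, aeval_X, Matrix.cons_val_zero, Matrix.cons_val_one, Matrix.cons_val]
    exact h2
  · simp only [AlgHom.comp_apply, Ideal.Quotient.mkₐ_eq_mk, fwd_mk, AlgHom.id_apply, iota, aeval_X,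
      Fin.reduceFinMk, Matrix.cons_val, map_vI, map_one]
    simp only [bwd, aeval_X, Matrix.cons_val_zero, Matrix.cons_val_one, Matrix.cons_val]
    exact h3
  · simp only [AlgHom.comp_apply, Ideal.Quotient.mkₐ_eq_mk, fwd_mk, AlgHom.id_apply, iota, aeval_X,
      Fin.reduceFinMk, Matrix.cons_val, map_wI, map_one]
    simp only [bwd, aeval_X, Matrix.cons_val_zero, Matrix.cons_val_one, Matrix.cons_val]
    exact h4

theorem crit_F (i : Fin 4) :
    MvPolynomial.eval (![2, 0, -1 / 2, 1 / 2] : Fin 4 → ℂ) (MvPolynomial.pderiv i FF) = 0 := by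
  rw [FF, map_sub, pderiv_one, sub_zero]
  exact (crit (pderiv i) (eval (![2, 0, -1 / 2, 1 / 2] : Fin 4 → ℂ)) (by simp) (by simp) (by simp)
    (by simp)).2

/-- There is a polynomial F in four variables over the complex numbers with all of the following properties: the quotient of ℂ[x₀,x₁,x₂,x₃] by the ideal generated by F is isomorphic as a ℂ-algebra to a polynomial ring in three variables; all four partial derivatives of F vanish at some point of ℂ⁴; and no ℂ-algebra automorphism of ℂ[x₀,x₁,x₂,x₃] sends F to x₀. -/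
theorem result :
    ∃ F : MvPolynomial (Fin 4) ℂ,
      Nonempty ((MvPolynomial (Fin 4) ℂ ⧸ Ideal.span {F}) ≃ₐ[ℂ] MvPolynomial (Fin 3) ℂ) ∧
      (∃ p : Fin 4 → ℂ, ∀ i : Fin 4, MvPolynomial.eval p (MvPolynomial.pderiv i F) = 0) ∧
      ¬ ∃ τ : MvPolynomial (Fin 4) ℂ ≃ₐ[ℂ] MvPolynomial (Fin 4) ℂ, τ F = MvPolynomial.X 0 := by
  exact ⟨FF, ⟨AlgEquiv.ofAlgHom fwd bwd fwd_bwd bwd_fwd⟩, ⟨_, crit_F⟩,
    not_coord_of_crit FF _ crit_F 0⟩

end Crest.Agent.S0409
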