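import Crest.Statements.S0410
import Crest.Agent.R268.Commuting

set_option autoImplicit false
open Crest Crest.AlgGeometry

namespace Crest.Agent.S0410

open Crest.Agent.R268 Crest.Agent.R268.G

/-- There is a polynomial F over ℂ in the variables x₀,…,x₃ such that, for every m, the ring A = ℂ[x₀,…,x₃₊ₘ] has a family of 3 + m derivations over ℂ, ending with the partial derivatives in x₄,…,x₃₊ₘ, such that: any two members commute; each member kills every element of A after some number of iterations; the family is linearly independent over A; the elements killed by all members form exactly the ℂ-subalgebra generated by F; and no such element is sent to x₀ by a ℂ-algebra automorphism of A. -/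
theorem result :
    ∃ F : MvPolynomial (Fin 4) ℂ, ∀ m : ℕ,
      ∃ D : Fin 3 ⊕ Fin m →
          Derivation ℂ (MvPolynomial (Fin (4 + m)) ℂ) (MvPolynomial (Fin (4 + m)) ℂ),
        (∀ i : Fin m, D (Sum.inr i) = MvPolynomial.pderiv (Fin.natAdd 4 i)) ∧
        (∀ a b : Fin 3 ⊕ Fin m, ∀ p : MvPolynomial (Fin (4 + m)) ℂ, D a (D b p) = D b (D a p)) ∧
        (∀ a : Fin 3 ⊕ Fin m, ∀ p : MvPolynomial (Fin (4 + m)) ℂ, ∃ k : ℕ, (D a)^[k] p = 0) ∧
        LinearIndependent (MvPolynomial (Fin (4 + m)) ℂ) D ∧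
        (∀ p : MvPolynomial (Fin (4 + m)) ℂ, (∀ a : Fin 3 ⊕ Fin m, D a p = 0) ↔
          p ∈ Algebra.adjoin ℂ {MvPolynomial.rename (Fin.castAdd m) F}) ∧
        ∀ g : MvPolynomial (Fin (4 + m)) ℂ, (∀ a : Fin 3 ⊕ Fin m, D a g = 0) →
          ¬ ∃ τ : MvPolynomial (Fin (4 + m)) ℂ ≃ₐ[ℂ] MvPolynomial (Fin (4 + m)) ℂ,
            τ g = MvPolynomial.X (Fin.castAdd m 0) := by
  refine ⟨GG (MvPolynomial.X 0) (MvPolynomial.X 1) (MvPolynomial.X 2) (MvPolynomial.X 3),
    fun m => ?_⟩
  choose N D hD using fun i : Fin 3 => exists_der m (Sum.inl i)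
  have hG : MvPolynomial.rename (Fin.castAdd m)
      (GG (MvPolynomial.X 0) (MvPolynomial.X 1) (MvPolynomial.X 2) (MvPolynomial.X 3) :
        MvPolynomial (Fin 4) ℂ) = GA m := by
    rw [map_GG]; simp [GA, xv]
  rw [hG]
  refine ⟨Sum.elim D (fun i => MvPolynomial.pderiv (Fin.natAdd 4 i)), fun i => rfl, ?_⟩
  refine main m _ (Sum.elim N (fun _ => 0)) ?_
  rintro (j | j) p
  · exact hD j p
  · exact iota_pderiv m j p

end Crest.Agent.S0410
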