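import Crest.Statements.S0421
import Crest.Agent.R278.Core
import Crest.Agent.R278.Sing

set_option autoImplicit false
open Crest Crest.AlgGeometry

namespace Crest.Agent.S0421

/-- There is a finitely generated commutative algebra A over the complex numbers that is an integrally closed domain of Krull dimension two, whose module of ℂ-derivations from A to itself is free of rank two (isomorphic as an A-module to A²), and which has a maximal ideal at which the localization of A is not a regular local ring. -/
theorem result :
    ∃ (A : Type) (_ : CommRing A) (_ : Algebra ℂ A),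
      IsDomain A ∧ Algebra.FiniteType ℂ A ∧ IsIntegrallyClosed A ∧
      ringKrullDim A = 2 ∧
      Nonempty (Derivation ℂ A A ≃ₗ[A] (Fin 2 → A)) ∧
      ∃ (m : Ideal A) (_ : m.IsMaximal), ¬ IsRegularLocalRing (Localization.AtPrime m) := by
  obtain ⟨L, _, _, x, t, α, r, V, hM⟩ := Crest.Agent.R278.exists_model
  obtain ⟨v, s₁, s₂, z, D₁, D₂, hc, hs, ha, h1, hz, hD₁, hD₂, hfrac, hne, hV, hsing⟩ :=
    Crest.Agent.R278.of_model hM
  exact Crest.Agent.R278.core (Crest.Agent.R278.genSet_finite v s₁ s₂ z) hfrac hM.tr D₁ D₂ hne
    (Crest.Agent.R278.hreg_main hc hs ha h1 hz hD₁ hD₂) ⟨V, hV, hsing⟩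

end Crest.Agent.S0421
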