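import Crest.Statements.S0423
import Crest.Agent.R280.Final

set_option autoImplicit false
open Crest Crest.AlgGeometry

namespace Crest.Agent.S0423

/-- For independent mean-one exponential random variables `X_1, …, X_N` (written as an integral over the positive orthant against the density `exp (-(x_1 + ⋯ + x_N))`), real coefficients `a_1, …, a_N` summing to zero, and the weight `g = truncExpWeight`, the quantity `(e^{4/3} / (4/3)) · E[g(4/3 + a_1 X_1 + ⋯ + a_N X_N)]` has supremum over all `N ≥ 1` and all such `a` exactly `(3/4) e^{4/3} − e/3`: it never exceeds this value, and comes within any `ε > 0` of it for some `N` and `a`. -/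
theorem result :
    (∀ (N : ℕ) (a : Fin N → ℝ), 1 ≤ N → ∑ i, a i = 0 →
      Real.exp (4 / 3) / (4 / 3) *
          ∫ x in Set.pi Set.univ (fun _ : Fin N => Set.Ioi (0 : ℝ)),
            Crest.AlgGeometry.truncExpWeight (4 / 3 + ∑ i, a i * x i) * Real.exp (-∑ i, x i)
        ≤ 3 / 4 * Real.exp (4 / 3) - Real.exp 1 / 3) ∧
    (∀ ε : ℝ, 0 < ε → ∃ (N : ℕ) (a : Fin N → ℝ), 1 ≤ N ∧ ∑ i, a i = 0 ∧
      3 / 4 * Real.exp (4 / 3) - Real.exp 1 / 3 - ε <
        Real.exp (4 / 3) / (4 / 3) *
          ∫ x in Set.pi Set.univ (fun _ : Fin N => Set.Ioi (0 : ℝ)),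
            Crest.AlgGeometry.truncExpWeight (4 / 3 + ∑ i, a i * x i) * Real.exp (-∑ i, x i)) := by
  have hK : 0 < Real.exp (4 / 3) / (4 / 3) := by positivity
  constructor
  · intro N a _ ha
    rw [Crest.Agent.R280.orthant_eq N
      (fun x => Crest.AlgGeometry.truncExpWeight (4 / 3 + ∑ i, a i * x i)),
      ← Crest.Agent.R280.const_eq]
    exact mul_le_mul_of_nonneg_left (Crest.Agent.R280.upper N a ha) hK.le
  · intro ε hε
    obtain ⟨n, hn, h⟩ := Crest.Agent.R280.exists_n (div_pos hε hK)
    have hn' : (0 : ℝ) < n := Nat.cast_pos.2 hn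
    refine ⟨n + 1, Fin.cons 2 (fun _ : Fin n => -(2 / (n : ℝ))), by omega, ?_, ?_⟩
    · simp only [Fin.sum_univ_succ, Fin.cons_zero, Fin.cons_succ, Finset.sum_const,
        Finset.card_univ, Fintype.card_fin, nsmul_eq_mul]
      field_simp
      ring
    · rw [Crest.Agent.R280.orthant_eq (n + 1)
        (fun x => Crest.AlgGeometry.truncExpWeight (4 / 3 + ∑ i,
          (Fin.cons 2 (fun _ : Fin n => -(2 / (n : ℝ))) : Fin (n + 1) → ℝ) i * x i)),
        ← Crest.Agent.R280.const_eq]
      have hl := Crest.Agent.R280.lower n hn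
      have e : Real.exp (4 / 3) / (4 / 3) * (1 - Crest.Agent.R280.cstar) - ε =
          Real.exp (4 / 3) / (4 / 3) *
            (1 - (Crest.Agent.R280.cstar + ε / (Real.exp (4 / 3) / (4 / 3)))) := by
        field_simp
        ring
      rw [e]
      exact mul_lt_mul_of_pos_left (by linarith) hK

end Crest.Agent.S0423
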