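import Crest.Statements.S0430
import Crest.Agent.R285.Main

set_option autoImplicit false
open Crest Crest.LogicCS

namespace Crest.Agent.S0430

/-- For every ε > 0 there is a constant C such that in every dimension d ≥ 2 some measurable randomized adaptive algorithm making at most C · d^ε exact value-and-gradient queries, with unrestricted computation between queries, outputs, for every twice continuously differentiable potential V on ℝ^d with V(0) = 0, ∇V(0) = 0 and second derivative between the identity and twice the identity everywhere, a point whose law is within total variation 1/10 of the law with density proportional to exp(−V). -/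
theorem result :
    ∀ ε : ℝ, 0 < ε → ∃ C : ℝ, ∀ d : ℕ, 2 ≤ d →
      ∃ (q : ℕ) (A : Crest.OracleSampling.QueryAlg d q), (q : ℝ) ≤ C * (d : ℝ) ^ ε ∧
        ∀ V : Crest.OracleSampling.E d → ℝ, Crest.OracleSampling.Admissible d V →
          Crest.OracleSampling.Succeeds A V := by
  exact Crest.Agent.R285.main

end Crest.Agent.S0430
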