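import Crest.Statements.S0432
import Crest.Agent.R287.PT2

set_option autoImplicit false
open Crest.Enc
open Crest Crest.LogicCS

namespace Crest.Agent.S0432

/-- Strings are finite lists of natural-number symbols; a family of strings is coded by the number of its members followed by the self-delimiting codes of the members. There is a polynomial-time map on bit strings sending the code of every finite family to the code of a string that contains each member as a contiguous substring and is at most twice as long as any string with that property. -/
theorem result :
    ∃ f : List Bool → List Bool, Crest.Complexity.PolyTime f ∧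
      ∀ S : List (List ℕ), ∃ T : List ℕ,
        f (natCode S.length ++ (S.map listCode).flatten) = listCode T ∧
        (∀ s ∈ S, s <:+: T) ∧
        ∀ T' : List ℕ, (∀ s ∈ S, s <:+: T') → T.length ≤ 2 * T'.length := by
  refine ⟨fun x => listCode (R287.scs (Lib.PT.parseList (Lib.PT.parseList Lib.PT.parseNat) x).1),
    Lib.PT.PT.polyTime (Lib.PT.PT.listCode (R287.scs_pt.comp ?_)), fun S => ⟨R287.scs S, ?_,
      R287.scs_spec S⟩⟩
  · refine (Lib.PT.PT.parseList (p := fun _ => Lib.PT.parseList Lib.PT.parseNat) ?_
      (fun _ => Lib.PT.shrinks_parseNat.parseList) Lib.PT.PT.id).fst
    exact Lib.PT.PT.parseList (p := fun _ => Lib.PT.parseNat) (by fun_prop)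
      (fun _ => Lib.PT.shrinks_parseNat) (by fun_prop)
  · have := Lib.PT.parseList_flatten (p := Lib.PT.parseList Lib.PT.parseNat) (code := listCode)
      (val := id) S (fun x _ => Lib.PT.parseList_listCode x)
      (fun x _ => Lib.PT.listCode_ne_nil x) []
    simp only [List.append_nil, List.map_id] at this
    simp only [this]

end Crest.Agent.S0432
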