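import Crest.Statements.S0433
import Crest.Agent.R288.Fin
import Crest.Agent.R288.Phase

set_option autoImplicit false
open Crest.GraphRAM
open Crest Crest.LogicCS

namespace Crest.Agent.S0433

/-- One randomized unit-cost word-RAM program approximates unit-cost edit distance: for every exponent a and rational 0 < ε < 1, on ALL pairs of strings (total length N, symbols below (N+2)^a) followed by ε one bit per word — L input words, word length (a+3)·⌈log₂(L+2)⌉, the whole input addressable — the output D has ED ≤ D ≤ (1+ε)·ED with probability ≥ 2/3 and equal strings yield 0 on every run; for each δ > 0 the expected time is ≤ N^(1+δ) for all large N (threshold may depend on a, ε, δ). -/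
theorem result :
    ∃ P : Crest.WordRAM.Program, ∀ (a : ℕ) (ε : ℚ), 0 < ε → ε < 1 →
      (∀ x y : List ℕ, (∀ s ∈ x ++ y, s < (x.length + y.length + 2) ^ a) →
        2 / 3 ≤ Crest.WordRAM.probHaltsWith P ((a + 3) * Nat.clog 2 ((stringsInput x y ++ ratWords ε).length + 2))
            (stringsInput x y ++ ratWords ε)
            (fun out => ∃ D : ℕ, out = [D] ∧ editDist x y ≤ D ∧
              (D : ℝ) ≤ (1 + (ε : ℝ)) * editDist x y)) ∧
      (∀ x y : List ℕ, (∀ s ∈ x ++ y, s < (x.length + y.length + 2) ^ a) → x = y →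
        ∀ ρ : ℕ → ℕ, ∃ T : ℕ, Crest.WordRAM.HaltsWithin P
            ((a + 3) * Nat.clog 2 ((stringsInput x y ++ ratWords ε).length + 2)) ρ
            (stringsInput x y ++ ratWords ε) T [0]) ∧
      ∀ δ : ℝ, 0 < δ → ∃ N₀ : ℕ, ∀ x y : List ℕ, N₀ ≤ x.length + y.length →
        (∀ s ∈ x ++ y, s < (x.length + y.length + 2) ^ a) →
        Crest.WordRAM.expectedTime P ((a + 3) * Nat.clog 2 ((stringsInput x y ++ ratWords ε).length + 2))
            (stringsInput x y ++ ratWords ε)
          ≤ ENNReal.ofReal (((x.length + y.length : ℕ) : ℝ) ^ (1 + δ)) := by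
  refine Crest.Agent.R288.fin_main fun M P h => ⟨?_, fun r hr i s t =>
    (Crest.Agent.R288.Model.vn h hr t i s).mono fun v hv => hv.1⟩
  have hη := Crest.Agent.R288.Model.phase_eta_pos P
  have h1 := Crest.Agent.R288.Model.ratio_iter h (P.kR + 2)
  have h2 : (2 : ℝ) ^ P.kR / 2 ^ (P.kR + 2) ≤ 1 + 3 * Crest.Agent.R288.eta P := by
    have : (2 : ℝ) ^ P.kR / 2 ^ (P.kR + 2) ≤ 1 :=
      (div_le_one (by positivity)).2 (pow_le_pow_right₀ one_le_two (by omega))
    linarith
  rw [max_eq_right h2, ← Crest.Agent.R288.Par.T.eq_1] at h1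
  exact h1

end Crest.Agent.S0433
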