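import Crest.Statements.S0441
import Crest.Agent.R292.Main
import Crest.Agent.R292.Bridge

set_option autoImplicit false
open Crest.LogicCS.Degrees
open Crest Crest.LogicCS

namespace Crest.Agent.R292

/-- The set degree of a point of Cantor space. -/
noncomputable def dg (A : G) : SetDegree := ⟨degOf {n | A n = true}, _, rfl⟩

lemma charFun_eq (A : G) : charFun {n | A n = true} = orc A := by
  funext n
  unfold charFun orc
  congr 1
  by_cases h : A n = true
  · rw [Set.indicator_of_mem (by exact h), h]; rfl
  · rw [Set.indicator_of_notMem (by exact h), Bool.eq_false_iff.2 h]; rfl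

lemma dg_le {A B : G} : dg A ≤ dg B ↔ Red A B := by
  rw [← turingReducible_iff, ← charFun_eq, ← charFun_eq]
  exact Iff.rfl

lemma dg_surj : Function.Surjective dg := by
  classical
  rintro ⟨d, A, rfl⟩
  refine ⟨fun n => decide (n ∈ A), ?_⟩
  unfold dg
  congr 2
  ext n
  simp

lemma le_self (π : SetDegree ≃o SetDegree) (d : SetDegree) : d ≤ π d := by
  choose p hp using fun A : G => dg_surj (π (dg A))
  choose q hq using fun A : G => dg_surj (π.symm (dg A))
  have h : Aut p q := by
    refine ⟨fun A B => ?_, fun A => ?_, fun A => ?_⟩
    · rw [← dg_le, ← dg_le, hp, hp, π.le_iff_le]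
    · rw [← dg_le, hp, hq, π.apply_symm_apply]
    · rw [← dg_le, hp, hq, π.apply_symm_apply]
  obtain ⟨z, rfl⟩ := dg_surj d
  rw [← hp, dg_le]
  exact h.red_self z

end Crest.Agent.R292

namespace Crest.Agent.S0441

/-- Every order automorphism of the partially ordered set of Turing degrees of sets of natural numbers is the identity. The degrees of sets are taken inside the library's degree structure of partial functions, as the classes of characteristic functions, with the induced order. -/
theorem result (π : SetDegree ≃o SetDegree) : π = OrderIso.refl SetDegree := by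
  ext1
  funext d
  refine le_antisymm ?_ (Crest.Agent.R292.le_self π d)
  have := Crest.Agent.R292.le_self π.symm (π d)
  rwa [π.symm_apply_apply] at this

end Crest.Agent.S0441
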