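import Crest.Statements.S0453
import Crest.Agent.R299.Transfer
import Crest.Agent.R299.Mix

set_option autoImplicit false
open Finset
open Crest Crest.LogicCS

namespace Crest.Agent.S0453

/-- For every n ≥ 4 and every labeled degree vector on n vertices with a simple realization: the lazy switch chain (hold with probability 1/2, else take a uniform four-vertex set and a uniform ordered pair of distinct perfect matchings on it, swapping the first for the second when the first is present and the second absent) is, from every realization, within total variation 1/4 of uniform on the realizations after some t ≤ 2n^8 steps; and Var(f) ≤ 24 n² C(n,4) ⟨f, (I − P) f⟩ for the uniform law. -/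
theorem result (n : ℕ) (hn : 4 ≤ n)
    (d : Fin n → ℕ) (hd : (Crest.SwitchChain.realizations d).Nonempty) :
    (∃ t : ℕ, t ≤ 2 * n ^ 8 ∧ ∀ G ∈ Crest.SwitchChain.realizations d,
        Crest.SwitchChain.tvDist (fun G' => (Crest.SwitchChain.kernel n ^ t) G G')
          (Crest.SwitchChain.unifOn (Crest.SwitchChain.realizations d)) ≤ 1 / 4) ∧
      ∀ f : Finset (Crest.SwitchChain.Edge n) → ℝ,
        ((Crest.SwitchChain.realizations d).card : ℝ) *
              (∑ G ∈ Crest.SwitchChain.realizations d, f G ^ 2) -
            (∑ G ∈ Crest.SwitchChain.realizations d, f G) ^ 2 ≤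
          24 * (n : ℝ) ^ 2 * (n.choose 4 : ℝ) * (Crest.SwitchChain.realizations d).card *
            ∑ G ∈ Crest.SwitchChain.realizations d,
              f G * (f G - ∑ G' ∈ Crest.SwitchChain.realizations d,
                Crest.SwitchChain.kernel n G G' * f G') := by
  have hC : (0 : ℝ) < n.choose 4 := by exact_mod_cast Nat.choose_pos hn
  have hn' : (4 : ℝ) ≤ n := by exact_mod_cast hn
  have hRpos : (0 : ℝ) < (Crest.SwitchChain.realizations d).card := by
    exact_mod_cast hd.card_pos
  obtain ⟨K, hK⟩ : ∃ K : ℝ, K = 24 * (n : ℝ) ^ 2 * (n.choose 4 : ℝ) := ⟨_, rfl⟩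
  have hKpos : 0 < K := by rw [hK]; positivity
  constructor
  · refine ⟨2 * n ^ 8, le_rfl, fun G hG => ?_⟩
    have hC1 : (1 : ℝ) ≤ n.choose 4 := by exact_mod_cast Nat.choose_pos hn
    have hK1 : 1 ≤ K := by rw [hK]; nlinarith
    have hγ : 1 / K ≤ 1 := by rw [div_le_one hKpos]; exact hK1
    have h1 := Crest.Agent.R299.tv_bound (Crest.SwitchChain.kernel n)
      (Crest.SwitchChain.realizations d) (1 / K) hγ Crest.Agent.R299.kernel_symm
      Crest.Agent.R299.kernel_lazy (Crest.Agent.R299.kernel_row hn)
      (fun x hx y hy => Crest.Agent.R299.kernel_closed hx hy)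
      (fun f hf => by
        have := Crest.Agent.R299.poincare_zero hn f hf
        rw [← hK] at this
        rw [one_div, inv_mul_le_iff₀ hKpos]
        exact this) G hG (2 * n ^ 8)
    have hKle : K ≤ (n : ℝ) ^ 6 := by
      have h2 : (n.choose 4 : ℝ) ≤ (n : ℝ) ^ 4 / (Nat.factorial 4 : ℝ) := Nat.choose_le_pow_div 4 n
      have h3 : (Nat.factorial 4 : ℝ) = 24 := by norm_num [Nat.factorial]
      rw [h3] at h2
      rw [hK]
      have : (0 : ℝ) ≤ (n : ℝ) ^ 2 := by positivity
      nlinarith
    have hcard : ((Crest.SwitchChain.realizations d).card : ℝ) ≤ 2 ^ (n ^ 2) := by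
      have h2 : (Crest.SwitchChain.realizations d).card ≤
          2 ^ Fintype.card (Crest.SwitchChain.Edge n) := by
        rw [← Fintype.card_finset]; exact Finset.card_le_univ _
      have h3 : Fintype.card (Crest.SwitchChain.Edge n) ≤ n ^ 2 := by
        refine (Fintype.card_subtype_le _).trans ?_
        have := Fintype.card_le_of_surjective (fun p : Fin n × Fin n => s(p.1, p.2))
          (fun e => by
            induction e using Sym2.ind with
            | _ u v => exact ⟨(u, v), rfl⟩)
        simpa [sq] using this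
      exact_mod_cast h2.trans (Nat.pow_le_pow_right (by norm_num) h3)
    have hexp : (1 - 1 / K) ^ (2 * n ^ 8) ≤ (1 / 4) ^ (n ^ 2) := by
      have h2 : 1 - 1 / K ≤ Real.exp (-(1 / K)) := by
        have := Real.add_one_le_exp (-(1 / K)); linarith
      refine (pow_le_pow_left₀ (by linarith) h2 _).trans ?_
      have h3 : (1 / 4 : ℝ) ^ (n ^ 2) ≥ Real.exp (-2) ^ (n ^ 2) := by
        refine pow_le_pow_left₀ (Real.exp_pos _).le ?_ _
        rw [Real.exp_neg, one_div]
        refine inv_anti₀ (by norm_num) ?_
        have := Real.add_one_le_exp 1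
        have h4 : Real.exp 2 = Real.exp 1 * Real.exp 1 := by rw [← Real.exp_add]; norm_num
        nlinarith
      refine le_trans ?_ h3
      rw [← Real.exp_nat_mul, ← Real.exp_nat_mul, Real.exp_le_exp]
      push_cast
      have h4 : (n : ℝ) ^ 2 ≤ (n : ℝ) ^ 8 * (1 / K) := by
        rw [mul_one_div, le_div_iff₀ hKpos]
        have : (0 : ℝ) ≤ (n : ℝ) ^ 2 := by positivity
        calc (n : ℝ) ^ 2 * K ≤ (n : ℝ) ^ 2 * (n : ℝ) ^ 6 := by gcongr
          _ = (n : ℝ) ^ 8 := by ring
      linarith
    have hfin : ((Crest.SwitchChain.realizations d).card : ℝ) * (1 - 1 / K) ^ (2 * n ^ 8) ≤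
        (1 / 2) ^ 2 := by
      calc ((Crest.SwitchChain.realizations d).card : ℝ) * (1 - 1 / K) ^ (2 * n ^ 8)
          ≤ 2 ^ (n ^ 2) * (1 / 4) ^ (n ^ 2) :=
            mul_le_mul hcard hexp (pow_nonneg (by linarith) _) (by positivity)
        _ = (1 / 2) ^ (n ^ 2) := by rw [← mul_pow]; norm_num
        _ ≤ (1 / 2) ^ 2 := pow_le_pow_of_le_one (by norm_num) (by norm_num) (by nlinarith)
    have h2 := abs_le_of_sq_le_sq' (h1.trans hfin) (by norm_num) |>.2
    unfold Crest.SwitchChain.tvDist Crest.SwitchChain.unifOn
    linarith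
  · intro f
    obtain ⟨m, hm⟩ : ∃ m : ℝ, m = (∑ G ∈ Crest.SwitchChain.realizations d, f G) /
      (Crest.SwitchChain.realizations d).card := ⟨_, rfl⟩
    have hsum : ∑ G ∈ Crest.SwitchChain.realizations d, f G =
        (Crest.SwitchChain.realizations d).card * m := by rw [hm]; field_simp
    have h1 := Crest.Agent.R299.poincare_zero hn (fun G => f G - m) (by
      rw [Finset.sum_sub_distrib, hsum]; simp)
    have h2 := Crest.Agent.R299.dirichlet_eq (d := d) hn (fun G => f G - m)
    have h3 := Crest.Agent.R299.dirichlet_eq (d := d) hn f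
    simp only [sub_sub_sub_cancel_right] at h2
    rw [← h3] at h2
    have h4 := mul_left_cancel₀ (by positivity) h2
    rw [h4] at h1
    have h5 : ∑ G ∈ Crest.SwitchChain.realizations d, (f G - m) ^ 2 =
        ∑ G ∈ Crest.SwitchChain.realizations d, f G ^ 2 -
          (Crest.SwitchChain.realizations d).card * m ^ 2 := by
      have : ∀ G, (f G - m) ^ 2 = f G ^ 2 - 2 * m * f G + m ^ 2 := fun G => by ring
      simp only [this, Finset.sum_add_distrib, Finset.sum_sub_distrib, ← Finset.mul_sum, hsum,
        Finset.sum_const, nsmul_eq_mul]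
      ring
    rw [h5] at h1
    have h6 := mul_le_mul_of_nonneg_left h1 hRpos.le
    rw [hsum]
    linarith

end Crest.Agent.S0453
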