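import Crest.Statements.S0479
import Crest.Agent.R309.CoreFin
import Crest.Agent.R309.Samp
import Crest.Agent.R309.Est
import Crest.Agent.R309.Count
import Crest.Agent.R309.Fin79

set_option autoImplicit false
open Crest.Enc Crest.FinProb Crest.Randomized Crest.Tables
open Crest Crest.LogicCS

namespace Crest.Agent.S0479

/-- A randomized polynomial-time approximation scheme counts contingency tables with cell bounds: one algorithm and one polynomial r such that, on the codes of margins, of cell bounds, of rationals ε, δ in (0,1) and a unary block of length ⌈1/ε⌉, run with r(input length) fair random bits, every tape yields the code of a nonnegative rational, which with probability at least 1 − δ is within a factor 1 ± ε of the number of bounded tables, and which is 0 on every tape when there is no such table. -/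
theorem result :
    ∃ (A : List Bool × List Bool → List Bool) (r : Polynomial ℕ), RandPolyTime A ∧
      ∀ (m n : ℕ) (rs : Fin m → ℕ) (cs : Fin n → ℕ) (b : Fin m → Fin n → ℕ) (ε δ : ℚ),
        0 < ε → ε < 1 → 0 < δ → δ < 1 →
        (∀ ω : Fin (r.eval (marginsCode rs cs ++ boundsCode b ++ ratCode ε ++ ratCode δ ++ List.replicate ⌈ε⁻¹⌉₊ true).length) → Bool,
          ∃ z : ℚ, 0 ≤ z ∧ A (marginsCode rs cs ++ boundsCode b ++ ratCode ε ++ ratCode δ ++ List.replicate ⌈ε⁻¹⌉₊ true, List.ofFn ω) = ratCode z) ∧
        (numBoundedTables rs cs b = 0 →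
          ∀ ω : Fin (r.eval (marginsCode rs cs ++ boundsCode b ++ ratCode ε ++ ratCode δ ++
              List.replicate ⌈ε⁻¹⌉₊ true).length) → Bool,
            A (marginsCode rs cs ++ boundsCode b ++ ratCode ε ++ ratCode δ ++
              List.replicate ⌈ε⁻¹⌉₊ true, List.ofFn ω) = ratCode 0) ∧
        1 - (δ : ℝ) ≤ uniformProb {ω : Fin (r.eval (marginsCode rs cs ++ boundsCode b ++ ratCode ε ++
              ratCode δ ++ List.replicate ⌈ε⁻¹⌉₊ true).length) → Bool |
            ∃ z : ℚ, A (marginsCode rs cs ++ boundsCode b ++ ratCode ε ++ ratCode δ ++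
                List.replicate ⌈ε⁻¹⌉₊ true, List.ofFn ω) = ratCode z ∧
              (1 - ε) * numBoundedTables rs cs b ≤ z ∧ z ≤ (1 + ε) * numBoundedTables rs cs b} := by
  obtain ⟨C⟩ := Crest.Agent.R309.exists_core
  obtain ⟨smp, e, h1⟩ := Crest.Agent.R309.exists_sampler C
  obtain ⟨est, e', h2⟩ := Crest.Agent.R309.exists_est h1
  obtain ⟨cnt, e'', h3⟩ := Crest.Agent.R309.exists_count h2
  exact Crest.Agent.R309.fin79 h3

end Crest.Agent.S0479
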