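import Crest.Statements.S0499
import Crest.Agent.R322.Learner

set_option autoImplicit false
open Crest Crest.LogicCS

namespace Crest.Agent.S0499

/-- For each A > 0 there are c > 0 and d₀ such that for all d ≥ d₀, naturals M ≤ A·d² and T, and 0 < ε ≤ 1/10: if a randomized one-pass learner with at most 2^M states (own seed independent of the data; transitions read one pair (x_t, ⟪x_t, s⟫) at a time; optional early stopping; unit-vector output from stopping index, seed and final state), fed T independent standard Gaussian samples in ℝ^d with s uniform on the sphere, is within angle ε of s with probability ≥ 2/3, then T ≥ c·d·log(1/ε). -/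
theorem result :
    ∀ A : ℝ, 0 < A → ∃ c : ℝ, 0 < c ∧ ∃ d₀ : ℕ, ∀ d ≥ d₀, ∀ (M T : ℕ),
      (M : ℝ) ≤ A * (d : ℝ) ^ 2 → ∀ ε : ℝ, 0 < ε → ε ≤ 1 / 10 →
        ∀ L : Crest.StreamLearn.RLearner d T M,
          2 / 3 ≤ L.successProb ε → c * d * Real.log (1 / ε) ≤ T := by
  intro A hA
  set a : ℕ := 64 * ⌈A⌉₊ with ha
  set B : ℝ := 2 ^ (a + 1) * 1024 with hB
  have hB1 : 1 ≤ B := one_le_mul_of_one_le_of_one_le (one_le_pow₀ (by norm_num)) (by norm_num)
  set B' : ℝ := B * (2 * 8 ^ 8) with hB'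
  have hB'1 : 1 < B' := by rw [hB']; nlinarith
  have hlog : 0 < Real.log B' := Real.log_pos hB'1
  clear_value B' B
  refine ⟨1 / (24 * Real.log B'), by positivity, 8, fun d hd M T hM ε hε hε10 L hL => ?_⟩
  obtain ⟨m, hm, h8, h16⟩ : ∃ m : ℕ, 1 ≤ m ∧ 8 * m ≤ d ∧ d ≤ 16 * m :=
    ⟨d / 8, by omega, by omega, by omega⟩
  obtain ⟨k, hk⟩ : ∃ k, k = 2 * m := ⟨_, rfl⟩
  have hk1 : 1 ≤ k := by omega
  have hMk : M ≤ a * k * k := by
    have h1 : (d : ℝ) ≤ 8 * k := by
      have : d ≤ 8 * k := by omega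
      exact_mod_cast this
    have h2 : (M : ℝ) ≤ (a * k * k : ℕ) := by
      calc (M : ℝ) ≤ A * (d : ℝ) ^ 2 := hM
        _ ≤ ⌈A⌉₊ * (8 * k : ℝ) ^ 2 := by gcongr; exact Nat.le_ceil A
        _ = (a * k * k : ℕ) := by rw [ha]; push_cast; ring
    exact_mod_cast h2
  have hM2 : ((2 ^ M * (k + 1) : ℕ) : ℝ) ≤ (2 ^ (a * k + 1)) ^ k := by
    have h1 : 2 ^ M * (k + 1) ≤ (2 ^ (a * k + 1)) ^ k := by
      rw [← pow_mul, add_mul, one_mul, pow_add]
      exact Nat.mul_le_mul (Nat.pow_le_pow_right (by norm_num) hMk) Nat.lt_two_pow_self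
    exact_mod_cast h1
  obtain ⟨b, hb1, hb2⟩ : ∃ b : ℕ, T ≤ b * k ∧ b * k ≤ T + k := by
    refine ⟨T / k + 1, ?_, ?_⟩
    · rw [mul_comm]; exact (Nat.lt_mul_div_succ T hk1).le
    · rw [add_mul, one_mul]; exact Nat.add_le_add_right (Nat.div_mul_le_self T k) k
  have h1 := R322.main_bound L hm h8 h16 (Λ := 2 ^ (a * k + 1)) (one_le_pow₀ (by norm_num))
    (by rw [← hk]; exact hM2) hε (by linarith) b (by rw [← hk]; exact hb1) hL
  rw [← hk] at h1
  have h4T := R322.lt_four_mul L (by omega) hε10 hL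
  have h2 : (2 : ℝ) ^ (a * k + 1) * 1024 ^ k ≤ B ^ k := by
    rw [hB, mul_pow, ← pow_mul]
    gcongr
    · norm_num
    · rw [add_mul, one_mul]; omega
  have h3 : (8 : ℝ) ^ d ≤ (8 ^ 8) ^ k := by
    rw [← pow_mul]
    exact pow_le_pow_right₀ (by norm_num) (by omega)
  have h4 : (2 : ℝ) / 3 ≤ (B ^ b * 8 ^ 8 * ε) ^ k := by
    refine h1.trans ?_
    calc ((2 : ℝ) ^ (a * k + 1) * 1024 ^ k) ^ b * (8 ^ d * ε ^ k)
        ≤ (B ^ k) ^ b * ((8 ^ 8) ^ k * ε ^ k) := by gcongr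
      _ = (B ^ b * 8 ^ 8 * ε) ^ k := by
          rw [mul_pow, mul_pow, ← pow_mul B, ← pow_mul B, mul_comm k b, mul_assoc]
  have h5 : (2 : ℝ) / 3 ≤ B ^ b * 8 ^ 8 * ε := by
    by_contra hc
    push Not at hc
    have := pow_le_of_le_one (a := B ^ b * 8 ^ 8 * ε) (by positivity) (by linarith) (n := k)
      (by omega)
    exact absurd ((h4.trans this).trans_lt hc) (lt_irrefl _)
  have h6 : 1 / ε ≤ B' ^ (b + 1) := by
    rw [div_le_iff₀ hε, pow_succ]
    have h7 : B ^ b ≤ B' ^ b := by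
      gcongr
      rw [hB']; nlinarith
    have h8' : (2 * 8 ^ 8 : ℝ) ≤ B' := by rw [hB']; nlinarith
    calc (1 : ℝ) ≤ B ^ b * (2 * 8 ^ 8) * ε := by linarith
      _ ≤ B' ^ b * B' * ε := by gcongr
  have h7 : Real.log (1 / ε) ≤ (b + 1) * Real.log B' := by
    have := Real.log_le_log (by positivity) h6
    rwa [Real.log_pow, Nat.cast_add, Nat.cast_one] at this
  have h9 : (d : ℝ) * (b + 1) ≤ 24 * T := by
    have : d * (b + 1) ≤ 24 * T := by
      calc d * (b + 1) ≤ 8 * k * (b + 1) := Nat.mul_le_mul_right _ (by omega)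
        _ = 8 * (b * k) + 8 * k := by ring
        _ ≤ 24 * T := by omega
    exact_mod_cast this
  calc 1 / (24 * Real.log B') * d * Real.log (1 / ε)
      ≤ 1 / (24 * Real.log B') * d * ((b + 1) * Real.log B') := by gcongr
    _ = (d * (b + 1)) / 24 := by field_simp
    _ ≤ T := by linarith

end Crest.Agent.S0499
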