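import Crest.Statements.S0514
import Crest.Agent.R331.Main

set_option autoImplicit false
open Crest.MathPhysics.Bosonic
open Crest Crest.MathPhysics

namespace Crest.Agent.S0514

/-- Entropy photon-number inequality. Let `n ≥ 1`, `η ∈ [0,1]`, `g(t) = (t+1) log(t+1) - t log t`, and let `ρA`, `ρB` be states of `n` bosonic modes (positive trace-one operators on the `ℓ²` Fock space) of finite mean photon number with entropies `sA`, `sB` in nats. If `g tA = sA/n`, `g tB = sB/n`, `tA, tB ≥ 0`, then the reduced state of the transmitted modes after mixing the inputs at a beam splitter of transmissivity `η` is a state with an entropy `sC`, and `g(η tA + (1-η) tB) ≤ sC/n`. -/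
theorem result (n : ℕ) (hn : 1 ≤ n) (η : ℝ)
    (hη : η ∈ Set.Icc (0 : ℝ) 1) (ρA ρB : FockState n) (hA : FiniteEnergy ρA) (hB : FiniteEnergy ρB)
    (sA sB : ℝ) (hsA : HasEntropy ρA sA) (hsB : HasEntropy ρB sB) (tA tB : ℝ) (htA : 0 ≤ tA)
    (htB : 0 ≤ tB) (hgA : gBose tA = sA / n) (hgB : gBose tB = sB / n) :
    ∃ ρC : FockState n, IsBeamSplitterOutput η ρA ρB ρC ∧
      ∃ sC : ℝ, HasEntropy ρC sC ∧ gBose (η * tA + (1 - η) * tB) ≤ sC / n := by
  exact Crest.Agent.R331.epni hn η hη ρA ρB hA hB sA sB hsA hsB tA tB htA htB hgA hgB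

end Crest.Agent.S0514
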