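import Crest.Statements.S0521
import Crest.Agent.R335.Main

set_option autoImplicit false
open Crest.MathPhysics.ThreeBody
open Crest Crest.MathPhysics

namespace Crest.Agent.S0521

/-- For every sufficiently large real `D` there is `Z₀ ∈ ℕ` such that for every natural number `Z ≥ Z₀`, the three-electron Coulomb Hamiltonian with two nuclei of charge `Z` at `(0, 0, D/Z)` and `(0, 0, -D/Z)` in ℝ³ has a variational ground state over all antisymmetric spinful states whose spin-summed one-body density is not the density of any countable mixture of ground states of three noninteracting electrons in one real, spin-independent potential of class L^(3/2) + L^∞ on ℝ³. -/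
theorem result :
    ∃ D₀ : ℝ, ∀ D : ℝ, D₀ ≤ D → ∃ Z₀ : ℕ, ∀ Z : ℕ, Z₀ ≤ Z →
      ∃ Ψ : Wave3, IsGroundState (coulombPotential Z (EuclideanSpace.single 2 (D / Z))
          (EuclideanSpace.single 2 (-(D / Z)))) Ψ ∧ ¬ HasEnsembleRep Ψ := by
  exact Crest.Agent.R335.main

end Crest.Agent.S0521
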