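import Crest.Statements.S0534
import Crest.Agent.R341.Power

set_option autoImplicit false
open Crest.Quantum Crest.MathPhysics.AmpDamp
open Crest Crest.MathPhysics

namespace Crest.Agent.S0534

/-- For the generalized amplitude-damping qubit channel with damping `γ` and stationary excited population `ν` in `[0, 1]`, and every `n ≥ 1`: the Holevo information (nats) of every finite ensemble of `n`-qubit density matrices through the `n`-fold tensor power of the channel is at most `n` times the rate function at some point of `[0, 1]`, and for every `p` in `[0, 1]` some such ensemble reaches at least `n` times the rate at `p`. So the `n`-use Holevo capacity is `n` times the top rate. -/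
theorem result (γ ν : ℝ) (hγ : γ ∈ Set.Icc (0 : ℝ) 1)
    (hν : ν ∈ Set.Icc (0 : ℝ) 1) (n : ℕ) (hn : 1 ≤ n) :
    (∀ (m : ℕ) (q : Fin m → ℝ) (ρ : Fin m → Matrix (Fin n → Bool) (Fin n → Bool) ℂ),
        IsEnsemble q ρ → ∃ p ∈ Set.Icc (0 : ℝ) 1,
          holevoInfo (qubitPower n (gadMap γ ν)) q ρ ≤ n * gadRate γ ν p) ∧
    (∀ p ∈ Set.Icc (0 : ℝ) 1, ∃ (m : ℕ) (q : Fin m → ℝ)
        (ρ : Fin m → Matrix (Fin n → Bool) (Fin n → Bool) ℂ),
        IsEnsemble q ρ ∧ n * gadRate γ ν p ≤ holevoInfo (qubitPower n (gadMap γ ν)) q ρ) := by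
  refine ⟨fun m q ρ h => R341.power_upper hγ hν n q ρ h, fun p hp => ?_⟩
  obtain ⟨m, q, ρ, h, he⟩ := R341.power_lower hγ hν hp n
  exact ⟨m, q, ρ, h, he.ge⟩

end Crest.Agent.S0534
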