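import Crest.Statements.S0535
import Crest.Agent.R341.Prod

set_option autoImplicit false
open Crest.Quantum Crest.MathPhysics.AmpDamp
open Crest Crest.MathPhysics

namespace Crest.Agent.S0535

/-- Tensor the generalized amplitude-damping qubit channel (parameters in `[0, 1]`) with any channel `Ψ` between nonzero finite-dimensional systems (linear, completely positive, trace preserving): Holevo capacity and minimum output entropy (nats) are additive: each ensemble for the product map is matched, up to any `ε > 0`, by ensembles for the two factors whose Holevo informations add up to at least as much, and conversely; likewise, reversed, for output entropies of single states. -/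
theorem result (γ ν : ℝ)
    (hγ : γ ∈ Set.Icc (0 : ℝ) 1) (hν : ν ∈ Set.Icc (0 : ℝ) 1)
    (d e : Type) [Fintype d] [Fintype e] [DecidableEq d] [DecidableEq e] [Nonempty d] [Nonempty e]
    (Ψ : Matrix d d ℂ → Matrix e e ℂ) (hΨ : IsChannel Ψ) :
    (∀ (m : ℕ) (q : Fin m → ℝ) (ρ : Fin m → Matrix (Bool × d) (Bool × d) ℂ), IsEnsemble q ρ →
      ∀ ε > (0 : ℝ), ∃ (m₁ : ℕ) (q₁ : Fin m₁ → ℝ) (ρ₁ : Fin m₁ → Matrix Bool Bool ℂ)
        (m₂ : ℕ) (q₂ : Fin m₂ → ℝ) (ρ₂ : Fin m₂ → Matrix d d ℂ),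
        IsEnsemble q₁ ρ₁ ∧ IsEnsemble q₂ ρ₂ ∧
          holevoInfo (qubitTensor (gadMap γ ν) Ψ) q ρ ≤
            holevoInfo (gadMap γ ν) q₁ ρ₁ + holevoInfo Ψ q₂ ρ₂ + ε) ∧
    (∀ (m₁ : ℕ) (q₁ : Fin m₁ → ℝ) (ρ₁ : Fin m₁ → Matrix Bool Bool ℂ)
      (m₂ : ℕ) (q₂ : Fin m₂ → ℝ) (ρ₂ : Fin m₂ → Matrix d d ℂ), IsEnsemble q₁ ρ₁ → IsEnsemble q₂ ρ₂ →
      ∃ (m : ℕ) (q : Fin m → ℝ) (ρ : Fin m → Matrix (Bool × d) (Bool × d) ℂ), IsEnsemble q ρ ∧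
        holevoInfo (gadMap γ ν) q₁ ρ₁ + holevoInfo Ψ q₂ ρ₂ ≤
          holevoInfo (qubitTensor (gadMap γ ν) Ψ) q ρ) ∧
    (∀ ρ : Matrix (Bool × d) (Bool × d) ℂ, IsDensity ρ → ∀ ε > (0 : ℝ),
      ∃ (ρ₁ : Matrix Bool Bool ℂ) (ρ₂ : Matrix d d ℂ), IsDensity ρ₁ ∧ IsDensity ρ₂ ∧
        vnEntropy (gadMap γ ν ρ₁) + vnEntropy (Ψ ρ₂) ≤ vnEntropy (qubitTensor (gadMap γ ν) Ψ ρ) + ε) ∧
    (∀ (ρ₁ : Matrix Bool Bool ℂ) (ρ₂ : Matrix d d ℂ), IsDensity ρ₁ → IsDensity ρ₂ →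
      ∃ ρ : Matrix (Bool × d) (Bool × d) ℂ, IsDensity ρ ∧
        vnEntropy (qubitTensor (gadMap γ ν) Ψ ρ) ≤ vnEntropy (gadMap γ ν ρ₁) + vnEntropy (Ψ ρ₂)) := by
  refine ⟨fun m q ρ h ε hε => ?_, fun m₁ q₁ ρ₁ m₂ q₂ ρ₂ h₁ h₂ => ?_, fun ρ hρ ε hε => ?_,
    fun ρ₁ ρ₂ h₁ h₂ => ?_⟩
  · obtain ⟨p, hp, q₂, ρ₂, h₂, hle⟩ := R341.chi_tensor_le hγ hν hΨ (q := q) (ρ := ρ) h
    obtain ⟨q₁, ρ₁, h₁, he⟩ := R341.exists_chi_eq_rate hγ hν hp
    obtain ⟨m₁, q₁', ρ₁', g₁, e₁⟩ := R341.exists_fin h₁ (gadMap γ ν)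
    obtain ⟨m₂, q₂', ρ₂', g₂, e₂⟩ := R341.exists_fin h₂ Ψ
    refine ⟨m₁, q₁', ρ₁', m₂, q₂', ρ₂', g₁, g₂, ?_⟩
    rw [e₁, e₂, he]
    change R341.chi _ q ρ ≤ _
    linarith
  · obtain ⟨h, he⟩ := R341.chi_product hγ hν hΨ (q₁ := q₁) (ρ₁ := ρ₁) (q₂ := q₂) (ρ₂ := ρ₂) h₁ h₂
    obtain ⟨m, q, ρ, g, e'⟩ := R341.exists_fin h (qubitTensor (gadMap γ ν) Ψ)
    refine ⟨m, q, ρ, g, ?_⟩
    rw [e', he]
    exact le_rfl
  · have hk := R341.tensor_key hγ hν hΨ hρ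
    have hp := R341.pop_mem hρ
    rw [R341.hS_chan_nrm hΨ (R341.block_psd hρ.1 false),
      R341.hS_chan_nrm hΨ (R341.block_psd hρ.1 true), R341.pop_ff hρ,
      ← R341.vn_gad_pureQ hγ hν hp (σ := 1) (by norm_num)] at hk
    change _ + _ + R341.pop ρ * _ ≤ _ at hk
    obtain ⟨p0, p1⟩ := hp
    rcases le_total (vnEntropy (Ψ (R341.nrm (block ρ false false))))
      (vnEntropy (Ψ (R341.nrm (block ρ true true)))) with hle | hle
    · refine ⟨_, _, R341.pureQ_density ⟨p0, p1⟩ (σ := 1) (by norm_num),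
        R341.nrm_density (R341.block_psd hρ.1 false), ?_⟩
      nlinarith [mul_le_mul_of_nonneg_left hle p0]
    · refine ⟨_, _, R341.pureQ_density ⟨p0, p1⟩ (σ := 1) (by norm_num),
        R341.nrm_density (R341.block_psd hρ.1 true), ?_⟩
      nlinarith [mul_le_mul_of_nonneg_left hle (sub_nonneg.2 p1)]
  · refine ⟨_, R341.density_kronecker h₁ h₂, ?_⟩
    rw [R341.tensor_kronecker γ ν hΨ, R341.vn_kronecker_density
      (R341.chan_density (R341.gad_channel hγ hν) h₁) (R341.chan_density hΨ h₂)]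

end Crest.Agent.S0535
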